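import Crest.Agent.R39.Defs

/-!
# R39/Basic: counting, connectivity, `H₁ = H¹ = 0`
-/

set_option autoImplicit false
set_option linter.unusedSectionVars false

namespace Crest.Agent.R39

open Finset

namespace Tri

variable {E V W B : Type} [Fintype E] [Fintype V] [Fintype W] [Fintype B] (T : Tri E V W B)

theorem α_inj : Function.Injective T.α := by
  intro e e' h
  rw [← T.α3 e, h, T.α3]

theorem α_bij : Function.Bijective T.α := by
  exact ⟨T.α_inj, fun e => ⟨T.α (T.α e), T.α3 e⟩⟩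

theorem αα_ne (e : E) : T.α (T.α e) ≠ e := by
  intro h
  have := T.α3 e
  rw [h] at this
  exact T.α_ne e this

theorem w_α (e : E) : T.w (T.α e) = T.w e := by
  exact (T.w_iff e _).2 (Or.inr (Or.inl rfl))

theorem b_β (e : E) : T.b (T.β e) = T.b e := by
  exact (T.b_iff e _).2 (Or.inr (Or.inl rfl))

theorem sum_α (F : E → ℝ) : ∑ e, F (T.α e) = ∑ e, F e := by
  exact T.α_bij.sum_comp F

theorem sum_β (F : E → ℝ) : ∑ e, F (T.β e) = ∑ e, F e := by
  exact T.swap.sum_α F

theorem card_fiber_w [DecidableEq W] (f : W) : (univ.filter fun e => T.w e = f).card = 3 := by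
  classical
  obtain ⟨e, rfl⟩ := T.w_surj f
  have : (univ.filter fun e' => T.w e' = T.w e) = {e, T.α e, T.α (T.α e)} := by
    ext e'
    simp [T.w_iff]
  rw [this, Finset.card_eq_three]
  exact ⟨_, _, _, (T.α_ne e).symm, (T.αα_ne e).symm, (T.α_ne _).symm, rfl⟩

theorem sum_w (c : W → ℝ) : ∑ e, c (T.w e) = 3 * ∑ f, c f := by
  classical
  rw [← Finset.sum_fiberwise (s := univ) (g := T.w), Finset.mul_sum]
  refine Finset.sum_congr rfl fun f _ => ?_
  rw [Finset.sum_congr rfl (g := fun _ => c f) (fun e he => by rw [(Finset.mem_filter.1 he).2])]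
  simp [T.card_fiber_w]

theorem sum_b (c : B → ℝ) : ∑ e, c (T.b e) = 3 * ∑ f, c f := by
  exact T.swap.sum_w c

include T in
theorem card_E_W : Fintype.card E = 3 * Fintype.card W := by
  have := T.sum_w fun _ => 1
  simp only [Finset.sum_const, Finset.card_univ, nsmul_eq_mul, mul_one] at this
  exact_mod_cast this

include T in
theorem card_E_B : Fintype.card E = 3 * Fintype.card B := by
  exact T.swap.card_E_W

include T in
theorem card_W_B : Fintype.card W = Fintype.card B := by
  have := T.card_E_W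
  have := T.card_E_B
  omega

include T in
theorem card_V : Fintype.card V = Fintype.card W + 2 := by
  have := T.card_E_W
  have := T.card_E_B
  have := T.euler
  omega

/-- real form of `loc` -/
theorem loc_real (y : V) (c : W → ℝ) (d : B → ℝ)
    (h : ∀ e, T.t e = y ∨ T.t (T.α e) = y → c (T.w e) = d (T.b e)) {e e' : E} (he : T.t e = y)
    (he' : T.t e' = y) : c (T.w e) = c (T.w e') := by
  have := T.loc y {f | c f = c (T.w e)} {f | d f = c (T.w e)}
    (fun e₁ h₁ => by simp only [Set.mem_ofPred_eq, h e₁ h₁]) e e' he he' rfl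
  exact this.symm

/-- the dual graph is connected -/
theorem connG (c : W → ℝ) (d : B → ℝ) (h : ∀ e, c (T.w e) = d (T.b e)) (e e' : E) :
    c (T.w e) = c (T.w e') := by
  by_contra hne
  have := T.cut3 {f | c f = c (T.w e)} {f | d f = c (T.w e)} (Or.inl ⟨T.w e, rfl⟩)
    (Or.inl ⟨T.w e', fun h' => hne (Eq.symm h')⟩)
  have h0 : {e₁ | ¬ (T.w e₁ ∈ {f | c f = c (T.w e)} ↔ T.b e₁ ∈ {f | d f = c (T.w e)})} = ∅ := by
    ext e₁
    simp [h e₁]
  rw [h0] at this
  simp at this

/-- the triangulation is connected -/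
theorem connT (g : V → ℝ) (h : ∀ e, g (T.t e) = g (T.t (T.α e))) (y y' : V) : g y = g y' := by
  classical
  obtain ⟨e, rfl⟩ := T.t_surj y
  obtain ⟨e', rfl⟩ := T.t_surj y'
  choose rw hrw using T.w_surj
  choose rb hrb using T.b_surj
  have hw : ∀ e, g (T.t (rw (T.w e))) = g (T.t e) := by
    intro e
    rcases (T.w_iff e _).1 (hrw (T.w e)) with h1 | h1 | h1 <;> rw [h1]
    · exact (h e).symm
    · rw [← h, ← h]
  have h' : ∀ e, g (T.t e) = g (T.t (T.β e)) := fun e => by rw [← T.tαβ]; exact h e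
  have hb : ∀ e, g (T.t (rb (T.b e))) = g (T.t e) := by
    intro e
    rcases (T.b_iff e _).1 (hrb (T.b e)) with h1 | h1 | h1 <;> rw [h1]
    · exact (h' e).symm
    · rw [← h', ← h']
  have := T.connG (fun f => g (T.t (rw f))) (fun f => g (T.t (rb f))) (fun e => by simp only [hw, hb]) e e'
  simpa only [hw] using this

/-- boundaries are orthogonal to coboundaries -/
theorem orth (g : V → ℝ) (c : W → ℝ) (d : B → ℝ) :
    ∑ e, (g (T.t (T.α e)) - g (T.t e)) * (c (T.w e) - d (T.b e)) = 0 := by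
  have h1 : ∑ e, g (T.t (T.α e)) * c (T.w e) = ∑ e, g (T.t e) * c (T.w e) := by
    rw [← T.sum_α fun e => g (T.t e) * c (T.w e)]
    simp only [T.w_α]
  have h2 : ∑ e, g (T.t (T.α e)) * d (T.b e) = ∑ e, g (T.t e) * d (T.b e) := by
    rw [← T.sum_β fun e => g (T.t e) * d (T.b e)]
    simp only [T.b_β, T.tαβ]
  have : ∀ e, (g (T.t (T.α e)) - g (T.t e)) * (c (T.w e) - d (T.b e)) =
      (g (T.t (T.α e)) * c (T.w e) - g (T.t e) * c (T.w e)) -
        (g (T.t (T.α e)) * d (T.b e) - g (T.t e) * d (T.b e)) := fun e => by ring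
  simp only [this, Finset.sum_sub_distrib, h1, h2, sub_self]

open Classical in
/-- extension by zero -/
noncomputable def ext0 {X : Type} (S : Finset X) : (S → ℝ) →ₗ[ℝ] (X → ℝ) where
  toFun u x := if h : x ∈ S then u ⟨x, h⟩ else 0
  map_add' u v := by
    ext x
    by_cases h : x ∈ S <;> simp [h]
  map_smul' a u := by
    ext x
    by_cases h : x ∈ S <;> simp [h]

theorem ext0_notMem {X : Type} (S : Finset X) (u : S → ℝ) {x : X} (h : x ∉ S) : ext0 S u x = 0 := by
  simp [ext0, h]

theorem ext0_eq_zero {X : Type} (S : Finset X) (u : S → ℝ) (h : ext0 S u = 0) : u = 0 := by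
  ext ⟨x, hx⟩
  have := congrFun h x
  simpa [ext0, hx] using this

/-- `(g, c, d) ↦ δ g + ∂ (c, d)` -/
def dd : ((V → ℝ) × (W → ℝ) × (B → ℝ)) →ₗ[ℝ] (E → ℝ) where
  toFun p e := p.1 (T.t (T.α e)) - p.1 (T.t e) + (p.2.1 (T.w e) - p.2.2 (T.b e))
  map_add' p q := by
    ext e
    simp only [Prod.fst_add, Prod.snd_add, Pi.add_apply]
    ring
  map_smul' a p := by
    ext e
    simp only [Prod.smul_fst, Prod.smul_snd, Pi.smul_apply, smul_eq_mul, RingHom.id_apply]
    ring

/-- the map `dd` on functions with prescribed supports -/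
noncomputable def ddS (SV : Finset V) (SW : Finset W) (SB : Finset B) (SE : Finset E) :
    ((SV → ℝ) × (SW → ℝ) × (SB → ℝ)) →ₗ[ℝ] (SE → ℝ) :=
  (LinearMap.funLeft ℝ ℝ (Subtype.val : SE → E)) ∘ₗ T.dd ∘ₗ
    ((ext0 SV).prodMap ((ext0 SW).prodMap (ext0 SB)))

theorem ddS_inj (SV : Finset V) (SW : Finset W) (SB : Finset B) (SE : Finset E)
    (h : ∀ (g : V → ℝ) (c : W → ℝ) (d : B → ℝ), (∀ y, y ∉ SV → g y = 0) → (∀ f, f ∉ SW → c f = 0) →
      (∀ f, f ∉ SB → d f = 0) →
      (∀ e ∈ SE, g (T.t (T.α e)) - g (T.t e) + (c (T.w e) - d (T.b e)) = 0) → g = 0 ∧ c = 0 ∧ d = 0) :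
    Function.Injective (T.ddS SV SW SB SE) := by
  rw [injective_iff_map_eq_zero]
  rintro ⟨g, c, d⟩ h0
  obtain ⟨h1, h2, h3⟩ := h (ext0 SV g) (ext0 SW c) (ext0 SB d) (fun _ => ext0_notMem _ _)
    (fun _ => ext0_notMem _ _) (fun _ => ext0_notMem _ _) (fun e he => congrFun h0 ⟨e, he⟩)
  rw [ext0_eq_zero _ _ h1, ext0_eq_zero _ _ h2, ext0_eq_zero _ _ h3]
  rfl

theorem finrank_dom (SV : Finset V) (SW : Finset W) (SB : Finset B) :
    Module.finrank ℝ ((SV → ℝ) × (SW → ℝ) × (SB → ℝ)) = SV.card + SW.card + SB.card := by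
  simp [Module.finrank_prod, add_assoc]

/-- the dimension count behind all Euler inequalities -/
theorem dim_le [DecidableEq E] (SV : Finset V) (SW : Finset W) (SB : Finset B) (SE : Finset E)
    (h : ∀ (g : V → ℝ) (c : W → ℝ) (d : B → ℝ), (∀ y, y ∉ SV → g y = 0) → (∀ f, f ∉ SW → c f = 0) →
      (∀ f, f ∉ SB → d f = 0) →
      (∀ e ∈ SE, g (T.t (T.α e)) - g (T.t e) + (c (T.w e) - d (T.b e)) = 0) → g = 0 ∧ c = 0 ∧ d = 0) :
    SV.card + SW.card + SB.card ≤ SE.card := by
  have := LinearMap.finrank_le_finrank_of_injective (T.ddS_inj SV SW SB SE h)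
  rw [finrank_dom] at this
  simpa using this

theorem eq_zero_of_sum_sq {u : E → ℝ} (h : ∑ e, u e * u e = 0) (e : E) : u e = 0 :=
  mul_self_eq_zero.1 ((Finset.sum_eq_zero_iff_of_nonneg fun e _ => mul_self_nonneg (u e)).1 h e (mem_univ e))

include T in
theorem nonempty_E : Nonempty E := by
  by_contra hE
  rw [not_nonempty_iff] at hE
  have := T.card_V
  have hF : IsEmpty V := T.t_surj.isEmpty
  simp [Fintype.card_eq_zero] at this

/-- Hodge decomposition -/
theorem hodge (z : E → ℝ) : ∃ (g : V → ℝ) (c : W → ℝ) (d : B → ℝ),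
    ∀ e, z e = g (T.t (T.α e)) - g (T.t e) + (c (T.w e) - d (T.b e)) := by
  classical
  obtain ⟨e₀⟩ := T.nonempty_E
  have hinj := T.ddS_inj (univ.erase (T.t e₀)) (univ.erase (T.w e₀)) univ univ (by
    intro g c d hg hc _ h
    have h1 : ∀ e, g (T.t (T.α e)) - g (T.t e) = 0 := by
      apply eq_zero_of_sum_sq
      have := T.orth g c d
      rw [← neg_eq_zero, ← Finset.sum_neg_distrib] at this
      rw [← this]
      refine Finset.sum_congr rfl fun e _ => ?_
      have := h e (mem_univ e)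
      have h2 : c (T.w e) - d (T.b e) = -(g (T.t (T.α e)) - g (T.t e)) := by linarith
      rw [h2]; ring
    have h2 : ∀ e, c (T.w e) = d (T.b e) := fun e => by
      have := h e (mem_univ e)
      have := h1 e
      linarith
    have h3 : ∀ e, c (T.w e) = 0 := fun e => by
      rw [T.connG c d h2 e e₀]
      exact hc _ (by simp)
    refine ⟨funext fun y => ?_, funext fun f => ?_, funext fun f => ?_⟩
    · rw [T.connT g (fun e => by linarith [h1 e]) y (T.t e₀)]
      exact hg _ (by simp)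
    · obtain ⟨e, rfl⟩ := T.w_surj f
      exact h3 e
    · obtain ⟨e, rfl⟩ := T.b_surj f
      rw [← h2, h3]; rfl)
  have hsurj : Function.Surjective (T.ddS (univ.erase (T.t e₀)) (univ.erase (T.w e₀)) univ univ) := by
    rw [← LinearMap.injective_iff_surjective_of_finrank_eq_finrank]
    · exact hinj
    · rw [finrank_dom]
      have h1 := T.euler
      have h2 : 0 < Fintype.card V := Fintype.card_pos_iff.2 ⟨T.t e₀⟩
      have h3 : 0 < Fintype.card W := Fintype.card_pos_iff.2 ⟨T.w e₀⟩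
      simp only [Finset.card_erase_of_mem (mem_univ _), Finset.card_univ, Module.finrank_fintype_fun_eq_card,
        Fintype.card_coe]
      omega
  obtain ⟨⟨g, c, d⟩, h⟩ := hsurj fun e => z e.1
  exact ⟨ext0 _ g, ext0 _ c, ext0 _ d, fun e => (congrFun h ⟨e, mem_univ e⟩).symm⟩

/-- `H₁ = 0` -/
theorem exists_bdry (z : E → ℝ) (hz : ∀ g : V → ℝ, ∑ e, z e * (g (T.t (T.α e)) - g (T.t e)) = 0) :
    ∃ (c : W → ℝ) (d : B → ℝ), ∀ e, z e = c (T.w e) - d (T.b e) := by
  obtain ⟨g, c, d, h⟩ := T.hodge z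
  have h1 : ∀ e, g (T.t (T.α e)) - g (T.t e) = 0 := by
    apply eq_zero_of_sum_sq
    have h2 := hz g
    have h3 := T.orth g c d
    rw [← sub_eq_zero.2 (h2.trans h3.symm), ← Finset.sum_sub_distrib]
    refine Finset.sum_congr rfl fun e _ => ?_
    rw [h e]; ring
  exact ⟨c, d, fun e => by rw [h e, h1 e, zero_add]⟩

/-- `H¹ = 0` -/
theorem exists_cobdry (z : E → ℝ)
    (hz : ∀ (c : W → ℝ) (d : B → ℝ), ∑ e, z e * (c (T.w e) - d (T.b e)) = 0) :
    ∃ g : V → ℝ, ∀ e, z e = g (T.t (T.α e)) - g (T.t e) := by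
  obtain ⟨g, c, d, h⟩ := T.hodge z
  have h1 : ∀ e, c (T.w e) - d (T.b e) = 0 := by
    apply eq_zero_of_sum_sq
    have h2 := hz c d
    have h3 := T.orth g c d
    rw [← sub_eq_zero.2 (h2.trans h3.symm), ← Finset.sum_sub_distrib]
    refine Finset.sum_congr rfl fun e _ => ?_
    rw [h e]; ring
  exact ⟨g, fun e => by rw [h e, h1 e, add_zero]⟩

variable [DecidableEq E] [DecidableEq V] [DecidableEq W] [DecidableEq B]

theorem three_le_cut (I : Finset W) (J : Finset B) (h1 : I.Nonempty ∨ J.Nonempty)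
    (h2 : (∃ f, f ∉ I) ∨ ∃ f, f ∉ J) : 3 ≤ (T.cut I J).card := by
  have := T.cut3 (I : Set W) (J : Set B) (by simpa using h1) (by
    rcases h2 with ⟨f, hf⟩ | ⟨f, hf⟩
    · exact Or.inl ⟨f, by simpa using hf⟩
    · exact Or.inr ⟨f, by simpa using hf⟩)
  rw [← Set.ncard_coe_finset]
  convert this using 2
  ext e
  simp [cut]

theorem card_filter_w (I : Finset W) : (univ.filter fun e => T.w e ∈ I).card = 3 * I.card := by
  have := T.sum_w fun f => if f ∈ I then 1 else 0
  simp only [Finset.sum_boole, Finset.filter_mem_eq_inter, Finset.univ_inter] at this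
  exact_mod_cast this

theorem card_filter_b (J : Finset B) : (univ.filter fun e => T.b e ∈ J).card = 3 * J.card := by
  exact T.swap.card_filter_w J

theorem sum_bd (I : Finset W) (J : Finset B) : ∑ e, T.bd I J e = 3 * ((I.card : ℝ) - J.card) := by
  simp only [bd, Finset.sum_sub_distrib]
  rw [T.sum_w fun f => if f ∈ I then 1 else 0, T.sum_b fun f => if f ∈ J then 1 else 0]
  simp only [Finset.sum_boole, Finset.filter_mem_eq_inter, Finset.univ_inter]
  ring

omit [DecidableEq E] [DecidableEq V] [DecidableEq W] [DecidableEq B] in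
/-- no loops -/
theorem t_α_ne (e : E) : T.t (T.α e) ≠ T.t e := by
  classical
  intro hl
  obtain ⟨c, d, h⟩ := T.exists_bdry (fun e' => if e' = e then 1 else 0) (fun g => by simp [hl])
  have h1 : d (T.b e) ≠ c (T.w e) := by
    have := h e
    simp only [if_true] at this
    intro h2
    rw [h2] at this
    simp at this
  have := T.cut3 {f | c f = c (T.w e)} {f | d f = c (T.w e)} (Or.inl ⟨T.w e, rfl⟩) (Or.inr ⟨T.b e, h1⟩)
  have h0 : {e₁ | ¬ (T.w e₁ ∈ {f | c f = c (T.w e)} ↔ T.b e₁ ∈ {f | d f = c (T.w e)})} ⊆ {e} := by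
    intro e₁ he₁
    by_contra hne
    have h2 := h e₁
    rw [if_neg (show ¬ e₁ = e from hne)] at h2
    have h3 : c (T.w e₁) = d (T.b e₁) := by linarith
    simp [h3] at he₁
  have h4 := Set.ncard_le_ncard h0
  rw [Set.ncard_singleton] at h4
  omega

omit [DecidableEq E] [DecidableEq V] [DecidableEq W] [DecidableEq B] in
/-- the corners of a white face are at distinct vertices -/
theorem eq_of_w_t {e e' : E} (hw : T.w e = T.w e') (ht : T.t e = T.t e') : e = e' := by
  rcases (T.w_iff e e').1 hw.symm with h | h | h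
  · exact h.symm
  · exact absurd (h ▸ ht.symm) (T.t_α_ne e)
  · have := T.t_α_ne (T.α (T.α e))
    rw [T.α3, ← h] at this
    exact absurd ht this

open Classical in
theorem card_root (e₀ : E) : (univ.filter fun y => T.Root e₀ y).card = 3 := by
  rw [← T.card_fiber_w (T.w e₀)]
  symm
  refine Finset.card_bij (fun e _ => T.t e) ?_ ?_ ?_
  · intro e he
    simp only [mem_filter, mem_univ, true_and] at he ⊢
    exact ⟨e, he, rfl⟩
  · intro e he e' he' h
    simp only [mem_filter, mem_univ, true_and] at he he'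
    exact T.eq_of_w_t (he.trans he'.symm) h
  · intro y hy
    simp only [mem_filter, mem_univ, true_and] at hy
    obtain ⟨e, h1, h2⟩ := hy
    exact ⟨e, by simpa using h1, h2⟩

omit [DecidableEq E] [DecidableEq V] [DecidableEq B] in
theorem card_W' (e₀ : E) : Fintype.card (T.W' e₀) + 1 = Fintype.card W := by
  have : 0 < Fintype.card W := Fintype.card_pos_iff.2 ⟨T.w e₀⟩
  simp only [ne_eq, Fintype.card_subtype_compl, Fintype.card_unique]
  omega

open Classical in
theorem card_nonroot (e₀ : E) : Fintype.card {y // ¬ T.Root e₀ y} = Fintype.card (T.W' e₀) := by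
  have h1 := T.card_W' e₀
  have h2 := T.card_root e₀
  have h3 := T.card_V
  rw [Fintype.card_subtype_compl, Fintype.card_subtype, h2]
  omega

omit [DecidableEq E] [DecidableEq V] [DecidableEq W] [DecidableEq B] in
theorem IsState.surj {T : Tri E V W B} {e₀ : E} {μ : T.W' e₀ → E} (h : T.IsState e₀ μ) {y : V}
    (hy : ¬ T.Root e₀ y) : ∃ f, T.t (μ f) = y := by
  classical
  let φ : T.W' e₀ → {y // ¬ T.Root e₀ y} := fun f => ⟨T.t (μ f), h.not_root f⟩
  have hφ : Function.Injective φ := fun f f' hf => h.inj (congrArg Subtype.val hf)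
  have := (Fintype.bijective_iff_injective_and_card φ).2 ⟨hφ, (T.card_nonroot e₀).symm⟩
  obtain ⟨f, hf⟩ := this.2 ⟨y, hy⟩
  exact ⟨f, congrArg Subtype.val hf⟩

end Tri

end Crest.Agent.R39
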