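import Crest.Agent.R39.Cyc

/-!
# R39/Color: from a rooted state to a good colouring
-/

set_option autoImplicit false
set_option linter.unusedSectionVars false

namespace Crest.Agent.R39

open Finset

namespace Tri

variable {E V W B : Type} [Fintype E] [Fintype V] [Fintype W] [Fintype B]
  [DecidableEq E] [DecidableEq V] [DecidableEq W] [DecidableEq B] (T : Tri E V W B)

theorem root_iff (e₀ : E) (y : V) :
    T.Root e₀ y ↔ y = T.t e₀ ∨ y = T.t (T.α e₀) ∨ y = T.t (T.α (T.α e₀)) := by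
  constructor
  · rintro ⟨e, he, rfl⟩
    rcases (T.w_iff e₀ e).1 he with h | h | h <;> simp [h]
  · rintro (rfl | rfl | rfl)
    · exact ⟨_, rfl, rfl⟩
    · exact ⟨_, T.w_α _, rfl⟩
    · exact ⟨_, by rw [T.w_α, T.w_α], rfl⟩

/-- a proper colouring of the forest with a prescribed pattern on the roots -/
theorem exists_col {e₀ : E} {μ : T.W' e₀ → E} (hr : T.Rooted e₀ μ) :
    ∃ x : V → ZMod 2, (∀ f, x (T.t (T.α (μ f))) ≠ x (T.t (T.α (T.α (μ f))))) ∧ x (T.t e₀) = 0 ∧
      x (T.t (T.α e₀)) = 0 ∧ x (T.t (T.α (T.α e₀))) = 1 := by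
  classical
  let X : ({y // ¬ T.Root e₀ y} → ZMod 2) → V → ZMod 2 := fun u y =>
    if h : T.Root e₀ y then (if y = T.t (T.α (T.α e₀)) then 1 else 0) else u ⟨y, h⟩
  let Φ : ({y // ¬ T.Root e₀ y} → ZMod 2) → T.W' e₀ → ZMod 2 := fun u f =>
    X u (T.t (T.α (μ f))) - X u (T.t (T.α (T.α (μ f))))
  have hinj : Function.Injective Φ := by
    intro u u' h
    have := hr (fun y => if X u y = X u' y then 0 else 1) (fun y hy => by simp [X, hy]) (fun f => by
      have h1 := congrFun h f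
      simp only [Φ] at h1
      have h2 : ∀ a b a' b' : ZMod 2, a - b = a' - b' → (a = a' ↔ b = b') := by decide
      simp only [h2 _ _ _ _ h1])
    funext y
    have h3 := this y.1
    simpa [X, y.2] using h3
  have hbij := (Fintype.bijective_iff_injective_and_card Φ).2 ⟨hinj, by
    rw [Fintype.card_fun, Fintype.card_fun, T.card_nonroot]⟩
  obtain ⟨u, hu⟩ := hbij.2 fun _ => 1
  refine ⟨X u, fun f h => ?_, ?_, ?_, ?_⟩
  · have h1 := congrFun hu f
    simp only [Φ, h, sub_self] at h1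
    exact zero_ne_one h1
  · have h1 : T.t e₀ ≠ T.t (T.α (T.α e₀)) := by
      have := T.t_α_ne (T.α (T.α e₀))
      rwa [T.α3] at this
    simp [X, (T.root_iff e₀ _).2 (Or.inl rfl), h1]
  · have h1 : T.t (T.α e₀) ≠ T.t (T.α (T.α e₀)) := (T.t_α_ne _).symm
    simp [X, (T.root_iff e₀ _).2 (Or.inr (Or.inl rfl)), h1]
  · simp [X, (T.root_iff e₀ _).2 (Or.inr (Or.inr rfl))]

theorem not_mono_of_ne {x : V → ZMod 2} {a e : E} (h : T.w e = T.w a)
    (hne : x (T.t (T.α a)) ≠ x (T.t (T.α (T.α a)))) : ¬ (T.Mono x e ∧ T.Mono x (T.α e)) := by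
  unfold Mono
  rcases (T.w_iff a e).1 h with rfl | rfl | rfl
  · exact fun h => hne h.2
  · exact fun h => hne h.1
  · rw [T.α3]
    exact fun h => hne (h.2.symm.trans h.1.symm)

open Classical in
/-- indicator of the monochromatic edges -/
noncomputable def mo (x : V → ZMod 2) (e : E) : ℝ := if T.Mono x e then 1 else 0

theorem mo_nonneg (x : V → ZMod 2) (e : E) : 0 ≤ T.mo x e := by
  unfold mo
  split_ifs <;> norm_num

theorem mo_swap (x : V → ZMod 2) (e : E) : T.swap.mo x e = T.mo x e := by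
  have : T.swap.Mono x e ↔ T.Mono x e := by
    unfold Mono
    rw [T.tαβ]
    rfl
  unfold mo
  by_cases h : T.Mono x e
  · rw [if_pos h, if_pos (this.2 h)]
  · rw [if_neg h, if_neg fun h' => h (this.1 h')]

theorem one_le_mo (x : V → ZMod 2) (e : E) : 1 ≤ T.mo x e + T.mo x (T.α e) + T.mo x (T.α (T.α e)) := by
  have h : ∀ a b c : ZMod 2, a = b ∨ b = c ∨ c = a := by decide
  have h0 := T.mo_nonneg x e
  have h1 := T.mo_nonneg x (T.α e)
  have h2 := T.mo_nonneg x (T.α (T.α e))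
  rcases h (x (T.t e)) (x (T.t (T.α e))) (x (T.t (T.α (T.α e)))) with h | h | h
  · have : T.mo x e = 1 := if_pos h
    linarith
  · have : T.mo x (T.α e) = 1 := if_pos h
    linarith
  · have : T.mo x (T.α (T.α e)) = 1 := if_pos (by unfold Mono; rw [T.α3]; exact h)
    linarith

theorem mo_eq_one {x : V → ZMod 2} (h : ∀ e, ¬ (T.Mono x e ∧ T.Mono x (T.α e))) (e : E) :
    T.mo x e + T.mo x (T.α e) + T.mo x (T.α (T.α e)) = 1 := by
  have h0 := T.one_le_mo x e
  have h1 := h e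
  have h2 := h (T.α e)
  have h3 := h (T.α (T.α e))
  rw [T.α3] at h3
  unfold mo at h0 ⊢
  split_ifs at h0 ⊢ <;> first | tauto | (norm_num at h0; done) | norm_num

theorem sum_three (u : E → ℝ) : ∑ e, (u e + u (T.α e) + u (T.α (T.α e))) = 3 * ∑ e, u e := by
  rw [Finset.sum_add_distrib, Finset.sum_add_distrib, T.sum_α fun e => u (T.α e), T.sum_α u]
  ring

theorem black_of_white {x : V → ZMod 2} (h : ∀ e, ¬ (T.Mono x e ∧ T.Mono x (T.α e))) (e : E) :
    ¬ (T.Mono x e ∧ T.Mono x (T.β e)) := by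
  have h1 := T.sum_three (T.mo x)
  have h2 := T.swap.sum_three (T.mo x)
  simp only [T.mo_eq_one h] at h1
  have h3 : ∀ e, 0 ≤ T.mo x e + T.mo x (T.β e) + T.mo x (T.β (T.β e)) - 1 := fun e => by
    have := T.swap.one_le_mo x e
    simp only [mo_swap] at this
    exact sub_nonneg.2 this
  have h4 : ∑ e, (T.mo x e + T.mo x (T.β e) + T.mo x (T.β (T.β e)) - 1) = 0 := by
    rw [Finset.sum_sub_distrib, h1]
    exact sub_eq_zero.2 h2
  have h5 := (Finset.sum_eq_zero_iff_of_nonneg fun e _ => h3 e).1 h4 e (mem_univ e)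
  rintro ⟨h6, h7⟩
  have h8 : T.mo x e = 1 := if_pos h6
  have h9 : T.mo x (T.β e) = 1 := if_pos h7
  have := T.mo_nonneg x (T.β (T.β e))
  linarith

theorem sum_mo_w {x : V → ZMod 2} (h : ∀ e, ¬ (T.Mono x e ∧ T.Mono x (T.α e))) (c : W → ℝ) :
    ∑ e, T.mo x e * c (T.w e) = ∑ f, c f := by
  have h1 := T.sum_three fun e => T.mo x e * c (T.w e)
  simp only [T.w_α, ← add_mul, T.mo_eq_one h, one_mul, T.sum_w] at h1
  linarith

theorem sum_mo_bd {x : V → ZMod 2} (h : ∀ e, ¬ (T.Mono x e ∧ T.Mono x (T.α e))) (I : Finset W) (J : Finset B) :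
    ∑ e, T.mo x e * T.bd I J e = (I.card : ℝ) - J.card := by
  have h1 := T.sum_mo_w h fun f => if f ∈ I then 1 else 0
  have h2 := T.swap.sum_mo_w (x := x) (fun e h' => T.black_of_white h e (by
    unfold Mono at h' ⊢
    rw [T.tαβ, T.tαβ]
    exact h')) fun f => if f ∈ J then 1 else 0
  simp only [mo_swap] at h2
  simp only [bd, mul_sub, Finset.sum_sub_distrib]
  rw [h1]
  erw [h2]
  simp

theorem exists_min_closed {ι : Type} [DecidableEq ι] (τ : ι → ι) (Z : Finset ι) (hne : Z.Nonempty)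
    (hZ : ∀ f ∈ Z, τ f ∈ Z) : ∃ O ⊆ Z, O.Nonempty ∧ (∀ f ∈ O, τ f ∈ O) ∧
      ∀ S ⊆ O, S.Nonempty → (∀ f ∈ S, τ f ∈ S) → S = O := by
  classical
  obtain ⟨O, hO, hmin⟩ := Finset.exists_min_image
    (Z.powerset.filter fun S => S.Nonempty ∧ ∀ f ∈ S, τ f ∈ S) Finset.card ⟨Z, by simpa using ⟨hne, hZ⟩⟩
  simp only [mem_filter, mem_powerset] at hO hmin
  exact ⟨O, hO.1, hO.2.1, hO.2.2, fun S hS h1 h2 =>
    Finset.eq_of_subset_of_card_le hS (hmin S ⟨hS.trans hO.1, h1, h2⟩)⟩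

theorem good_of_rooted {e₀ : E} {μ : T.W' e₀ → E} (hμ : T.IsState e₀ μ) (hr : T.Rooted e₀ μ) :
    ∃ x, T.Good x ∧ T.Mono x e₀ := by
  classical
  obtain ⟨x, hx, h0, h1, h2⟩ := T.exists_col hr
  have hm0 : T.Mono x e₀ := h0.trans h1.symm
  have hwhite : ∀ e, ¬ (T.Mono x e ∧ T.Mono x (T.α e)) := by
    intro e
    by_cases he : T.w e = T.w e₀
    · exact T.not_mono_of_ne he (by rw [h1, h2]; exact zero_ne_one)
    · exact T.not_mono_of_ne (hμ.w_eq ⟨T.w e, he⟩).symm (hx _)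
  refine ⟨x, ⟨hwhite, T.black_of_white hwhite, fun g hg => ?_⟩, hm0⟩
  let ν : T.W' e₀ → E := fun f => if T.Mono x (μ f) then T.α (μ f) else T.α (T.α (μ f))
  have hνw : ∀ f, T.w (ν f) = T.w (μ f) := fun f => by
    simp only [ν]
    split_ifs <;> simp only [T.w_α]
  have hνne : ∀ f, ν f ≠ μ f := fun f => by
    simp only [ν]
    split_ifs
    · exact T.α_ne _
    · exact T.αα_ne _
  have hmono : ∀ f, T.Mono x (T.stp (μ f) (ν f)) := fun f => by
    simp only [ν, stp]
    by_cases h : T.Mono x (μ f)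
    · simp only [h, if_true]
    · simp only [h, if_false, if_neg (T.α_ne (T.α (μ f)))]
      have h3 : ∀ a b c : ZMod 2, ¬ a = b → b ≠ c → c = a := by decide
      unfold Mono at h ⊢
      rw [T.α3]
      exact h3 _ _ _ h (hx f)
  let k : V → ℝ := fun y => g y - if x y = 0 then g (T.t e₀) else g (T.t (T.α (T.α e₀)))
  have hk : ∀ e, T.Mono x e → k (T.t e) = k (T.t (T.α e)) := fun e he => by
    simp only [k]
    rw [hg e he, he]
  have hkν : ∀ f, k (T.t (ν f)) = k (T.t (μ f)) := fun f => by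
    have h3 := hk _ (hmono f)
    rcases T.stp_ends (hνw f) (hνne f) with h4 | h4 <;> rw [h4.1, h4.2] at h3
    · exact h3.symm
    · exact h3
  have hkr : ∀ y, T.Root e₀ y → k y = 0 := fun y hy => by
    rcases (T.root_iff e₀ y).1 hy with rfl | rfl | rfl
    · simp [k, h0]
    · simp [k, h1, hg e₀ hm0]
    · simp [k, h2]
  have hk0 : ∀ f, k (T.t (μ f)) = 0 := by
    by_contra hne
    push Not at hne
    let τ : T.W' e₀ → T.W' e₀ := fun f => if h : ∃ f', T.t (μ f') = T.t (ν f) then h.choose else f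
    have hτ : ∀ f, k (T.t (μ f)) ≠ 0 → T.t (μ (τ f)) = T.t (ν f) := fun f hf => by
      have h3 : ∃ f', T.t (μ f') = T.t (ν f) := hμ.surj fun h4 => hf (by rw [← hkν, hkr _ h4])
      simp only [τ, dif_pos h3]
      exact h3.choose_spec
    obtain ⟨O, hOZ, hOne, hO, hmin⟩ := exists_min_closed τ (univ.filter fun f => k (T.t (μ f)) ≠ 0)
      (by obtain ⟨f, hf⟩ := hne; exact ⟨f, by simpa using hf⟩) (fun f hf => by
        simp only [mem_filter, mem_univ, true_and] at hf ⊢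
        rwa [hτ f hf, hkν])
    obtain ⟨I, J, s, -, -, hcard, hb⟩ := T.cyc hμ ν O τ hOne (fun f _ => by rw [hνw, hμ.w_eq]) (fun f _ => hνne f)
      (fun f hf => ⟨hO f hf, hτ f (by simpa using hOZ hf)⟩) hmin
    have h3 := T.sum_mo_bd hwhite I J
    have h4 := T.sum_bd I J
    have h5 : ∀ e, T.mo x e * T.bd I J e = T.bd I J e := fun e => by
      by_cases he : T.Mono x e
      · rw [show T.mo x e = 1 from if_pos he, one_mul]
      · have h6 : T.zc O μ ν e = 0 := IsCyc.zc_off fun f _ h => he (h ▸ hmono f)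
        rw [hb, h6, mul_zero, mul_zero]
    simp only [h5] at h3
    rw [h3, hcard] at h4
    push_cast at h4
    linarith
  have hk1 : ∀ y, k y = 0 := fun y => by
    by_cases hy : T.Root e₀ y
    · exact hkr y hy
    · obtain ⟨f, rfl⟩ := hμ.surj hy
      exact hk0 f
  intro y y' hy
  have h3 := hk1 y
  have h4 := hk1 y'
  simp only [k] at h3 h4
  rw [hy] at h3
  linarith

end Tri

end Crest.Agent.R39
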