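import Crest.Agent.R39.Disc

/-!
# R39/Contract: cutting along a separating triangle
-/

set_option autoImplicit false

namespace Crest.Agent.R39

open Finset

namespace Tri

variable {E V W B : Type} [Fintype E] [Fintype V] [Fintype W] [Fintype B]
  [DecidableEq E] [DecidableEq V] [DecidableEq W] [DecidableEq B] (T : Tri E V W B)

omit [Fintype V] in
theorem contract_three {x₁ x₂ x₃ y₁ y₂ y₃ : V}
    (h : ∀ g : V → ℝ, g y₁ + g y₂ + g y₃ = g x₁ + g x₂ + g x₃) (h₁ : y₁ ≠ x₁) (h₂ : y₂ ≠ x₂)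
    (h₃ : y₃ ≠ x₃) : (y₁ = x₂ ∧ y₂ = x₃ ∧ y₃ = x₁) ∨ (y₁ = x₃ ∧ y₃ = x₂ ∧ y₂ = x₁) := by
  have two : ∀ {a b c d : V}, (∀ g : V → ℝ, g a + g b = g c + g d) → a ≠ d → a = c ∧ b = d := by
    intro a b c d h had
    have hac : a = c := by
      by_contra hac
      have := h fun z => if a = z then 1 else 0
      simp only [if_pos, if_neg hac, if_neg had] at this
      split_ifs at this <;> norm_num at this
    subst hac
    refine ⟨rfl, ?_⟩
    by_contra hbd
    have := h fun z => if b = z then 1 else 0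
    simp [hbd] at this
  by_cases h12 : y₁ = x₂
  · subst h12
    obtain ⟨h4, h5⟩ := two (a := y₃) (b := y₂) (c := x₁) (d := x₃) (fun g => by linarith [h g]) h₃
    exact Or.inl ⟨rfl, h5, h4⟩
  by_cases h13 : y₁ = x₃
  · subst h13
    obtain ⟨h4, h5⟩ := two (a := y₂) (b := y₃) (c := x₁) (d := x₂) (fun g => by linarith [h g]) h₂
    exact Or.inr ⟨rfl, h5, h4⟩
  exfalso
  have := h fun z => if y₁ = z then 1 else 0
  simp only [if_pos, if_neg h₁, if_neg h12, if_neg h13] at this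
  split_ifs at this <;> norm_num at this

omit [DecidableEq E] [DecidableEq V] in
theorem contract_mem_cut {I : Finset W} {J : Finset B} (hJ : ∀ e, T.b e ∈ J → T.w e ∈ I) {e : E} :
    e ∈ T.cut I J ↔ T.w e ∈ I ∧ T.b e ∉ J := by
  have := hJ e
  simp only [cut, mem_filter, mem_univ, true_and]
  tauto

/-- a 3-cut with all white ends inside is a directed triangle.  Recipe: `bd I J = 1_cut` is orthogonal to all coboundaries (`orth`),
so in-degree = out-degree at each vertex; no loops (`t_α_ne`). -/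
theorem cut_triangle {I : Finset W} {J : Finset B} (h3 : (T.cut I J).card = 3) (hJ : ∀ e, T.b e ∈ J → T.w e ∈ I) :
    ∃ e₁ e₂ e₃, T.cut I J = {e₁, e₂, e₃} ∧ T.t (T.α e₁) = T.t e₂ ∧ T.t (T.α e₂) = T.t e₃ ∧ T.t (T.α e₃) = T.t e₁ := by
  obtain ⟨a, b, c, hab, hac, hbc, habc⟩ := card_eq_three.1 h3
  have key : ∀ g : V → ℝ, g (T.t (T.α a)) + g (T.t (T.α b)) + g (T.t (T.α c)) =
      g (T.t a) + g (T.t b) + g (T.t c) := by
    intro g
    have h1 := T.orth g (fun f => if f ∈ I then 1 else 0) (fun f => if f ∈ J then 1 else 0)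
    have h2 : ∑ e, (g (T.t (T.α e)) - g (T.t e)) *
        ((if T.w e ∈ I then (1 : ℝ) else 0) - if T.b e ∈ J then 1 else 0) =
        ∑ e ∈ T.cut I J, (g (T.t (T.α e)) - g (T.t e)) := by
      rw [cut, sum_filter]
      refine sum_congr rfl fun e _ => ?_
      have := hJ e
      by_cases hw : T.w e ∈ I <;> by_cases hb : T.b e ∈ J <;> simp_all
    rw [h2, habc, sum_insert (by simp [hab, hac]), sum_pair hbc] at h1
    linarith
  rcases contract_three key (T.t_α_ne a) (T.t_α_ne b) (T.t_α_ne c) with h | h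
  · exact ⟨a, b, c, habc, h⟩
  · exact ⟨a, c, b, by rw [habc, pair_comm], h⟩

theorem contract_rho {I : Finset W} {J : Finset B} (h3 : (T.cut I J).card = 3)
    (hJ : ∀ e, T.b e ∈ J → T.w e ∈ I) :
    (T.Vin I J).card + I.card + J.card = (T.Ein I J).card + 1 ∧
    ∃ ρ : E → E, (∀ e, T.b e ∈ J → ρ e = T.β e) ∧ ∀ e ∈ T.cut I J, ρ e ∈ T.cut I J ∧
      T.t (T.α e) = T.t (ρ e) ∧ ρ (ρ (ρ e)) = e ∧ ρ e ≠ e ∧
      ∀ e' ∈ T.cut I J, e' = e ∨ e' = ρ e ∨ e' = ρ (ρ e) := by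
  obtain ⟨a, b, c, habc, h1, h2, h3'⟩ := T.cut_triangle h3 hJ
  have hab : T.t a ≠ T.t b := fun h => T.t_α_ne a (h1.trans h.symm)
  have hbc : T.t b ≠ T.t c := fun h => T.t_α_ne b (h2.trans h.symm)
  have hca : T.t c ≠ T.t a := fun h => T.t_α_ne c (h3'.trans h.symm)
  have hab' : b ≠ a := fun h => hab (by rw [h])
  have hbc' : c ≠ b := fun h => hbc (by rw [h])
  have hca' : c ≠ a := fun h => hca (by rw [h])
  have hm : ∀ e, e ∈ T.cut I J ↔ e = a ∨ e = b ∨ e = c := fun e => by simp [habc]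
  constructor
  · refine T.euler_disc I J ⟨a, (hm a).2 (Or.inl rfl)⟩ {T.t a, T.t b, T.t c} (fun y => ?_) ?_ ?_
    · simp only [hm, mem_insert, mem_singleton, or_and_right, exists_or, exists_eq_left, h1, h2, h3',
        eq_comm (a := y)]
      tauto
    · rw [h3, card_eq_three]
      exact ⟨_, _, _, hab, hca.symm, hbc, rfl⟩
    · intro g hg y hy y' hy'
      have g1 := hg a ((hm a).2 (Or.inl rfl))
      have g2 := hg b ((hm b).2 (Or.inr (Or.inl rfl)))
      rw [h1] at g1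
      rw [h2] at g2
      simp only [mem_insert, mem_singleton] at hy hy'
      rcases hy with rfl | rfl | rfl <;> rcases hy' with rfl | rfl | rfl <;> linarith
  · set ρ : E → E := fun e => if e = a then b else if e = b then c else if e = c then a else T.β e with hρ
    have ra : ρ a = b := by simp [hρ]
    have rb : ρ b = c := by simp [hρ, hab']
    have rc : ρ c = a := by simp [hρ, hbc', hca']
    refine ⟨ρ, fun e he => ?_, fun e he => ?_⟩
    · have : e ∉ T.cut I J := fun h => ((T.contract_mem_cut hJ).1 h).2 he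
      rw [hm] at this
      push Not at this
      simp [hρ, this]
    · simp only [hm] at he ⊢
      rcases he with rfl | rfl | rfl
      · rw [ra, rb, rc]
        exact ⟨by tauto, h1, rfl, hab', fun e' h => h⟩
      · rw [rb, rc, ra]
        exact ⟨by tauto, h2, rfl, hbc', fun e' h => by tauto⟩
      · rw [rc, ra, rb]
        exact ⟨by tauto, h3', rfl, hca'.symm, fun e' h => by tauto⟩

/-- the faces `(I, J)` together with one new black face `none` bounded by the three cut edges.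
Recipe: `β₁ e = β e` if `b e ∈ J`, and `e₁ ↦ e₂ ↦ e₃ ↦ e₁` on the cut; `b₁ e = some (b e)` if `b e ∈ J`, else `none`.
`loc` and `cut3` of the new triangulation for `(I', J')`: apply those of `T` to `I'' = I' ∪ (Iᶜ if none ∈ J')`,
`J'' = J' ∪ (Jᶜ if none ∈ J')`; an edge with `w e ∉ I` has `b e ∉ J`, so it is not cut.  `euler`: `euler_disc` with `C` = the three
vertices of the triangle and `Ein I J = {e | w e ∈ I}`. -/
theorem contract {I : Finset W} {J : Finset B} (h3 : (T.cut I J).card = 3) (hJ : ∀ e, T.b e ∈ J → T.w e ∈ I)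
    (hI : ∃ f, f ∉ I) :
    ∃ T₁ : Tri {e // T.w e ∈ I} {y // y ∈ T.Vin I J} {f // f ∈ I} (Option {f // f ∈ J}),
      (∀ e, (T₁.t e).1 = T.t e.1) ∧ (∀ e, (T₁.α e).1 = T.α e.1) ∧ (∀ e, T.b e.1 ∈ J → (T₁.β e).1 = T.β e.1) ∧
      ∀ e, T.b e.1 ∉ J → T.b (T₁.β e).1 ∉ J := by
  obtain ⟨heul, ρ, hρ1, hρ2⟩ := T.contract_rho h3 hJ
  have hc : ∀ e : {e // T.w e ∈ I}, T.b e.1 ∉ J → e.1 ∈ T.cut I J := fun e he =>
    (T.contract_mem_cut hJ).2 ⟨e.2, he⟩
  have hc' : ∀ e ∈ T.cut I J, T.w e ∈ I ∧ T.b e ∉ J := fun e he => (T.contract_mem_cut hJ).1 he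
  have hρw : ∀ e : {e // T.w e ∈ I}, T.w (ρ e.1) ∈ I := fun e => by
    by_cases he : T.b e.1 ∈ J
    · rw [hρ1 _ he]
      exact hJ _ (by rwa [T.b_β])
    · exact (hc' _ (hρ2 _ (hc e he)).1).1
  have hρρ : ∀ e, T.b e ∈ J → ρ (ρ e) = T.β (T.β e) := fun e he => by
    rw [hρ1 _ he, hρ1 _ (by rwa [T.b_β])]
  let w₁ : {e // T.w e ∈ I} → {f // f ∈ I} := fun e => ⟨T.w e.1, e.2⟩
  let b₁ : {e // T.w e ∈ I} → Option {f // f ∈ J} := fun e =>
    if h : T.b e.1 ∈ J then some ⟨T.b e.1, h⟩ else none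
  let II : Set {f // f ∈ I} → Set (Option {f // f ∈ J}) → Set W := fun I' J' =>
    {f | (∃ h : f ∈ I, ⟨f, h⟩ ∈ I') ∨ (f ∉ I ∧ none ∈ J')}
  let JJ : Set (Option {f // f ∈ J}) → Set B := fun J' =>
    {f | (∃ h : f ∈ J, some ⟨f, h⟩ ∈ J') ∨ (f ∉ J ∧ none ∈ J')}
  have hII : ∀ I' J' (f : {f // f ∈ I}), f.1 ∈ II I' J' ↔ f ∈ I' := fun I' J' f => by
    simp [II, f.2]
  have hJJ' : ∀ J' (f : {f // f ∈ J}), f.1 ∈ JJ J' ↔ some f ∈ J' := fun J' f => by
    simp [JJ, f.2]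
  have hJJ : ∀ J' (e : {e // T.w e ∈ I}), T.b e.1 ∈ JJ J' ↔ b₁ e ∈ J' := fun J' e => by
    by_cases he : T.b e.1 ∈ J <;> simp [JJ, b₁, he]
  have hIo : ∀ I' J' f, f ∉ I → (f ∈ II I' J' ↔ none ∈ J') := fun I' J' f hf => by
    simp [II, hf]
  have hout : ∀ I' J' e, T.w e ∉ I → (T.w e ∈ II I' J' ↔ T.b e ∈ JJ J') := fun I' J' e he => by
    have : T.b e ∉ J := fun h => he (hJ e h)
    simp [II, JJ, he, this]
  obtain ⟨f₀, hf₀⟩ := hI
  refine ⟨{ t := fun e => ⟨T.t e.1, T.mem_Vin.2 ⟨e.1, rfl, Or.inl e.2⟩⟩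
            α := fun e => ⟨T.α e.1, by rw [T.w_α]; exact e.2⟩
            β := fun e => ⟨ρ e.1, hρw e⟩
            w := w₁
            b := b₁
            t_surj := ?_, w_surj := ?_, b_surj := ?_, α3 := ?_, β3 := ?_, α_ne := ?_, β_ne := ?_,
            tαβ := ?_, w_iff := ?_, b_iff := ?_, loc := ?_, euler := ?_, cut3 := ?_ },
    fun e => rfl, fun e => rfl, fun e he => hρ1 _ he, fun e he => (hc' _ (hρ2 _ (hc e he)).1).2⟩
  · rintro ⟨y, hy⟩
    obtain ⟨e, rfl, he⟩ := T.mem_Vin.1 hy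
    exact ⟨⟨e, he.elim id (hJ e)⟩, rfl⟩
  · rintro ⟨f, hf⟩
    obtain ⟨e, rfl⟩ := T.w_surj f
    exact ⟨⟨e, hf⟩, rfl⟩
  · rintro (_ | ⟨f, hf⟩)
    · obtain ⟨e, he⟩ : (T.cut I J).Nonempty := card_pos.1 (by omega)
      exact ⟨⟨e, (hc' e he).1⟩, dif_neg (hc' e he).2⟩
    · obtain ⟨e, rfl⟩ := T.b_surj f
      exact ⟨⟨e, hJ e hf⟩, dif_pos hf⟩
  · exact fun e => Subtype.ext (T.α3 e.1)
  · intro e
    refine Subtype.ext ?_
    show ρ (ρ (ρ e.1)) = e.1
    by_cases he : T.b e.1 ∈ J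
    · rw [hρρ _ he, hρ1 _ (by rwa [T.b_β, T.b_β]), T.β3]
    · exact (hρ2 _ (hc e he)).2.2.1
  · exact fun e h => T.α_ne e.1 (congrArg Subtype.val h)
  · intro e h
    have h' : ρ e.1 = e.1 := congrArg Subtype.val h
    by_cases he : T.b e.1 ∈ J
    · exact T.β_ne e.1 (by rwa [hρ1 _ he] at h')
    · exact (hρ2 _ (hc e he)).2.2.2.1 h'
  · intro e
    refine Subtype.ext ?_
    show T.t (T.α e.1) = T.t (ρ e.1)
    by_cases he : T.b e.1 ∈ J
    · rw [hρ1 _ he, T.tαβ]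
    · exact (hρ2 _ (hc e he)).2.1
  · intro e e'
    simp only [Subtype.ext_iff, w₁]
    exact T.w_iff e.1 e'.1
  · intro e e'
    simp only [Subtype.ext_iff]
    by_cases he : T.b e.1 ∈ J
    · rw [hρρ _ he, hρ1 _ he, ← T.b_iff]
      by_cases he' : T.b e'.1 ∈ J
      · simp [b₁, he, he']
      · simp only [b₁, dif_pos he, dif_neg he', reduceCtorEq, false_iff]
        exact fun h => he' (h ▸ he)
    · have h1 := hρ2 _ (hc e he)
      by_cases he' : T.b e'.1 ∈ J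
      · simp only [b₁, dif_pos he', dif_neg he, reduceCtorEq, false_iff]
        rintro (h | h | h)
        · exact he (h ▸ he')
        · exact (hc' _ h1.1).2 (h ▸ he')
        · exact (hc' _ (hρ2 _ h1.1).1).2 (h ▸ he')
      · simp only [b₁, dif_neg he', dif_neg he, true_iff]
        exact h1.2.2.2.2 _ (hc e' he')
  · intro y I' J' h e e' he he' hw
    refine (hII I' J' (w₁ e')).1 (T.loc y.1 (II I' J') (JJ J') (fun x hx => ?_) e.1 e'.1
      (congrArg Subtype.val he) (congrArg Subtype.val he') ((hII I' J' (w₁ e)).2 hw))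
    by_cases hxI : T.w x ∈ I
    · exact (hII I' J' (w₁ ⟨x, hxI⟩)).trans ((h ⟨x, hxI⟩ (hx.imp Subtype.ext Subtype.ext)).trans
        (hJJ J' ⟨x, hxI⟩).symm)
    · exact hout I' J' x hxI
  · have h1 : Fintype.card {e // T.w e ∈ I} = (T.Ein I J).card := by
      rw [Fintype.card_subtype, Ein]
      congr 1
      exact filter_congr fun e _ => ⟨Or.inl, fun h => h.elim id (hJ e)⟩
    rw [h1, Fintype.card_option, Fintype.card_coe, Fintype.card_coe, Fintype.card_coe]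
    omega
  · intro I' J' h1 h2
    have h := T.cut3 (II I' J') (JJ J') ?_ ?_
    · rw [← Set.ncard_image_of_injective _ Subtype.val_injective]
      refine h.trans (le_of_eq (congrArg _ (Set.ext fun e => ⟨fun he => ?_, ?_⟩)))
      · have hw : T.w e ∈ I := by
          by_contra hw
          exact he (hout I' J' e hw)
        exact ⟨⟨e, hw⟩, fun h' => he ((hII I' J' (w₁ ⟨e, hw⟩)).trans (h'.trans (hJJ J' ⟨e, hw⟩).symm)), rfl⟩
      · rintro ⟨e, he, rfl⟩ h'
        exact he ((hII I' J' (w₁ e)).symm.trans (h'.trans (hJJ J' e)))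
    · rcases h1 with ⟨f, hf⟩ | ⟨_ | f, hf⟩
      · exact Or.inl ⟨f.1, (hII I' J' f).2 hf⟩
      · exact Or.inl ⟨f₀, (hIo I' J' f₀ hf₀).2 hf⟩
      · exact Or.inr ⟨f.1, (hJJ' J' f).2 hf⟩
    · rcases h2 with ⟨f, hf⟩ | ⟨_ | f, hf⟩
      · exact Or.inl ⟨f.1, fun h => hf ((hII I' J' f).1 h)⟩
      · exact Or.inl ⟨f₀, fun h => hf ((hIo I' J' f₀ hf₀).1 h)⟩
      · exact Or.inr ⟨f.1, fun h => hf ((hJJ' J' f).1 h)⟩

end Tri

end Crest.Agent.R39
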