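import Mathlib

/-!
# R39/SumAux: sums over unions of cycles of a permutation
-/

set_option autoImplicit false
set_option linter.unusedSectionVars false

namespace Crest.Agent.R39

open Finset Complex

variable {X : Type} [Fintype X] [DecidableEq X]

/-- the cycle of `x` -/
def orb (τ : Equiv.Perm X) (x : X) : Finset X := univ.filter fun y => τ.SameCycle x y

theorem mem_orb {τ : Equiv.Perm X} {x y : X} : y ∈ orb τ x ↔ τ.SameCycle x y := by
  simp [orb]

theorem pow_mem_of_closed {τ : Equiv.Perm X} {S : Finset X} (hS : ∀ y ∈ S, τ y ∈ S) {y : X} (hy : y ∈ S) (n : ℕ) :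
    (τ ^ n) y ∈ S := by
  induction n with
  | zero => simpa using hy
  | succ n ih =>
    rw [pow_succ', Equiv.Perm.mul_apply]
    exact hS _ ih

theorem orb_min (τ : Equiv.Perm X) (x : X) : ∀ S ⊆ orb τ x, S.Nonempty → (∀ y ∈ S, τ y ∈ S) → S = orb τ x := by
  rintro S hS ⟨y, hy⟩ hcl
  refine Finset.Subset.antisymm hS fun z hz => ?_
  obtain ⟨i, -, rfl⟩ := ((mem_orb.1 (hS hy)).symm.trans (mem_orb.1 hz)).exists_pow_eq'
  exact pow_mem_of_closed hcl hy i

theorem sign_eq_one_of_odd (τ : Equiv.Perm X) (hfix : ∀ x, τ x ≠ x) (h : ∀ x, Odd (orb τ x).card) :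
    Equiv.Perm.sign τ = 1 := by
  have hk : Odd (∏ x, (orb τ x).card) := 
    Finset.prod_induction _ Odd (fun _ _ => Odd.mul) odd_one fun x _ => h x
  have h1 : τ ^ (∏ x, (orb τ x).card) = 1 := by
    ext x
    have h2 : (τ.cycleOf x).support = orb τ x := by
      ext y
      rw [Equiv.Perm.mem_support_cycleOf_iff' (hfix x), mem_orb]
    rw [← Equiv.Perm.pow_mod_card_support_cycleOf_self_apply, h2,
      Nat.mod_eq_zero_of_dvd (Finset.dvd_prod_of_mem _ (mem_univ x))]
    simp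
  have h3 := congrArg Equiv.Perm.sign h1
  rw [map_pow, map_one] at h3
  rcases Int.units_eq_one_or (Equiv.Perm.sign τ) with h4 | h4
  · exact h4
  · rw [h4, hk.neg_one_pow] at h3
    exact absurd h3 (by decide)

theorem inv_of_sameCycle {τ : Equiv.Perm X} {χ : X → Bool} (h : ∀ x, χ (τ x) = χ x) {x y : X}
    (hxy : τ.SameCycle x y) : χ x = χ y := by
  obtain ⟨i, -, rfl⟩ := hxy.exists_pow_eq'
  clear hxy
  induction i with
  | zero => simp
  | succ n ih => rw [pow_succ', Equiv.Perm.mul_apply, h, ← ih]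

/-- the sum over all ways to choose `A` or `B` on each cycle factors over the cycles -/
theorem sum_inv (τ : Equiv.Perm X) (A B m : X → ℝ)
    (h : ∀ x, ∃ r : ℝ, 0 < r ∧ exp (I * (∑ y ∈ orb τ x, A y : ℝ)) + exp (I * (∑ y ∈ orb τ x, B y : ℝ)) =
      r * exp (I * (∑ y ∈ orb τ x, m y : ℝ))) :
    ∃ r : ℝ, 0 < r ∧ ∑ χ ∈ univ.filter (fun χ : X → Bool => ∀ x, χ (τ x) = χ x),
      exp (I * (∑ x, if χ x then B x else A x : ℝ)) = r * exp (I * (∑ x, m x : ℝ)) := by
  classical
  let s := Equiv.Perm.SameCycle.setoid τ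
  let Q := Quotient s
  let π : X → Q := Quotient.mk s
  let fib : Q → Finset X := fun q => univ.filter fun y => π y = q
  have hfib : ∀ x, fib (π x) = orb τ x := fun x => by
    ext y
    simp only [fib, mem_filter, mem_univ, true_and, mem_orb]
    exact ⟨fun h => (Quotient.exact h).symm, fun h => Quotient.sound h.symm⟩
  have h' : ∀ q : Q, ∃ r : ℝ, 0 < r ∧ exp (I * (∑ y ∈ fib q, A y : ℝ)) + exp (I * (∑ y ∈ fib q, B y : ℝ)) =
      r * exp (I * (∑ y ∈ fib q, m y : ℝ)) := fun q => by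
    obtain ⟨x, rfl⟩ := Quotient.exists_rep q
    have := h x
    rwa [← hfib] at this
  choose r hr hr' using h'
  have hexp : ∀ u : X → ℝ, exp (I * (∑ x, u x : ℝ)) = ∏ q, exp (I * (∑ y ∈ fib q, u y : ℝ)) := fun u => by
    rw [← Complex.exp_sum, ← Finset.mul_sum, ← Complex.ofReal_sum, Finset.sum_fiberwise]
  refine ⟨∏ q, r q, Finset.prod_pos fun q _ => hr q, ?_⟩
  rw [hexp m, Complex.ofReal_prod, ← Finset.prod_mul_distrib, ← Finset.prod_congr rfl fun q _ => hr' q]
  have h2 : ∀ q : Q, exp (I * (∑ y ∈ fib q, A y : ℝ)) + exp (I * (∑ y ∈ fib q, B y : ℝ)) =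
      ∑ c : Bool, exp (I * (∑ y ∈ fib q, if c then B y else A y : ℝ)) := fun q => by
    simp [add_comm]
  simp only [h2]
  rw [Fintype.prod_sum]
  symm
  refine Finset.sum_bij (fun ψ _ => fun x => ψ (π x)) ?_ ?_ ?_ ?_
  · intro ψ _
    simp only [mem_filter, mem_univ, true_and]
    intro x
    congr 1
    exact Quotient.sound (Equiv.Perm.sameCycle_apply_left.2 (Equiv.Perm.SameCycle.refl τ x))
  · intro ψ _ ψ' _ hψ
    funext q
    obtain ⟨x, rfl⟩ := Quotient.exists_rep q
    exact congrFun hψ x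
  · intro χ hχ
    simp only [mem_filter, mem_univ, true_and] at hχ
    exact ⟨Quotient.lift χ fun x y hxy => inv_of_sameCycle hχ hxy, mem_univ _, rfl⟩
  · intro ψ _
    rw [hexp]
    refine Finset.prod_congr rfl fun q _ => ?_
    congr 3
    refine Finset.sum_congr rfl fun y hy => ?_
    simp only [(Finset.mem_filter.1 hy).2]

/-- the factor of one cycle -/
theorem two_exp (a b x s : ℝ) (hs : s = 1 ∨ s = -1) (hab : a - b = s * x) (hx : 0 < x) (hx' : x ≤ 2) :
    ∃ r : ℝ, 0 < r ∧ exp (I * (a + 3 * Real.pi / 2 * s : ℝ)) + exp (I * (b - 3 * Real.pi / 2 * s : ℝ)) =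
      r * exp (I * ((a + b) / 2 : ℝ)) := by
  have hsin : 0 < Real.sin (x / 2) :=
    Real.sin_pos_of_pos_of_lt_pi (by linarith) (by linarith [Real.pi_gt_three])
  refine ⟨2 * Real.sin (x / 2), by linarith, ?_⟩
  have h1 : Real.cos (s * (x / 2 + 3 * Real.pi / 2)) = Real.sin (x / 2) := by
    have h2 : Real.cos (x / 2 + 3 * Real.pi / 2) = Real.sin (x / 2) := by
      rw [show x / 2 + 3 * Real.pi / 2 = (x / 2 - Real.pi / 2) + 2 * Real.pi by ring, Real.cos_add_two_pi,
        Real.cos_sub_pi_div_two]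
    rcases hs with rfl | rfl
    · rw [one_mul, h2]
    · rw [neg_one_mul, Real.cos_neg, h2]
  rw [← h1]
  set u := s * (x / 2 + 3 * Real.pi / 2) with hu
  have h3 : a + 3 * Real.pi / 2 * s = (a + b) / 2 + u := by rw [hu]; linarith
  have h4 : b - 3 * Real.pi / 2 * s = (a + b) / 2 - u := by rw [hu]; linarith
  rw [h3, h4]
  set c := (a + b) / 2
  push_cast
  rw [Complex.two_cos, mul_add, mul_sub, Complex.exp_add, sub_eq_add_neg, Complex.exp_add]
  ring_nf

end Crest.Agent.R39
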