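import Crest.Agent.R39.Cyc
import Crest.Agent.R39.SumAux

/-!
# R39/Sum: the exponential sum over pairs of states
-/

set_option autoImplicit false
set_option linter.unusedSectionVars false

namespace Crest.Agent.R39

open Finset

namespace Tri

variable {E V W B : Type} [Fintype E] [Fintype V] [Fintype W] [Fintype B]
  [DecidableEq E] [DecidableEq V] [DecidableEq W] [DecidableEq B] (T : Tri E V W B)

/-- `(c, d) ↦ (∂ (c, d), c (w e₀))` -/
def bdL (e₀ : E) : ((W → ℝ) × (B → ℝ)) →ₗ[ℝ] ((E → ℝ) × ℝ) where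
  toFun p := (fun e => p.1 (T.w e) - p.2 (T.b e), p.1 (T.w e₀))
  map_add' p q := by
    ext e
    · simp only [Prod.fst_add, Prod.snd_add, Pi.add_apply]
      ring
    · simp
  map_smul' a p := by
    ext e
    · simp only [Prod.smul_fst, Prod.smul_snd, Pi.smul_apply, smul_eq_mul, RingHom.id_apply]
      ring
    · simp

/-- a 1-form whose flux is `1` through every black face and `0` through every white face other than the root face -/
theorem exists_flux (e₀ : E) : ∃ ω : E → ℝ, ∀ (I : Finset W) (J : Finset B), T.w e₀ ∉ I →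
    ∑ e, T.bd I J e * ω e = J.card := by
  have hinj : LinearMap.ker (T.bdL e₀) = ⊥ := by
    rw [LinearMap.ker_eq_bot']
    rintro ⟨c, d⟩ h
    have h1 : ∀ e, c (T.w e) = d (T.b e) := fun e => sub_eq_zero.1 (congrFun (congrArg Prod.fst h) e)
    have h2 : c (T.w e₀) = 0 := congrArg Prod.snd h
    have h3 : ∀ e, c (T.w e) = 0 := fun e => by rw [T.connG c d h1 e e₀, h2]
    ext f
    · obtain ⟨e, rfl⟩ := T.w_surj f
      exact h3 e
    · obtain ⟨e, rfl⟩ := T.b_surj f
      exact (h1 e).symm.trans (h3 e)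
  obtain ⟨L, hL⟩ := LinearMap.exists_leftInverse_of_injective _ hinj
  let Λ : (E → ℝ) →ₗ[ℝ] ℝ := (∑ f : B, LinearMap.proj f) ∘ₗ LinearMap.snd ℝ _ _ ∘ₗ L ∘ₗ LinearMap.inl ℝ _ _
  refine ⟨fun e => Λ fun e' => if e = e' then 1 else 0, fun I J h0 => ?_⟩
  have h1 := LinearMap.pi_apply_eq_sum_univ Λ (T.bd I J)
  simp only [smul_eq_mul] at h1
  rw [← h1]
  have h2 : LinearMap.inl ℝ _ _ (T.bd I J) =
      T.bdL e₀ (fun f => if f ∈ I then 1 else 0, fun f => if f ∈ J then 1 else 0) := by
    ext e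
    · rfl
    · simp [bdL, h0]
  have h3 := LinearMap.congr_fun hL (fun f => if f ∈ I then 1 else 0, fun f => if f ∈ J then 1 else 0)
  simp only [Λ, LinearMap.comp_apply] at h3 ⊢
  rw [h2, h3]
  simp

/-- small corner weights whose differences are the flux -/
theorem exists_weight (e₀ : E) : ∃ (lam ω : E → ℝ) (ε : ℝ), 0 < ε ∧ ∑ e, |lam e| ≤ 1 ∧
    (∀ a b, T.w a ≠ T.w e₀ → T.w b = T.w a → b ≠ a → lam a - lam b = T.sg a b * ω (T.stp a b)) ∧
    ∀ (I : Finset W) (J : Finset B), T.w e₀ ∉ I → ∑ e, T.bd I J e * ω e = ε * J.card := by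
  obtain ⟨ω, hω⟩ := T.exists_flux e₀
  have hface : ∀ a, T.w a ≠ T.w e₀ → ω a + ω (T.α a) + ω (T.α (T.α a)) = 0 := by
    intro a ha
    have h1 := hω {T.w a} ∅ (by simpa using ha.symm)
    have h2 : (univ.filter fun e => T.w e = T.w a) = {a, T.α a, T.α (T.α a)} := by
      ext e
      simp [T.w_iff]
    simp only [bd, mem_singleton, notMem_empty, if_false, sub_zero, ite_mul, one_mul, zero_mul, card_empty,
      Nat.cast_zero] at h1
    rw [← Finset.sum_filter, h2, Finset.sum_insert (by simp [(T.α_ne a).symm, (T.αα_ne a).symm]),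
      Finset.sum_pair (T.α_ne _).symm] at h1
    linarith
  set l : E → ℝ := fun e => (ω e - ω (T.α (T.α e))) / 3 with hl
  have hl1 : ∀ a, T.w a ≠ T.w e₀ → l a - l (T.α a) = ω a := fun a ha => by
    have := hface a ha
    simp only [hl, T.α3]
    linarith
  have hS : 0 ≤ ∑ e, |l e| := Finset.sum_nonneg fun e _ => abs_nonneg _
  set ε : ℝ := (1 + ∑ e, |l e|)⁻¹ with hε
  have hε0 : 0 < ε := by positivity
  refine ⟨fun e => ε * l e, fun e => ε * ω e, ε, hε0, ?_, ?_, ?_⟩
  · simp only [abs_mul, abs_of_pos hε0, ← Finset.mul_sum]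
    rw [hε, inv_mul_le_iff₀ (by positivity)]
    linarith
  · intro a b ha hb hne
    unfold sg stp
    split_ifs with h1
    · rw [h1, ← mul_sub, hl1 a ha, one_mul]
    · have h2 := hl1 b (hb ▸ ha)
      rw [T.eq_αα hb hne h1, T.α3, ← T.eq_αα hb hne h1] at h2
      simp only
      rw [← h2]
      ring
  · intro I J h0
    rw [← hω I J h0, Finset.mul_sum]
    exact Finset.sum_congr rfl fun e _ => by ring

theorem sg_symm {a b : E} (h : T.w b = T.w a) (hne : b ≠ a) : T.sg b a = -T.sg a b := by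
  unfold sg
  by_cases h1 : b = T.α a
  · rw [if_pos h1, if_neg]
    rw [h1]
    exact (T.αα_ne a).symm
  · rw [if_neg h1, if_pos, neg_neg]
    rw [T.eq_αα h hne h1, T.α3]

/-- pairs of everywhere different states -/
structure IsPair (e₀ : E) (μ ν : T.W' e₀ → E) : Prop where
  hμ : T.IsState e₀ μ
  hν : T.IsState e₀ ν
  hne : ∀ f, ν f ≠ μ f

namespace IsPair

variable {T} {e₀ : E} {μ ν : T.W' e₀ → E}

theorem w_eq (h : T.IsPair e₀ μ ν) (f : T.W' e₀) : T.w (ν f) = T.w (μ f) := by
  rw [h.hν.w_eq, h.hμ.w_eq]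

theorem exists_perm (h : T.IsPair e₀ μ ν) : ∃ τ : Equiv.Perm (T.W' e₀), ∀ f, T.t (μ (τ f)) = T.t (ν f) := by
  choose τ hτ using fun f => h.hμ.surj (h.hν.not_root f)
  have hinj : Function.Injective τ := fun f f' hf => h.hν.inj (by
    simp only
    rw [← hτ, ← hτ, hf])
  exact ⟨Equiv.ofBijective τ (Finite.injective_iff_bijective.1 hinj), hτ⟩

theorem cyc_orb (h : T.IsPair e₀ μ ν) {τ : Equiv.Perm (T.W' e₀)} (hτ : ∀ f, T.t (μ (τ f)) = T.t (ν f))
    (f : T.W' e₀) : ∃ (I : Finset W) (J : Finset B) (s : ℝ), (s = 1 ∨ s = -1) ∧ T.w e₀ ∉ I ∧ J.card = I.card + 1 ∧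
      (∀ e, T.bd I J e = s * T.zc (orb τ f) μ ν e) ∧ ∑ g ∈ orb τ f, T.sg (μ g) (ν g) = -3 * s := by
  obtain ⟨I, J, s, hs, h0, hc, hb⟩ := T.cyc h.hμ ν (orb τ f) τ ⟨f, mem_orb.2 (Equiv.Perm.SameCycle.refl _ _)⟩
    (fun g _ => h.hν.w_eq g) (fun g _ => h.hne g)
    (fun g hg => ⟨mem_orb.2 (Equiv.Perm.sameCycle_apply_right.2 (mem_orb.1 hg)), hτ g⟩) (orb_min τ f)
  refine ⟨I, J, s, hs, h0, hc, hb, ?_⟩
  have h1 := T.sum_bd I J
  have h2 := T.sum_zc_mul (orb τ f) μ ν fun _ => 1
  simp only [mul_one] at h2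
  simp only [hb, ← Finset.mul_sum, h2, hc] at h1
  push_cast at h1
  rcases hs with rfl | rfl <;> linarith

theorem sign_eq (h : T.IsPair e₀ μ ν) {τ : Equiv.Perm (T.W' e₀)} (hτ : ∀ f, T.t (μ (τ f)) = T.t (ν f)) :
    Equiv.Perm.sign τ = 1 := by
  refine sign_eq_one_of_odd τ (fun f hf => h.hne f ?_) fun f => ?_
  · refine T.eq_of_w_t (h.w_eq f) ?_
    rw [← hτ, hf]
  · obtain ⟨I, J, s, hs, -, -, -, h1⟩ := h.cyc_orb hτ f
    have h2 : ∑ g ∈ orb τ f, T.sg (μ g) (ν g) =
        2 * (((orb τ f).filter fun g => ν g = T.α (μ g)).card : ℝ) - (orb τ f).card := by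
      rw [Finset.card_filter, Finset.card_eq_sum_ones (orb τ f)]
      push_cast
      rw [Finset.mul_sum, ← Finset.sum_sub_distrib]
      refine Finset.sum_congr rfl fun g _ => ?_
      unfold sg
      split_ifs <;> norm_num
    rw [h2] at h1
    set p := ((orb τ f).filter fun g => ν g = T.α (μ g)).card
    set n := (orb τ f).card
    rcases hs with rfl | rfl
    · have h3 : n = 2 * p + 3 := by
        have : (n : ℝ) = 2 * p + 3 := by linarith
        exact_mod_cast this
      exact ⟨p + 1, by omega⟩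
    · have h3 : n + 3 = 2 * p := by
        have : (n : ℝ) + 3 = 2 * p := by linarith
        exact_mod_cast this
      exact ⟨p - 2, by omega⟩

end IsPair

open Classical in
/-- determinant expansion: if `R_μ` is not a rooted forest, the signed number of partners of `μ` vanishes -/
theorem sum_sg_eq_zero {e₀ : E} {μ : T.W' e₀ → E} (hμ : T.IsState e₀ μ) (hr : ¬ T.Rooted e₀ μ) :
    ∑ ν ∈ univ.filter (fun ν => T.IsPair e₀ μ ν), ∏ f, T.sg (μ f) (ν f) = 0 := by
  let M : Matrix (T.W' e₀) (T.W' e₀) ℝ := fun f' f =>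
    (if T.t (μ f') = T.t (T.α (μ f)) then 1 else 0) - (if T.t (μ f') = T.t (T.α (T.α (μ f))) then 1 else 0)
  have hdet : M.det = 0 := by
    rw [← Matrix.exists_vecMul_eq_zero_iff]
    unfold Rooted at hr
    push Not at hr
    obtain ⟨g, hg0, hg, y, hy⟩ := hr
    have h1 : ∀ y, ∑ f', g (T.t (μ f')) * (if T.t (μ f') = y then 1 else 0) = g y := fun y => by
      by_cases hy : T.Root e₀ y
      · rw [hg0 y hy]
        refine Finset.sum_eq_zero fun f' _ => ?_
        rw [if_neg fun h : T.t (μ f') = y => hμ.not_root f' (h ▸ hy), mul_zero]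
      · obtain ⟨f, rfl⟩ := hμ.surj hy
        rw [Finset.sum_eq_single f]
        · simp
        · intro f' _ hne
          rw [if_neg fun h => hne (hμ.inj h), mul_zero]
        · simp
    refine ⟨fun f' => g (T.t (μ f')), fun h => ?_, ?_⟩
    · obtain ⟨f, rfl⟩ := hμ.surj fun h' => hy (hg0 y h')
      exact hy (congrFun h f)
    · funext f
      simp only [Matrix.vecMul, dotProduct, M, mul_sub, Finset.sum_sub_distrib, h1, hg f, sub_self, Pi.zero_apply]
  rw [← hdet, Matrix.det_apply]
  let P : (T.W' e₀ → E) → Equiv.Perm (T.W' e₀) := fun ν =>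
    if h : ∃ τ : Equiv.Perm (T.W' e₀), ∀ f, T.t (μ (τ f)) = T.t (ν f) then h.choose else 1
  have hP : ∀ ν, T.IsPair e₀ μ ν → ∀ f, T.t (μ (P ν f)) = T.t (ν f) := fun ν hν => by
    simp only [P, dif_pos hν.exists_perm]
    exact hν.exists_perm.choose_spec
  refine Finset.sum_of_injOn P ?_ (fun _ _ => mem_coe.2 (mem_univ _)) ?_ ?_
  · intro ν hν ν' hν' h
    simp only [coe_filter, mem_univ, true_and, Set.mem_ofPred_eq] at hν hν'
    funext f
    refine T.eq_of_w_t ((hν.w_eq f).trans (hν'.w_eq f).symm) ?_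
    rw [← hP ν hν, ← hP ν' hν', h]
  · intro τ _ hτ
    by_contra hne
    have h1 : ∀ f, M (τ f) f ≠ 0 := fun f h => hne (by
      rw [Finset.prod_eq_zero (f := fun i => M (τ i) i) (mem_univ f) h, smul_zero])
    let ν : T.W' e₀ → E := fun f => if T.t (μ (τ f)) = T.t (T.α (μ f)) then T.α (μ f) else T.α (T.α (μ f))
    have h2 : ∀ f, T.t (μ (τ f)) = T.t (ν f) := fun f => by
      have h3 := h1 f
      simp only [M] at h3
      simp only [ν]
      split_ifs at h3 ⊢ with h4 h5 h5
      · exact h4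
      · exact h4
      · exact h5
      · simp at h3
    have h3 : T.IsPair e₀ μ ν := by
      refine ⟨hμ, ⟨fun f => ?_, fun f => h2 f ▸ hμ.not_root _, fun f f' h => ?_⟩, fun f => ?_⟩
      · simp only [ν]
        split_ifs <;> simp only [T.w_α, hμ.w_eq]
      · simp only [← h2] at h
        exact τ.injective (hμ.inj h)
      · simp only [ν]
        split_ifs
        · exact T.α_ne _
        · exact T.αα_ne _
    refine hτ ⟨ν, by simpa using h3, ?_⟩
    ext f
    exact congrArg Subtype.val (hμ.inj ((hP ν h3 f).trans (h2 f).symm))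
  · intro ν hν
    simp only [mem_filter, mem_univ, true_and] at hν
    rw [hν.sign_eq (hP ν hν), one_smul]
    refine Finset.prod_congr rfl fun f _ => ?_
    simp only [M, hP ν hν, sg]
    by_cases h1 : ν f = T.α (μ f)
    · rw [if_pos h1, h1, if_pos rfl, if_neg (T.t_α_ne _).symm, sub_zero]
    · rw [if_neg h1, T.eq_αα (hν.w_eq f) (hν.hne f) h1, if_pos rfl, if_neg (T.t_α_ne _), zero_sub]

theorem abs_sum_le {e₀ : E} {μ : T.W' e₀ → E} (hμ : T.IsState e₀ μ) {lam : E → ℝ} (h : ∑ e, |lam e| ≤ 1)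
    (O : Finset (T.W' e₀)) : |∑ f ∈ O, lam (μ f)| ≤ 1 := by
  refine (Finset.abs_sum_le_sum_abs _ _).trans (le_trans ?_ h)
  rw [← Finset.sum_image (f := fun e => |lam e|) (g := μ) fun f _ f' _ hf => hμ.inj (by simp only [hf])]
  exact Finset.sum_le_sum_of_subset_of_nonneg (Finset.subset_univ _) fun e _ _ => abs_nonneg _

/-- the phase of the step from `a` to `b` -/
noncomputable def ph (lam : E → ℝ) (a b : E) : ℝ := lam a - Real.pi / 2 * T.sg a b

open Classical in
/-- the pairs with the same underlying 2-factor contribute a number with positive real part -/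
theorem fiber_pos {e₀ : E} {lam ω : E → ℝ} {ε : ℝ} (hε : 0 < ε) (hlam : ∑ e, |lam e| ≤ 1)
    (hstep : ∀ a b, T.w a ≠ T.w e₀ → T.w b = T.w a → b ≠ a → lam a - lam b = T.sg a b * ω (T.stp a b))
    (hflux : ∀ (I : Finset W) (J : Finset B), T.w e₀ ∉ I → ∑ e, T.bd I J e * ω e = ε * J.card)
    {μ ν : T.W' e₀ → E} (h : T.IsPair e₀ μ ν) :
    0 < (∑ p ∈ univ.filter (fun p : (T.W' e₀ → E) × (T.W' e₀ → E) =>
        T.IsPair e₀ p.1 p.2 ∧ ∀ f, s(p.1 f, p.2 f) = s(μ f, ν f)),
      Complex.exp (Complex.I * (∑ f, T.ph lam (p.1 f) (p.2 f) : ℝ))).re := by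
  obtain ⟨τ, hτ⟩ := h.exists_perm
  obtain ⟨r, hr, hsum⟩ := sum_inv τ (fun f => T.ph lam (μ f) (ν f)) (fun f => T.ph lam (ν f) (μ f))
    (fun f => (lam (μ f) + lam (ν f)) / 2) (fun f => by
      obtain ⟨I, J, s, hs, h0, hc, hb, hsg⟩ := h.cyc_orb hτ f
      have h1 : ∑ g ∈ orb τ f, lam (μ g) - ∑ g ∈ orb τ f, lam (ν g) = s * (ε * J.card) := by
        rw [← hflux I J h0, ← Finset.sum_sub_distrib, Finset.sum_congr rfl fun g _ =>
          hstep (μ g) (ν g) (by rw [h.hμ.w_eq]; exact g.2) (h.w_eq g) (h.hne g), ← T.sum_zc_mul, Finset.mul_sum]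
        refine Finset.sum_congr rfl fun e _ => ?_
        rw [hb]
        rcases hs with rfl | rfl <;> ring
      have h2 := abs_le.1 (T.abs_sum_le h.hμ hlam (orb τ f))
      have h3 := abs_le.1 (T.abs_sum_le h.hν hlam (orb τ f))
      obtain ⟨r, hr, h4⟩ := two_exp _ _ _ s hs h1 (by rw [hc]; positivity)
        (by rcases hs with rfl | rfl <;> linarith [h2.1, h2.2, h3.1, h3.2])
      refine ⟨r, hr, ?_⟩
      convert h4 using 5
      · simp only [ph, Finset.sum_sub_distrib, ← Finset.mul_sum, hsg]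
        ring
      · simp only [ph, T.sg_symm (h.w_eq _) (h.hne _), Finset.sum_sub_distrib, ← Finset.mul_sum,
          Finset.sum_neg_distrib, hsg]
        ring
      · rw [← Finset.sum_add_distrib, Finset.sum_div])
  have key : ∑ p ∈ univ.filter (fun p : (T.W' e₀ → E) × (T.W' e₀ → E) =>
        T.IsPair e₀ p.1 p.2 ∧ ∀ f, s(p.1 f, p.2 f) = s(μ f, ν f)),
      Complex.exp (Complex.I * (∑ f, T.ph lam (p.1 f) (p.2 f) : ℝ)) =
      r * Complex.exp (Complex.I * (∑ f, (lam (μ f) + lam (ν f)) / 2 : ℝ)) := by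
    rw [← hsum]
    symm
    have hst : ∀ χ : T.W' e₀ → Bool, (∀ f, χ (τ f) = χ f) →
        T.IsState e₀ fun f => if χ f then ν f else μ f := fun χ hχ => by
      refine ⟨fun f => ?_, fun f => ?_, fun f f' hf => ?_⟩
      · split_ifs
        exacts [h.hν.w_eq f, h.hμ.w_eq f]
      · split_ifs
        exacts [h.hν.not_root f, h.hμ.not_root f]
      · simp only at hf
        split_ifs at hf with h1 h2 h2
        · exact h.hν.inj hf
        · rw [← hτ] at hf
          rw [← h.hμ.inj hf, hχ] at h2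
          exact absurd h1 h2
        · rw [← hτ] at hf
          rw [h.hμ.inj hf, hχ] at h1
          exact absurd h2 h1
        · exact h.hμ.inj hf
    refine Finset.sum_bij (fun χ _ => (fun f => if χ f then ν f else μ f, fun f => if χ f then μ f else ν f))
      ?_ ?_ ?_ ?_
    · intro χ hχ
      simp only [mem_filter, mem_univ, true_and] at hχ ⊢
      refine ⟨⟨hst χ hχ, ?_, fun f => ?_⟩, fun f => ?_⟩
      · convert hst (fun f => !χ f) (fun f => by simp only [hχ]) using 2 with f
        cases χ f <;> simp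
      · split_ifs
        exacts [(h.hne f).symm, h.hne f]
      · split_ifs
        exacts [Sym2.eq_swap, rfl]
    · intro χ _ χ' _ hχ
      funext f
      have h1 := congrFun (congrArg Prod.fst hχ) f
      have h2 := h.hne f
      simp only at h1
      cases h3 : χ f <;> cases h4 : χ' f <;> simp_all
    · rintro ⟨μ', ν'⟩ hp
      simp only [mem_filter, mem_univ, true_and, Sym2.eq_iff] at hp
      obtain ⟨hp, hs⟩ := hp
      have h1 : ∀ f, μ' f = ν f → ν' f = μ f := fun f hf => by
        rcases hs f with h1 | h1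
        · exact absurd (hf.symm.trans h1.1) (h.hne f)
        · exact h1.2
      have h2 : ∀ f, μ' f ≠ ν f → μ' f = μ f ∧ ν' f = ν f := fun f hf => by
        rcases hs f with h1 | h1
        · exact h1
        · exact absurd h1.1 hf
      refine ⟨fun f => decide (μ' f = ν f), ?_, ?_⟩
      · simp only [mem_filter, mem_univ, true_and, decide_eq_decide]
        intro f
        constructor
        · intro h3
          by_contra h4
          have h5 : τ f = f := hp.hν.inj (by
            simp only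
            rw [h1 _ h3, (h2 f h4).2, hτ])
          rw [h5] at h3
          exact h4 h3
        · intro h3
          by_contra h4
          have h5 : τ f = f := hp.hμ.inj (by
            simp only
            rw [(h2 _ h4).1, h3, hτ])
          rw [h5] at h4
          exact h4 h3
      · ext f
        · by_cases h3 : μ' f = ν f
          · simp [h3]
          · simp only [h3, decide_false, Bool.false_eq_true, if_false]
            exact (h2 f h3).1.symm
        · by_cases h3 : μ' f = ν f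
          · simp [h3, h1 f h3]
          · simp [h3, (h2 f h3).2]
    · intro χ _
      congr 3
      refine Finset.sum_congr rfl fun f _ => ?_
      simp only
      split_ifs <;> rfl
  rw [key, Complex.re_ofReal_mul, mul_comm Complex.I, Complex.exp_ofReal_mul_I_re]
  have h2 := abs_le.1 (T.abs_sum_le h.hμ hlam univ)
  have h3 := abs_le.1 (T.abs_sum_le h.hν hlam univ)
  refine mul_pos hr (Real.cos_pos_of_mem_Ioo ?_)
  rw [← Finset.sum_div, Finset.sum_add_distrib]
  constructor <;> linarith [h2.1, h2.2, h3.1, h3.2, Real.pi_gt_three]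

theorem exp_ph (lam : E → ℝ) (a b : E) :
    Complex.exp (Complex.I * (T.ph lam a b : ℝ)) = Complex.exp (Complex.I * lam a) * (-Complex.I) * T.sg a b := by
  unfold ph
  rcases T.sg_cases a b with h | h <;> rw [h] <;> push_cast
  · rw [mul_sub, sub_eq_add_neg, Complex.exp_add, show -(Complex.I * (Real.pi / 2 * 1)) = -(Real.pi / 2 * Complex.I) by ring,
      Complex.exp_neg, Complex.exp_pi_div_two_mul_I]
    simp
  · rw [mul_sub, sub_eq_add_neg, Complex.exp_add, show -(Complex.I * (Real.pi / 2 * -1)) = Real.pi / 2 * Complex.I by ring,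
      Complex.exp_pi_div_two_mul_I]
    ring

theorem exists_rooted (e₀ : E) {μ ν : T.W' e₀ → E} (hμ : T.IsState e₀ μ) (hν : T.IsState e₀ ν)
    (hne : ∀ f, ν f ≠ μ f) : ∃ μ' : T.W' e₀ → E, T.IsState e₀ μ' ∧ T.Rooted e₀ μ' := by
  classical
  by_contra hno
  push Not at hno
  obtain ⟨lam, ω, ε, hε, hlam, hstep, hflux⟩ := T.exists_weight e₀
  let P : Finset ((T.W' e₀ → E) × (T.W' e₀ → E)) := univ.filter fun p => T.IsPair e₀ p.1 p.2
  let F : (T.W' e₀ → E) × (T.W' e₀ → E) → ℂ := fun p =>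
    Complex.exp (Complex.I * (∑ f, T.ph lam (p.1 f) (p.2 f) : ℝ))
  have hZ : ∑ p ∈ P, F p = 0 := by
    rw [Finset.sum_filter, Fintype.sum_prod_type]
    refine Finset.sum_eq_zero fun μ' _ => ?_
    rw [← Finset.sum_filter]
    by_cases hμ' : T.IsState e₀ μ'
    · have h1 := T.sum_sg_eq_zero hμ' (hno μ' hμ')
      have h2 : ∀ ν', F (μ', ν') = (∏ f, Complex.exp (Complex.I * lam (μ' f)) * (-Complex.I)) *
          (∏ f, T.sg (μ' f) (ν' f) : ℝ) := fun ν' => by
        simp only [F]
        rw [Complex.ofReal_sum, Finset.mul_sum, Complex.exp_sum, Complex.ofReal_prod, ← Finset.prod_mul_distrib]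
        exact Finset.prod_congr rfl fun f _ => T.exp_ph lam _ _
      simp only [h2]
      rw [← Finset.mul_sum, ← Complex.ofReal_sum]
      convert mul_zero _
      rw [Complex.ofReal_eq_zero]
      convert h1
    · refine Finset.sum_eq_zero fun ν' hν' => ?_
      exact absurd (Finset.mem_filter.1 hν').2.hμ hμ'
  let key : (T.W' e₀ → E) × (T.W' e₀ → E) → T.W' e₀ → Sym2 E := fun p f => s(p.1 f, p.2 f)
  rw [← Finset.sum_fiberwise_of_maps_to (g := key) (t := P.image key) fun p hp => Finset.mem_image_of_mem _ hp] at hZ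
  have h1 := congrArg Complex.re hZ
  rw [Complex.re_sum, Complex.zero_re] at h1
  refine (Finset.sum_pos ?_ ?_).ne' h1
  · intro k hk
    obtain ⟨p, hp, rfl⟩ := Finset.mem_image.1 hk
    have h2 := T.fiber_pos hε hlam hstep hflux (Finset.mem_filter.1 hp).2
    refine h2.trans_eq ?_
    congr 2
    ext q
    simp only [P, key, mem_filter, mem_univ, true_and, funext_iff]
  · exact Finset.Nonempty.image ⟨(μ, ν), Finset.mem_filter.2 ⟨mem_univ _, hμ, hν, hne⟩⟩ _

end Tri

end Crest.Agent.R39
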