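import Crest.Agent.R39.Hall
import Crest.Agent.R39.Sum
import Crest.Agent.R39.Color
import Crest.Agent.R39.Contract

/-!
# R39/Cut: induction over bad 3-cuts
-/

set_option autoImplicit false
set_option linter.unusedSectionVars false

namespace Crest.Agent.R39

open Finset

namespace Tri

variable {E V W B : Type} [Fintype E] [Fintype V] [Fintype W] [Fintype B]
  [DecidableEq E] [DecidableEq V] [DecidableEq W] [DecidableEq B] (T : Tri E V W B)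

/-- a good colouring of the side `(I, J)` of a 3-cut -/
structure Half (I : Finset W) (J : Finset B) (x : V → ZMod 2) : Prop where
  white : ∀ e, T.w e ∈ I → ¬ (T.Mono x e ∧ T.Mono x (T.α e))
  black : ∀ e, T.b e ∈ J → ¬ (T.Mono x e ∧ T.Mono x (T.β e))
  cut : ∃ e ∈ T.cut I J, ¬ T.Mono x e
  conn : ∀ g : V → ℝ, (∀ e, T.w e ∈ I ∨ T.b e ∈ J → T.Mono x e → g (T.t e) = g (T.t (T.α e))) →
    ∀ y ∈ T.Vin I J, ∀ y' ∈ T.Vin I J, x y = x y' → g y = g y'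

theorem cut_mem_iff {I : Finset W} {J : Finset B} (hJ : ∀ e, T.b e ∈ J → T.w e ∈ I) {e : E} :
    e ∈ T.cut I J ↔ T.w e ∈ I ∧ T.b e ∉ J := by
  have := hJ e
  simp only [cut, mem_filter, mem_univ, true_and]
  tauto

theorem cut_compl (I : Finset W) (J : Finset B) : T.cut Iᶜ Jᶜ = T.cut I J := by
  ext e
  simp only [cut, mem_filter, mem_univ, true_and, mem_compl]
  tauto

theorem cut_swap (I : Finset W) (J : Finset B) : T.swap.cut J I = T.cut I J := by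
  ext e
  simp only [cut, mem_filter, mem_univ, true_and]
  exact not_congr iff_comm

theorem cut_Vin_swap (I : Finset W) (J : Finset B) : T.swap.Vin J I = T.Vin I J := by
  ext y
  rw [mem_Vin, mem_Vin]
  exact exists_congr fun e => and_congr Iff.rfl or_comm

omit [DecidableEq E] [DecidableEq V] [DecidableEq W] [DecidableEq B] in
theorem cut_mono_swap (x : V → ZMod 2) (e : E) : T.swap.Mono x e ↔ T.Mono x e := by
  change x (T.t e) = x (T.t (T.β e)) ↔ _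
  rw [← T.tαβ]; rfl

theorem cut_t_mem {I : Finset W} {J : Finset B} {e : E} (h : T.w e ∈ I ∨ T.b e ∈ J) :
    T.t e ∈ T.Vin I J :=
  mem_union_left _ (mem_image_of_mem _ (mem_filter.2 ⟨mem_univ _, h⟩))

theorem cut_tα_mem {I : Finset W} {J : Finset B} {e : E} (h : T.w e ∈ I ∨ T.b e ∈ J) :
    T.t (T.α e) ∈ T.Vin I J :=
  mem_union_right _ (mem_image_of_mem (fun e => T.t (T.α e)) (mem_filter.2 ⟨mem_univ _, h⟩))

theorem cut_mono_congr {I : Finset W} {J : Finset B} {x x' : V → ZMod 2}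
    (hx : ∀ y ∈ T.Vin I J, x y = x' y) {e : E} (h : T.w e ∈ I ∨ T.b e ∈ J) :
    T.Mono x e ↔ T.Mono x' e := by
  unfold Mono
  rw [hx _ (T.cut_t_mem h), hx _ (T.cut_tα_mem h)]

/-- from the induction hypothesis for the contraction (`contract`; extend the colouring by `0`) -/
theorem exists_half {I : Finset W} {J : Finset B} (h3 : (T.cut I J).card = 3) (hJ : ∀ e, T.b e ∈ J → T.w e ∈ I)
    (hI : ∃ f, f ∉ I)
    (ih : ∀ T₁ : Tri {e // T.w e ∈ I} {y // y ∈ T.Vin I J} {f // f ∈ I} (Option {f // f ∈ J}),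
      ∀ e₀, ∃ x, T₁.Good x ∧ T₁.Mono x e₀) (e₀ : E) (he₀ : T.w e₀ ∈ I) :
    ∃ x, T.Half I J x ∧ T.Mono x e₀ := by
  obtain ⟨T₁, ht, hα, hβ, hβ'⟩ := T.contract h3 hJ hI
  obtain ⟨x₁, hx₁, hm⟩ := ih T₁ ⟨e₀, he₀⟩
  let x : V → ZMod 2 := fun y => if h : y ∈ T.Vin I J then x₁ ⟨y, h⟩ else 0
  have hx : ∀ v : {y // y ∈ T.Vin I J}, x₁ v = x v.1 := fun v => by
    simp only [x, dif_pos v.2]
  have hmono : ∀ e, T₁.Mono x₁ e ↔ T.Mono x e.1 := by
    intro e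
    unfold Mono
    rw [hx, hx, ht, ht, hα]
  refine ⟨x, ⟨fun e he => ?_, fun e he => ?_, ?_, fun g hg y hy y' hy' hxy => ?_⟩, (hmono _).1 hm⟩
  · have := hx₁.white ⟨e, he⟩
    rwa [hmono, hmono, hα] at this
  · have := hx₁.black ⟨e, hJ e he⟩
    rwa [hmono, hmono, hβ _ he] at this
  · obtain ⟨e, he⟩ : (T.cut I J).Nonempty := card_pos.1 (by omega)
    obtain ⟨h1, h2⟩ := (T.cut_mem_iff hJ).1 he
    have := hx₁.black ⟨e, h1⟩
    rw [hmono, hmono] at this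
    by_cases hme : T.Mono x e
    · exact ⟨_, (T.cut_mem_iff hJ).2 ⟨(T₁.β ⟨e, h1⟩).2, hβ' _ h2⟩, fun h => this ⟨hme, h⟩⟩
    · exact ⟨e, he, hme⟩
  · refine hx₁.conn (fun v => g v.1) (fun e he => ?_) ⟨y, hy⟩ ⟨y', hy'⟩ (by rw [hx, hx]; exact hxy)
    rw [ht, ht, hα]
    exact hg _ (Or.inl e.2) ((hmono e).1 he)

theorem Half.of_swap {T : Tri E V W B} {I : Finset W} {J : Finset B} {x : V → ZMod 2} (h : T.swap.Half J I x) :
    T.Half I J x := by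
  refine ⟨fun e he => ?_, fun e he => ?_, ?_, fun g hg y hy y' hy' hxy => ?_⟩
  · have := h.black e he
    rwa [cut_mono_swap, cut_mono_swap] at this
  · have := h.white e he
    rwa [cut_mono_swap, cut_mono_swap] at this
  · obtain ⟨e, he, hm⟩ := h.cut
    rw [cut_swap] at he
    rw [cut_mono_swap] at hm
    exact ⟨e, he, hm⟩
  · refine h.conn g (fun e he hm => ?_) y (by rwa [cut_Vin_swap]) y' (by rwa [cut_Vin_swap]) hxy
    change g (T.t e) = g (T.t (T.β e))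
    rw [← T.tαβ]
    exact hg e he.symm ((T.cut_mono_swap x e).1 hm)

/-- adding a constant -/
theorem Half.add {T : Tri E V W B} {I : Finset W} {J : Finset B} {x : V → ZMod 2} (h : T.Half I J x) (a : ZMod 2) :
    T.Half I J fun y => x y + a := by
  have hm : ∀ e, T.Mono (fun y => x y + a) e ↔ T.Mono x e := fun e => add_left_inj a
  refine ⟨fun e he => ?_, fun e he => ?_, ?_, fun g hg y hy y' hy' hxy => ?_⟩
  · rw [hm, hm]; exact h.white e he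
  · rw [hm, hm]; exact h.black e he
  · obtain ⟨e, he, h'⟩ := h.cut
    exact ⟨e, he, by rwa [hm]⟩
  · exact h.conn g (fun e he h' => hg e he ((hm e).2 h')) y hy y' hy' (add_right_cancel hxy)

/-- gluing of two colourings that agree on the ends of the cut edges -/
theorem cut_glue_of_eq {I : Finset W} {J : Finset B} (hJ : ∀ e, T.b e ∈ J → T.w e ∈ I)
    {x₁ x₂ : V → ZMod 2} (h₁ : T.Half I J x₁) (h₂ : T.Half Iᶜ Jᶜ x₂)
    (h : ∀ e ∈ T.cut I J, x₁ (T.t e) = x₂ (T.t e) ∧ x₁ (T.t (T.α e)) = x₂ (T.t (T.α e))) :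
    ∃ x, T.Good x ∧ ∀ y ∈ T.Vin Iᶜ Jᶜ, x y = x₂ y := by
  let x : V → ZMod 2 := fun y => if y ∈ T.Vin Iᶜ Jᶜ then x₂ y else x₁ y
  have e₂ : ∀ y ∈ T.Vin Iᶜ Jᶜ, x y = x₂ y := fun y hy => if_pos hy
  have e₁ : ∀ y ∈ T.Vin I J, x y = x₁ y := by
    intro y hy
    by_cases hy' : y ∈ T.Vin Iᶜ Jᶜ
    · obtain ⟨e, he, rfl | rfl⟩ := T.exists_cut_at I J hy hy'
      · rw [e₂ _ hy', (h e he).1]
      · rw [e₂ _ hy', (h e he).2]
    · exact if_neg hy'
  refine ⟨x, ⟨fun e => ?_, fun e => ?_, fun g hg => ?_⟩, e₂⟩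
  · by_cases he : T.w e ∈ I
    · rw [T.cut_mono_congr e₁ (Or.inl he), T.cut_mono_congr e₁ (Or.inl (by rwa [T.w_α]))]
      exact h₁.white e he
    · rw [← mem_compl] at he
      rw [T.cut_mono_congr e₂ (Or.inl he), T.cut_mono_congr e₂ (Or.inl (by rwa [T.w_α]))]
      exact h₂.white e he
  · by_cases he : T.b e ∈ J
    · rw [T.cut_mono_congr e₁ (Or.inr he), T.cut_mono_congr e₁ (Or.inr (by rwa [T.b_β]))]
      exact h₁.black e he
    · rw [← mem_compl] at he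
      rw [T.cut_mono_congr e₂ (Or.inr he), T.cut_mono_congr e₂ (Or.inr (by rwa [T.b_β]))]
      exact h₂.black e he
  · have c₁ : ∀ y ∈ T.Vin I J, ∀ y' ∈ T.Vin I J, x y = x y' → g y = g y' := fun y hy y' hy' hxy =>
      h₁.conn g (fun e he hm => hg e ((T.cut_mono_congr e₁ he).2 hm)) y hy y' hy'
        (by rwa [e₁ y hy, e₁ y' hy'] at hxy)
    have c₂ : ∀ y ∈ T.Vin Iᶜ Jᶜ, ∀ y' ∈ T.Vin Iᶜ Jᶜ, x y = x y' → g y = g y' :=
      fun y hy y' hy' hxy =>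
        h₂.conn g (fun e he hm => hg e ((T.cut_mono_congr e₂ he).2 hm)) y hy y' hy'
          (by rwa [e₂ y hy, e₂ y' hy'] at hxy)
    have both : ∀ a : ZMod 2, ∃ v ∈ T.Vin I J, v ∈ T.Vin Iᶜ Jᶜ ∧ x v = a := by
      intro a
      obtain ⟨e, he, hm⟩ := h₁.cut
      obtain ⟨p1, p2⟩ := (T.cut_mem_iff hJ).1 he
      rw [← T.cut_mono_congr e₁ (Or.inl p1)] at hm
      have key : ∀ u v a : ZMod 2, ¬ u = v → u = a ∨ v = a := by decide
      rcases key _ _ a hm with h' | h'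
      · exact ⟨_, T.cut_t_mem (Or.inl p1), T.cut_t_mem (Or.inr (mem_compl.2 p2)), h'⟩
      · exact ⟨_, T.cut_tα_mem (Or.inl p1), T.cut_tα_mem (Or.inr (mem_compl.2 p2)), h'⟩
    have cov : ∀ y, y ∈ T.Vin I J ∨ y ∈ T.Vin Iᶜ Jᶜ := by
      intro y
      obtain ⟨e, rfl⟩ := T.t_surj y
      by_cases he : T.w e ∈ I
      · exact Or.inl (T.cut_t_mem (Or.inl he))
      · exact Or.inr (T.cut_t_mem (Or.inl (mem_compl.2 he)))
    intro y y' hxy
    obtain ⟨v, v1, v2, hv⟩ := both (x y)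
    have g1 : g v = g y := (cov y).elim (fun hy => c₁ v v1 y hy hv) (fun hy => c₂ v v2 y hy hv)
    have g2 : g v = g y' := (cov y').elim (fun hy => c₁ v v1 y' hy (hv.trans hxy))
      (fun hy => c₂ v v2 y' hy (hv.trans hxy))
    exact g1.symm.trans g2

/-- gluing.  Recipe: on the triangle (`cut_triangle`) each colouring has exactly one monochromatic edge, the same one, so after
adding a constant to `x₁` they agree on the three vertices; `x = x₂` on `Vin Iᶜ Jᶜ` and `x₁` elsewhere; `Vin I J ∩ Vin Iᶜ Jᶜ` is the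
triangle (`exists_cut_at`), both colours occur on it. -/
theorem glue {I : Finset W} {J : Finset B} (h3 : (T.cut I J).card = 3) (hJ : ∀ e, T.b e ∈ J → T.w e ∈ I)
    {x₁ x₂ : V → ZMod 2} (h₁ : T.Half I J x₁) (h₂ : T.Half Iᶜ Jᶜ x₂) {e : E} (he : e ∈ T.cut I J)
    (m₁ : T.Mono x₁ e) (m₂ : T.Mono x₂ e) :
    ∃ x, T.Good x ∧ ∀ y ∈ T.Vin Iᶜ Jᶜ, x y = x₂ y := by
  obtain ⟨e₁, e₂, e₃, hc, t₁, t₂, t₃⟩ := T.cut_triangle h3 hJ
  have nc : ∀ x : V → ZMod 2, (∃ e ∈ T.cut I J, ¬ T.Mono x e) →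
      ¬ (x (T.t e₁) = x (T.t e₂) ∧ x (T.t e₂) = x (T.t e₃)) := by
    rintro x ⟨e, he, hm⟩ ⟨p, q⟩
    rw [hc] at he
    simp only [mem_insert, mem_singleton] at he
    apply hm
    unfold Mono
    rcases he with rfl | rfl | rfl
    · rw [t₁, p]
    · rw [t₂, q]
    · rw [t₃, p, q]
  have n₁ := nc x₁ h₁.cut
  have n₂ := nc x₂ (T.cut_compl I J ▸ h₂.cut)
  have key : ∀ a₁ a₂ a₃ b₁ b₂ b₃ : ZMod 2, ¬ (a₁ = a₂ ∧ a₂ = a₃) → ¬ (b₁ = b₂ ∧ b₂ = b₃) →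
      (a₁ = a₂ ∧ b₁ = b₂ ∨ a₂ = a₃ ∧ b₂ = b₃ ∨ a₃ = a₁ ∧ b₃ = b₁) →
      a₁ + (b₁ - a₁) = b₁ ∧ a₂ + (b₁ - a₁) = b₂ ∧ a₃ + (b₁ - a₁) = b₃ := by decide
  obtain ⟨k₁, k₂, k₃⟩ := key _ _ _ _ _ _ n₁ n₂ (by
    rw [hc] at he
    simp only [mem_insert, mem_singleton] at he
    unfold Mono at m₁ m₂
    rcases he with rfl | rfl | rfl
    · rw [t₁] at m₁ m₂; exact Or.inl ⟨m₁, m₂⟩
    · rw [t₂] at m₁ m₂; exact Or.inr (Or.inl ⟨m₁, m₂⟩)
    · rw [t₃] at m₁ m₂; exact Or.inr (Or.inr ⟨m₁, m₂⟩))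
  refine T.cut_glue_of_eq hJ (h₁.add (x₂ (T.t e₁) - x₁ (T.t e₁))) h₂ fun e' he' => ?_
  rw [hc] at he'
  simp only [mem_insert, mem_singleton] at he'
  rcases he' with rfl | rfl | rfl
  · rw [t₁]; exact ⟨k₁, k₂⟩
  · rw [t₂]; exact ⟨k₂, k₃⟩
  · rw [t₃]; exact ⟨k₃, k₁⟩

end Tri

/-- Recipe: induction on `n`.  No bad cut: `exists_pair`, `exists_rooted`, `good_of_rooted`.  Bad cut `(I, J)`: `exists_half` for
`T.swap`, `(Jᶜ, Iᶜ)`, `e₀` (fewer edges since `J ≠ ∅`) gives `x₂`; some cut edge `e` is monochromatic for `x₂` (parity on the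
triangle); `exists_half` for `T`, `(I, J)`, `e` (fewer edges since `w e₀ ∉ I`) gives `x₁`; `glue`. -/
theorem Tri.exists_good (n : ℕ) : ∀ (E V W B : Type) [Fintype E] [Fintype V] [Fintype W] [Fintype B]
    (T : Tri E V W B), Fintype.card E ≤ n → ∀ e₀, ∃ x, T.Good x ∧ T.Mono x e₀ := by
  classical
  induction n with
  | zero =>
    intro E V W B _ _ _ _ T hn e₀
    have := Fintype.card_pos_iff.2 ⟨e₀⟩
    omega
  | succ n ih =>
    intro E V W B _ _ _ _ T hn e₀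
    by_cases h : ∀ I J, ¬ T.BadCut e₀ I J
    · obtain ⟨μ, ν, hμ, hν, hne⟩ := T.exists_pair e₀ h
      obtain ⟨μ', hμ', hr⟩ := T.exists_rooted e₀ hμ hν hne
      exact T.good_of_rooted hμ' hr
    push Not at h
    obtain ⟨I, J, hw, ⟨f, hf⟩, h3, hJ⟩ := h
    obtain ⟨ef, rfl⟩ := T.b_surj f
    obtain ⟨x₂, h₂, m₀⟩ := T.swap.exists_half (I := Jᶜ) (J := Iᶜ)
      (by rw [T.cut_swap, T.cut_compl, h3])
      (fun e he => mem_compl.2 fun h' => mem_compl.1 he (hJ e h'))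
      ⟨T.b ef, fun h' => mem_compl.1 h' hf⟩
      (fun T₁ => ih _ _ _ _ T₁ (Nat.le_of_lt_succ (lt_of_lt_of_le
        (Fintype.card_subtype_lt (x := ef) fun h' => mem_compl.1 h' hf) hn)))
      e₀ (mem_compl.2 fun h' => hw (hJ e₀ h'))
    replace h₂ := h₂.of_swap
    rw [T.cut_mono_swap] at m₀
    obtain ⟨e, he, m₂⟩ : ∃ e ∈ T.cut I J, T.Mono x₂ e := by
      obtain ⟨e₁, e₂, e₃, hc, t₁, t₂, t₃⟩ := T.cut_triangle h3 hJ
      have key : ∀ a b c : ZMod 2, a = b ∨ b = c ∨ c = a := by decide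
      rw [hc]
      unfold Tri.Mono
      rcases key (x₂ (T.t e₁)) (x₂ (T.t e₂)) (x₂ (T.t e₃)) with h | h | h
      · exact ⟨e₁, by simp, by rwa [t₁]⟩
      · exact ⟨e₂, by simp, by rwa [t₂]⟩
      · exact ⟨e₃, by simp, by rwa [t₃]⟩
    obtain ⟨x₁, h₁, m₁⟩ := T.exists_half h3 hJ ⟨_, hw⟩
      (fun T₁ => ih _ _ _ _ T₁ (Nat.le_of_lt_succ (lt_of_lt_of_le
        (Fintype.card_subtype_lt (x := e₀) hw) hn))) e ((T.cut_mem_iff hJ).1 he).1
    obtain ⟨x, hx, hx₂⟩ := T.glue h3 hJ h₁ h₂ he m₁ m₂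
    exact ⟨x, hx, (T.cut_mono_congr hx₂ (Or.inl (mem_compl.2 hw))).2 m₀⟩

end Crest.Agent.R39
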