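import Crest.Agent.R39.Disc

/-!
# R39/Cyc: a cycle of steps inside the white faces bounds a disc
-/

set_option autoImplicit false
set_option linter.unusedSectionVars false

namespace Crest.Agent.R39

open Finset

namespace Tri

variable {E V W B : Type} [Fintype E] [Fintype V] [Fintype W] [Fintype B]
  [DecidableEq E] [DecidableEq V] [DecidableEq W] [DecidableEq B] (T : Tri E V W B)

/-- the edge joining the corners `a` and `b` of a white face -/
def stp (a b : E) : E := if b = T.α a then a else b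

/-- the direction in which the step from `a` to `b` runs through `stp a b` -/
def sg (a b : E) : ℝ := if b = T.α a then 1 else -1

theorem sg_cases (a b : E) : T.sg a b = 1 ∨ T.sg a b = -1 := by
  unfold sg
  split_ifs <;> simp

theorem sg_mul_self (a b : E) : T.sg a b * T.sg a b = 1 := by
  rcases T.sg_cases a b with h | h <;> rw [h] <;> norm_num

theorem w_stp {a b : E} (h : T.w b = T.w a) : T.w (T.stp a b) = T.w a := by
  unfold stp
  split_ifs
  · rfl
  · exact h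

theorem eq_αα {a b : E} (h : T.w b = T.w a) (hne : b ≠ a) (h' : b ≠ T.α a) : b = T.α (T.α a) := by
  rcases (T.w_iff a b).1 h with h1 | h1 | h1
  · exact absurd h1 hne
  · exact absurd h1 h'
  · exact h1

theorem stp_ends {a b : E} (h : T.w b = T.w a) (hne : b ≠ a) :
    (T.t (T.stp a b) = T.t a ∧ T.t (T.α (T.stp a b)) = T.t b) ∨
      (T.t (T.stp a b) = T.t b ∧ T.t (T.α (T.stp a b)) = T.t a) := by
  unfold stp
  split_ifs with h1
  · exact Or.inl ⟨rfl, by rw [h1]⟩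
  · refine Or.inr ⟨rfl, ?_⟩
    rw [T.eq_αα h hne h1, T.α3]

theorem sg_mul_δ {a b : E} (h : T.w b = T.w a) (hne : b ≠ a) (g : V → ℝ) :
    T.sg a b * (g (T.t (T.α (T.stp a b))) - g (T.t (T.stp a b))) = g (T.t b) - g (T.t a) := by
  unfold sg stp
  split_ifs with h1
  · rw [h1]; ring
  · rw [T.eq_αα h hne h1, T.α3]; ring

theorem zc_eq {ι : Type} (O : Finset ι) (μ ν : ι → E) (e : E) :
    T.zc O μ ν e = ∑ i ∈ O, if e = T.stp (μ i) (ν i) then T.sg (μ i) (ν i) else 0 := by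
  unfold zc stp sg
  refine Finset.sum_congr rfl fun i _ => ?_
  split_ifs <;> rfl

theorem sum_zc_mul {ι : Type} (O : Finset ι) (μ ν : ι → E) (u : E → ℝ) :
    ∑ e, T.zc O μ ν e * u e = ∑ i ∈ O, T.sg (μ i) (ν i) * u (T.stp (μ i) (ν i)) := by
  simp only [zc_eq, Finset.sum_mul]
  rw [Finset.sum_comm]
  refine Finset.sum_congr rfl fun i _ => ?_
  simp [ite_mul]

/-- the data of a cycle of steps -/
structure IsCyc (e₀ : E) (μ ν : T.W' e₀ → E) (O : Finset (T.W' e₀)) (τ : T.W' e₀ → T.W' e₀) : Prop where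
  hμ : T.IsState e₀ μ
  hne : O.Nonempty
  hw : ∀ f ∈ O, T.w (ν f) = f.1
  hν : ∀ f ∈ O, ν f ≠ μ f
  hτ : ∀ f ∈ O, τ f ∈ O ∧ T.t (μ (τ f)) = T.t (ν f)
  hmin : ∀ S ⊆ O, S.Nonempty → (∀ f ∈ S, τ f ∈ S) → S = O

namespace IsCyc

variable {T} {e₀ : E} {μ ν : T.W' e₀ → E} {O : Finset (T.W' e₀)} {τ : T.W' e₀ → T.W' e₀}

theorem image_eq (h : T.IsCyc e₀ μ ν O τ) : O.image τ = O := by
  refine h.hmin _ ?_ (h.hne.image τ) ?_
  · intro f hf
    obtain ⟨f', hf', rfl⟩ := Finset.mem_image.1 hf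
    exact (h.hτ f' hf').1
  · intro f hf
    obtain ⟨f', hf', rfl⟩ := Finset.mem_image.1 hf
    exact Finset.mem_image_of_mem _ (h.hτ f' hf').1

theorem injOn (h : T.IsCyc e₀ μ ν O τ) : Set.InjOn τ O :=
  Finset.injOn_of_card_image_eq (by rw [h.image_eq])

theorem sum_comp (h : T.IsCyc e₀ μ ν O τ) (F : T.W' e₀ → ℝ) : ∑ f ∈ O, F (τ f) = ∑ f ∈ O, F f := by
  conv_rhs => rw [← h.image_eq]
  rw [Finset.sum_image h.injOn]

theorem const (h : T.IsCyc e₀ μ ν O τ) (φ : T.W' e₀ → ℝ) (hφ : ∀ f ∈ O, φ (τ f) = φ f) :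
    ∀ f ∈ O, ∀ f' ∈ O, φ f = φ f' := by
  classical
  intro f hf f' hf'
  have := h.hmin (O.filter fun f => φ f = φ f') (Finset.filter_subset _ _) ⟨f', by simp [hf']⟩ (by
    intro f₁ hf₁
    rw [Finset.mem_filter] at hf₁ ⊢
    exact ⟨(h.hτ f₁ hf₁.1).1, by rw [hφ f₁ hf₁.1, hf₁.2]⟩)
  rw [← this, Finset.mem_filter] at hf
  exact hf.2

theorem w_eq (h : T.IsCyc e₀ μ ν O τ) {f : T.W' e₀} (hf : f ∈ O) : T.w (ν f) = T.w (μ f) := by
  rw [h.hw f hf, h.hμ.w_eq]

theorem w_stp' (h : T.IsCyc e₀ μ ν O τ) {f : T.W' e₀} (hf : f ∈ O) : T.w (T.stp (μ f) (ν f)) = f.1 := by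
  rw [T.w_stp (h.w_eq hf), h.hμ.w_eq]

theorem stp_inj (h : T.IsCyc e₀ μ ν O τ) {f f' : T.W' e₀} (hf : f ∈ O) (hf' : f' ∈ O)
    (he : T.stp (μ f) (ν f) = T.stp (μ f') (ν f')) : f = f' :=
  Subtype.ext (by rw [← h.w_stp' hf, he, h.w_stp' hf'])

theorem zc_stp (h : T.IsCyc e₀ μ ν O τ) {f : T.W' e₀} (hf : f ∈ O) :
    T.zc O μ ν (T.stp (μ f) (ν f)) = T.sg (μ f) (ν f) := by
  rw [zc_eq, Finset.sum_eq_single_of_mem f hf]
  · simp
  · intro f' hf' hne
    rw [if_neg fun he => hne (h.stp_inj hf hf' he).symm]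

theorem zc_off {e : E} (he : ∀ f ∈ O, e ≠ T.stp (μ f) (ν f)) : T.zc O μ ν e = 0 := by
  rw [zc_eq]
  exact Finset.sum_eq_zero fun f hf => if_neg (he f hf)

theorem δ_stp (h : T.IsCyc e₀ μ ν O τ) {f : T.W' e₀} (hf : f ∈ O) (g : V → ℝ) :
    T.sg (μ f) (ν f) * (g (T.t (T.α (T.stp (μ f) (ν f)))) - g (T.t (T.stp (μ f) (ν f)))) =
      g (T.t (μ (τ f))) - g (T.t (μ f)) := by
  rw [T.sg_mul_δ (h.w_eq hf) (h.hν f hf), (h.hτ f hf).2]

theorem exists_cd (h : T.IsCyc e₀ μ ν O τ) :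
    ∃ (c : W → ℝ) (d : B → ℝ), ∀ e, T.zc O μ ν e = c (T.w e) - d (T.b e) := by
  refine T.exists_bdry _ fun g => ?_
  rw [T.sum_zc_mul O μ ν fun e => g (T.t (T.α e)) - g (T.t e), Finset.sum_congr rfl fun f hf => h.δ_stp hf g,
    Finset.sum_sub_distrib, h.sum_comp fun f => g (T.t (μ f)), sub_self]

/-- a boundary supported on the cycle is a multiple of the cycle -/
theorem eq_mul (h : T.IsCyc e₀ μ ν O τ) (c : W → ℝ) (d : B → ℝ)
    (hu : ∀ e, (∀ f ∈ O, e ≠ T.stp (μ f) (ν f)) → c (T.w e) - d (T.b e) = 0) {f₁ : T.W' e₀} (hf₁ : f₁ ∈ O) (e : E) :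
    c (T.w e) - d (T.b e) =
      T.sg (μ f₁) (ν f₁) * (c (T.w (T.stp (μ f₁) (ν f₁))) - d (T.b (T.stp (μ f₁) (ν f₁)))) * T.zc O μ ν e := by
  set u : E → ℝ := fun e => c (T.w e) - d (T.b e) with hudef
  set φ : T.W' e₀ → ℝ := fun f => T.sg (μ f) (ν f) * u (T.stp (μ f) (ν f)) with hφdef
  have key : ∀ g : V → ℝ, ∑ f ∈ O, φ f * (g (T.t (μ (τ f))) - g (T.t (μ f))) = 0 := by
    intro g
    rw [← T.orth g c d]
    symm
    rw [← Finset.sum_subset (Finset.subset_univ (O.image fun f => T.stp (μ f) (ν f))),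
      Finset.sum_image fun f hf f' hf' he => h.stp_inj hf hf' he]
    · refine Finset.sum_congr rfl fun f hf => ?_
      rw [← h.δ_stp hf g]
      have := T.sg_mul_self (μ f) (ν f)
      simp only [hφdef, hudef]
      linear_combination (-(g (T.t (T.α (T.stp (μ f) (ν f)))) - g (T.t (T.stp (μ f) (ν f)))) *
        (c (T.w (T.stp (μ f) (ν f))) - d (T.b (T.stp (μ f) (ν f))))) * this
    · intro e _ he
      rw [hu e fun f hf h' => he (Finset.mem_image.2 ⟨f, hf, h'.symm⟩), mul_zero]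
  have hφ : ∀ f ∈ O, φ (τ f) = φ f := by
    intro f₀ hf₀
    have := key fun y => if y = T.t (μ (τ f₀)) then 1 else 0
    simp only [mul_sub, Finset.sum_sub_distrib] at this
    rw [Finset.sum_eq_single_of_mem f₀ hf₀, Finset.sum_eq_single_of_mem (τ f₀) (h.hτ f₀ hf₀).1] at this
    · simp only [if_true, mul_one] at this
      linarith
    · intro f _ hne
      rw [if_neg fun h' => hne (h.hμ.inj h'), mul_zero]
    · intro f hf hne
      rw [if_neg fun h' => hne (h.injOn hf hf₀ (h.hμ.inj h')), mul_zero]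
  by_cases he : ∃ f ∈ O, e = T.stp (μ f) (ν f)
  · obtain ⟨f, hf, rfl⟩ := he
    rw [h.zc_stp hf]
    have h1 := h.const φ hφ f₁ hf₁ f hf
    have h2 := T.sg_mul_self (μ f) (ν f)
    simp only [hφdef, hudef] at h1
    rw [h1]
    linear_combination (-(c (T.w (T.stp (μ f) (ν f))) - d (T.b (T.stp (μ f) (ν f))))) * h2
  · push Not at he
    rw [zc_off he, mul_zero]
    exact hu e he

theorem exists_side (h : T.IsCyc e₀ μ ν O τ) :
    ∃ (I : Finset W) (J : Finset B) (s : ℝ), (s = 1 ∨ s = -1) ∧ T.w e₀ ∉ I ∧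
      ∀ e, T.bd I J e = s * T.zc O μ ν e := by
  classical
  obtain ⟨c, d, hcd⟩ := h.exists_cd
  obtain ⟨f₁, hf₁⟩ := h.hne
  set a := c (T.w (T.stp (μ f₁) (ν f₁))) with ha
  set I : Finset W := univ.filter fun f => c f = a with hI
  set J : Finset B := univ.filter fun f => d f = a with hJ
  have h1 : ∀ e, T.bd I J e = T.sg (μ f₁) (ν f₁) * T.zc O μ ν e := by
    intro e
    have := h.eq_mul (fun f => if f ∈ I then 1 else 0) (fun f => if f ∈ J then 1 else 0) (by
      intro e he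
      have h2 := hcd e
      rw [zc_off he] at h2
      have h3 : c (T.w e) = d (T.b e) := by linarith
      simp [hI, hJ, h3]) hf₁ e
    have h2 : T.w (T.stp (μ f₁) (ν f₁)) ∈ I := by simp [hI, ha]
    have h3 : T.b (T.stp (μ f₁) (ν f₁)) ∉ J := by
      have h4 := hcd (T.stp (μ f₁) (ν f₁))
      rw [h.zc_stp hf₁] at h4
      simp only [hJ, mem_filter, mem_univ, true_and]
      intro h5
      rcases T.sg_cases (μ f₁) (ν f₁) with h6 | h6 <;> linarith
    simp only [h2, h3, if_true, if_false, sub_zero, mul_one] at this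
    exact this
  by_cases h0 : T.w e₀ ∈ I
  · refine ⟨Iᶜ, Jᶜ, -T.sg (μ f₁) (ν f₁), ?_, by simpa using h0, fun e => ?_⟩
    · rcases T.sg_cases (μ f₁) (ν f₁) with h6 | h6 <;> simp [h6]
    · rw [neg_mul, ← h1 e]
      unfold bd
      simp only [Finset.mem_compl]
      split_ifs <;> norm_num
  · exact ⟨I, J, _, T.sg_cases _ _, h0, h1⟩

theorem mem_cut (h : T.IsCyc e₀ μ ν O τ) {I : Finset W} {J : Finset B} {s : ℝ} (hs : s = 1 ∨ s = -1)
    (hb : ∀ e, T.bd I J e = s * T.zc O μ ν e) {e : E} : e ∈ T.cut I J ↔ ∃ f ∈ O, e = T.stp (μ f) (ν f) := by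
  have h1 : e ∈ T.cut I J ↔ T.bd I J e ≠ 0 := by
    unfold cut bd
    by_cases h2 : T.w e ∈ I <;> by_cases h3 : T.b e ∈ J <;> simp [h2, h3]
  rw [h1, hb]
  constructor
  · intro h2
    by_contra h3
    push Not at h3
    exact h2 (by rw [zc_off h3, mul_zero])
  · rintro ⟨f, hf, rfl⟩
    rw [h.zc_stp hf]
    rcases T.sg_cases (μ f) (ν f) with h6 | h6 <;> rcases hs with rfl | rfl <;> simp [h6]

theorem card_eq (h : T.IsCyc e₀ μ ν O τ) {I : Finset W} {J : Finset B} {s : ℝ} (hs : s = 1 ∨ s = -1)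
    (h0 : T.w e₀ ∉ I) (hb : ∀ e, T.bd I J e = s * T.zc O μ ν e) : J.card = I.card + 1 := by
  have hcut : T.cut I J = O.image fun f => T.stp (μ f) (ν f) := by
    ext e
    rw [h.mem_cut hs hb, Finset.mem_image]
    simp only [eq_comm]
  set C : Finset V := O.image fun f => T.t (μ f) with hCdef
  have hC : ∀ y, y ∈ C ↔ ∃ e ∈ T.cut I J, T.t e = y ∨ T.t (T.α e) = y := by
    intro y
    constructor
    · intro hy
      obtain ⟨f, hf, rfl⟩ := Finset.mem_image.1 hy
      refine ⟨_, (h.mem_cut hs hb).2 ⟨f, hf, rfl⟩, ?_⟩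
      rcases T.stp_ends (h.w_eq hf) (h.hν f hf) with h1 | h1
      · exact Or.inl h1.1
      · exact Or.inr h1.2
    · rintro ⟨e, he, hy⟩
      obtain ⟨f, hf, rfl⟩ := (h.mem_cut hs hb).1 he
      have h2 : T.t (μ f) ∈ C := Finset.mem_image_of_mem _ hf
      have h3 : T.t (ν f) ∈ C := by
        rw [← (h.hτ f hf).2]
        exact Finset.mem_image_of_mem _ (h.hτ f hf).1
      rcases T.stp_ends (h.w_eq hf) (h.hν f hf) with h1 | h1 <;> rcases hy with rfl | rfl
      · rwa [h1.1]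
      · rwa [h1.2]
      · rwa [h1.1]
      · rwa [h1.2]
  have hcO : (T.cut I J).card = O.card := by
    rw [hcut, Finset.card_image_of_injOn fun f hf f' hf' he => h.stp_inj hf hf' he]
  have hCO : C.card = O.card := Finset.card_image_of_injective _ h.hμ.inj
  have heul := T.euler_disc I J (by rw [hcut]; exact h.hne.image _) C hC (by rw [hcO, hCO]) (by
    intro g hg y hy y' hy'
    obtain ⟨f, hf, rfl⟩ := Finset.mem_image.1 hy
    obtain ⟨f', hf', rfl⟩ := Finset.mem_image.1 hy'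
    refine h.const (fun f => g (T.t (μ f))) (fun f hf => ?_) f hf f' hf'
    have h1 := h.δ_stp hf g
    rw [← hg _ ((h.mem_cut hs hb).2 ⟨f, hf, rfl⟩), sub_self, mul_zero] at h1
    linarith)
  -- edge counts
  have hEin : (T.Ein I J).card = 3 * I.card + (univ.filter fun e => T.w e ∉ I ∧ T.b e ∈ J).card := by
    rw [← T.card_filter_w, ← Finset.card_union_of_disjoint]
    · congr 1
      ext e
      simp only [Ein, mem_filter, mem_univ, true_and, mem_union]
      tauto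
    · rw [Finset.disjoint_filter]
      tauto
  -- faces
  set I' : Finset (T.W' e₀) := univ.filter fun f => f.1 ∈ I with hI'
  have hI'c : I'.card = I.card := by
    refine Finset.card_bij (fun f _ => f.1) (fun f hf => by simpa [hI'] using hf)
      (fun f _ f' _ h => Subtype.ext h) fun f hf => ⟨⟨f, fun h => h0 (h ▸ hf)⟩, by simpa [hI'] using hf, rfl⟩
  have hout : (O.filter fun f => f ∉ I').card = (univ.filter fun e => T.w e ∉ I ∧ T.b e ∈ J).card := by
    refine Finset.card_bij (fun f _ => T.stp (μ f) (ν f)) ?_ ?_ ?_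
    · intro f hf
      rw [Finset.mem_filter] at hf
      have h1 := (h.mem_cut hs hb).2 ⟨f, hf.1, rfl⟩
      have h2 : T.w (T.stp (μ f) (ν f)) ∉ I := by
        rw [h.w_stp' hf.1]
        simpa [hI'] using hf.2
      simp only [cut, mem_filter, mem_univ, true_and] at h1 ⊢
      tauto
    · intro f hf f' hf' he
      exact h.stp_inj (Finset.mem_filter.1 hf).1 (Finset.mem_filter.1 hf').1 he
    · intro e he
      simp only [mem_filter, mem_univ, true_and] at he
      obtain ⟨f, hf, rfl⟩ := (h.mem_cut hs hb (e := e)).1 (by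
        simp only [cut, mem_filter, mem_univ, true_and]
        tauto)
      refine ⟨f, Finset.mem_filter.2 ⟨hf, ?_⟩, rfl⟩
      rw [h.w_stp' hf] at he
      simpa [hI'] using he.1
  have hin : (I'.filter fun f => f ∉ O).card = (T.Vin I J \ C).card := by
    refine Finset.card_bij (fun f _ => T.t (μ f)) ?_ (fun f _ f' _ he => h.hμ.inj he) ?_
    · intro f hf
      rw [Finset.mem_filter] at hf
      rw [Finset.mem_sdiff]
      refine ⟨T.mem_Vin.2 ⟨μ f, rfl, Or.inl ?_⟩, fun h1 => ?_⟩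
      · rw [h.hμ.w_eq]
        simpa [hI'] using hf.1
      · obtain ⟨f', hf', he⟩ := Finset.mem_image.1 h1
        exact hf.2 (h.hμ.inj he ▸ hf')
    · intro y hy
      rw [Finset.mem_sdiff] at hy
      have h1 : y ∉ T.Vin Iᶜ Jᶜ := fun h1 => hy.2 ((hC y).2 (T.exists_cut_at I J hy.1 h1))
      have h2 : ¬ T.Root e₀ y := by
        rintro ⟨e, he, rfl⟩
        exact h1 (T.mem_Vin.2 ⟨e, rfl, Or.inl (by rw [he]; simpa using h0)⟩)
      obtain ⟨f, rfl⟩ := h.hμ.surj h2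
      refine ⟨f, Finset.mem_filter.2 ⟨?_, fun hf => hy.2 (Finset.mem_image_of_mem _ hf)⟩, rfl⟩
      by_contra h3
      refine h1 (T.mem_Vin.2 ⟨μ f, rfl, Or.inl ?_⟩)
      rw [h.hμ.w_eq]
      simpa [hI'] using h3
  have hCV : C ⊆ T.Vin I J := by
    intro y hy
    obtain ⟨e, he, hy⟩ := (hC y).1 hy
    have he' : e ∈ T.Ein I J := by
      simp only [cut, Ein, mem_filter, mem_univ, true_and] at he ⊢
      tauto
    unfold Vin
    rcases hy with rfl | rfl
    · exact Finset.mem_union_left _ (Finset.mem_image_of_mem _ he')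
    · exact Finset.mem_union_right _ (Finset.mem_image_of_mem (fun e => T.t (T.α e)) he')
  have h1 := Finset.card_sdiff_add_card_eq_card hCV
  have h2 := Finset.card_filter_add_card_filter_not (s := I') fun f => f ∈ O
  have h3 := Finset.card_filter_add_card_filter_not (s := O) fun f => f ∈ I'
  have h4 : (I'.filter fun f => f ∈ O).card = (O.filter fun f => f ∈ I').card := by
    rw [Finset.filter_mem_eq_inter, Finset.filter_mem_eq_inter, Finset.inter_comm]
  omega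

end IsCyc

theorem cyc {e₀ : E} {μ : T.W' e₀ → E} (hμ : T.IsState e₀ μ) (ν : T.W' e₀ → E) (O : Finset (T.W' e₀))
    (τ : T.W' e₀ → T.W' e₀) (hne : O.Nonempty) (hw : ∀ f ∈ O, T.w (ν f) = f.1) (hν : ∀ f ∈ O, ν f ≠ μ f)
    (hτ : ∀ f ∈ O, τ f ∈ O ∧ T.t (μ (τ f)) = T.t (ν f))
    (hmin : ∀ S ⊆ O, S.Nonempty → (∀ f ∈ S, τ f ∈ S) → S = O) :
    ∃ (I : Finset W) (J : Finset B) (s : ℝ), (s = 1 ∨ s = -1) ∧ T.w e₀ ∉ I ∧ J.card = I.card + 1 ∧
      ∀ e, T.bd I J e = s * T.zc O μ ν e := by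
  have h : T.IsCyc e₀ μ ν O τ := ⟨hμ, hne, hw, hν, hτ, hmin⟩
  obtain ⟨I, J, s, hs, h0, hb⟩ := h.exists_side
  exact ⟨I, J, s, hs, h0, h.card_eq hs h0 hb, hb⟩

end Tri

end Crest.Agent.R39
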