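import Crest.Agent.R39.Basic

/-!
# R39/Disc: Euler's formula for a disc
-/

set_option autoImplicit false
set_option linter.unusedSectionVars false

namespace Crest.Agent.R39

open Finset

namespace Tri

variable {E V W B : Type} [Fintype E] [Fintype V] [Fintype W] [Fintype B]
  [DecidableEq E] [DecidableEq V] [DecidableEq W] [DecidableEq B] (T : Tri E V W B)

/-- (`t (α e)` is the tail of `α e` if `w e ∈ I` and of `β e` if `b e ∈ J`) -/
theorem mem_Vin {I : Finset W} {J : Finset B} {y : V} :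
    y ∈ T.Vin I J ↔ ∃ e, T.t e = y ∧ (T.w e ∈ I ∨ T.b e ∈ J) := by
  simp only [Vin, Ein, Finset.mem_union, Finset.mem_image, Finset.mem_filter, Finset.mem_univ,
    true_and]
  constructor
  · rintro (⟨e, he, rfl⟩ | ⟨e, he | he, rfl⟩)
    · exact ⟨e, rfl, he⟩
    · exact ⟨T.α e, rfl, Or.inl (by rwa [T.w_α])⟩
    · exact ⟨T.β e, (T.tαβ e).symm, Or.inr (by rwa [T.b_β])⟩
  · rintro ⟨e, rfl, he⟩
    exact Or.inl ⟨e, he, rfl⟩

theorem disc_mem_cut {I : Finset W} {J : Finset B} {e : E} :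
    e ∈ T.cut I J ↔ ¬ (T.w e ∈ I ↔ T.b e ∈ J) := by
  simp only [cut, Finset.mem_filter, Finset.mem_univ, true_and]

theorem disc_mem_Ein {I : Finset W} {J : Finset B} {e : E} :
    e ∈ T.Ein I J ↔ T.w e ∈ I ∨ T.b e ∈ J := by
  simp only [Ein, Finset.mem_filter, Finset.mem_univ, true_and]

theorem disc_end_mem {I : Finset W} {J : Finset B} {e : E} (he : e ∈ T.Ein I J) {y : V}
    (hy : T.t e = y ∨ T.t (T.α e) = y) : y ∈ T.Vin I J := by
  rcases hy with rfl | rfl
  · exact Finset.mem_union_left _ (Finset.mem_image_of_mem _ he)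
  · exact Finset.mem_union_right _ (Finset.mem_image_of_mem (fun e => T.t (T.α e)) he)

theorem disc_cut_compl (I : Finset W) (J : Finset B) : T.cut Iᶜ Jᶜ = T.cut I J := by
  ext e
  simp only [T.disc_mem_cut, Finset.mem_compl, not_iff_not]

/-- a vertex with faces on both sides of a cut lies on a cut edge (otherwise `loc` applies) -/
theorem exists_cut_at (I : Finset W) (J : Finset B) {y : V} (h1 : y ∈ T.Vin I J)
    (h2 : y ∈ T.Vin Iᶜ Jᶜ) : ∃ e ∈ T.cut I J, T.t e = y ∨ T.t (T.α e) = y := by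
  by_contra hn
  have h : ∀ e, T.t e = y ∨ T.t (T.α e) = y → (T.w e ∈ I ↔ T.b e ∈ J) := by
    intro e he
    by_contra h
    exact hn ⟨e, T.disc_mem_cut.2 h, he⟩
  obtain ⟨e₁, he₁, h₁⟩ := T.mem_Vin.1 h1
  obtain ⟨e₂, he₂, h₂⟩ := T.mem_Vin.1 h2
  have a₁ := h e₁ (Or.inl he₁)
  have a₂ := h e₂ (Or.inl he₂)
  have a₃ := T.loc y (I : Set W) (J : Set B) h e₁ e₂ he₁ he₂
  simp only [Finset.mem_coe, Finset.mem_compl] at a₃ h₂
  tauto

/-- `χ ≤ 1` for one side.  Recipe: `dim_le` with `SV = Vin ∖ {y₀}` (`y₀ ∈ C`), `SW = I`, `SB = J`, `SE = Ein`.  If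
`δ g + ∂ (c, d) = 0` on `Ein`, then, as `∂ (c, d) = 0` off `Ein`, `orth` gives `∑_{Ein} (∂ (c, d))² = 0`; so `∂ (c, d) = 0` everywhere,
`(c, d)` is constant (`connG`) and vanishes on the outer face of a cut edge; `δ g = 0` on `Ein`, so `g = g y₀ = 0` on `C` (`hconn`);
an edge not in `Ein` has each end either outside `Vin I J` or in `Vin I J ∩ Vin Iᶜ Jᶜ ⊆ C` (`exists_cut_at`), so `δ g = 0` everywhere
and `g = 0` by `connT`. -/
theorem euler_disc_le (I : Finset W) (J : Finset B) (hne : (T.cut I J).Nonempty) (C : Finset V)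
    (hC : ∀ y, y ∈ C ↔ ∃ e ∈ T.cut I J, T.t e = y ∨ T.t (T.α e) = y)
    (hconn : ∀ g : V → ℝ, (∀ e ∈ T.cut I J, g (T.t e) = g (T.t (T.α e))) →
      ∀ y ∈ C, ∀ y' ∈ C, g y = g y') :
    (T.Vin I J).card + I.card + J.card ≤ (T.Ein I J).card + 1 := by
  obtain ⟨e₀, he₀⟩ := hne
  have hcE : ∀ e ∈ T.cut I J, e ∈ T.Ein I J := fun e he => by
    have := T.disc_mem_cut.1 he
    rw [T.disc_mem_Ein]
    tauto
  have hy₀ : T.t e₀ ∈ T.Vin I J := T.disc_end_mem (hcE e₀ he₀) (Or.inl rfl)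
  have hy₀C : T.t e₀ ∈ C := (hC _).2 ⟨e₀, he₀, Or.inl rfl⟩
  have key := T.dim_le ((T.Vin I J).erase (T.t e₀)) I J (T.Ein I J) (by
    intro g c d hg hc hd h
    have hsq : ∀ e, (g (T.t (T.α e)) - g (T.t e)) * (c (T.w e) - d (T.b e)) =
        -(c (T.w e) - d (T.b e)) ^ 2 := by
      intro e
      by_cases he : e ∈ T.Ein I J
      · rw [show g (T.t (T.α e)) - g (T.t e) = -(c (T.w e) - d (T.b e)) by linarith [h e he]]
        ring
      · rw [T.disc_mem_Ein, not_or] at he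
        rw [hc _ he.1, hd _ he.2]
        ring
    have h0 := T.orth g c d
    simp only [hsq, Finset.sum_neg_distrib, neg_eq_zero] at h0
    have hD : ∀ e, c (T.w e) = d (T.b e) := fun e =>
      sub_eq_zero.1 (pow_eq_zero_iff two_ne_zero |>.1
        ((Finset.sum_eq_zero_iff_of_nonneg fun e _ => sq_nonneg _).1 h0 e (Finset.mem_univ e)))
    have hc0 : c (T.w e₀) = 0 := by
      by_cases h1 : T.w e₀ ∈ I
      · have := T.disc_mem_cut.1 he₀
        rw [hD, hd _ (by tauto)]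
      · exact hc _ h1
    have hc1 : ∀ e, c (T.w e) = 0 := fun e => (T.connG c d hD e e₀).trans hc0
    have hG : ∀ e ∈ T.Ein I J, g (T.t e) = g (T.t (T.α e)) := fun e he => by
      linarith [h e he, hD e]
    have hg0 : g (T.t e₀) = 0 := hg _ (Finset.notMem_erase _ _)
    have hout : ∀ y ∈ T.Vin Iᶜ Jᶜ, g y = 0 := by
      intro y hy
      by_cases hy' : y ∈ T.Vin I J
      · exact (hconn g (fun e he => hG e (hcE e he)) y ((hC y).2 (T.exists_cut_at I J hy' hy)) _
          hy₀C).trans hg0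
      · exact hg y fun h => hy' (Finset.mem_of_mem_erase h)
    have hG' : ∀ e, g (T.t e) = g (T.t (T.α e)) := by
      intro e
      by_cases he : e ∈ T.Ein I J
      · exact hG e he
      · have he' : e ∈ T.Ein Iᶜ Jᶜ := by
          rw [T.disc_mem_Ein, not_or] at he
          exact T.disc_mem_Ein.2 (Or.inl (Finset.mem_compl.2 he.1))
        rw [hout _ (T.disc_end_mem he' (Or.inl rfl)), hout _ (T.disc_end_mem he' (Or.inr rfl))]
    refine ⟨funext fun y => (T.connT g hG' y _).trans hg0, funext fun f => ?_, funext fun f => ?_⟩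
    · obtain ⟨e, rfl⟩ := T.w_surj f
      exact hc1 e
    · obtain ⟨e, rfl⟩ := T.b_surj f
      exact (hD e).symm.trans (hc1 e))
  have := Finset.card_erase_add_one hy₀
  omega

/-- Euler's formula for a disc: the cut edges form a connected graph with as many vertices as edges.
Recipe: `euler_disc_le` for `(I, J)` and `(Iᶜ, Jᶜ)` (same cut), `#Vin + #Vinᶜ = #V + #C` (union everything, intersection `C`),
`#Ein + #Einᶜ = #E + #cut`, and `euler`. -/
theorem euler_disc (I : Finset W) (J : Finset B) (hne : (T.cut I J).Nonempty) (C : Finset V)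
    (hC : ∀ y, y ∈ C ↔ ∃ e ∈ T.cut I J, T.t e = y ∨ T.t (T.α e) = y) (hcard : C.card = (T.cut I J).card)
    (hconn : ∀ g : V → ℝ, (∀ e ∈ T.cut I J, g (T.t e) = g (T.t (T.α e))) →
      ∀ y ∈ C, ∀ y' ∈ C, g y = g y') :
    (T.Vin I J).card + I.card + J.card = (T.Ein I J).card + 1 := by
  have h1 := T.euler_disc_le I J hne C hC hconn
  have h2 := T.euler_disc_le Iᶜ Jᶜ (by rwa [T.disc_cut_compl]) C (by rwa [T.disc_cut_compl])
    (by rwa [T.disc_cut_compl])
  have hEu : T.Ein I J ∪ T.Ein Iᶜ Jᶜ = univ := by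
    ext e
    simp only [Finset.mem_union, T.disc_mem_Ein, Finset.mem_compl, Finset.mem_univ]
    tauto
  have hEi : T.Ein I J ∩ T.Ein Iᶜ Jᶜ = T.cut I J := by
    ext e
    simp only [Finset.mem_inter, T.disc_mem_Ein, Finset.mem_compl, T.disc_mem_cut]
    tauto
  have hVu : T.Vin I J ∪ T.Vin Iᶜ Jᶜ = univ := by
    refine Finset.eq_univ_of_forall fun y => ?_
    obtain ⟨e, rfl⟩ := T.t_surj y
    rcases Finset.mem_union.1 (hEu ▸ Finset.mem_univ e) with h | h
    · exact Finset.mem_union_left _ (T.disc_end_mem h (Or.inl rfl))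
    · exact Finset.mem_union_right _ (T.disc_end_mem h (Or.inl rfl))
  have hVi : T.Vin I J ∩ T.Vin Iᶜ Jᶜ = C := by
    ext y
    rw [Finset.mem_inter, hC]
    refine ⟨fun h => T.exists_cut_at I J h.1 h.2, ?_⟩
    rintro ⟨e, he, hy⟩
    have := Finset.mem_inter.1 (hEi ▸ he)
    exact ⟨T.disc_end_mem this.1 hy, T.disc_end_mem this.2 hy⟩
  have a1 := Finset.card_union_add_card_inter (T.Ein I J) (T.Ein Iᶜ Jᶜ)
  have a2 := Finset.card_union_add_card_inter (T.Vin I J) (T.Vin Iᶜ Jᶜ)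
  rw [hEu, hEi, Finset.card_univ] at a1
  rw [hVu, hVi, Finset.card_univ] at a2
  have a3 := Finset.card_add_card_compl I
  have a4 := Finset.card_add_card_compl J
  have a5 := T.euler
  omega

end Tri

end Crest.Agent.R39
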