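import Crest.Agent.R39.Basic

/-!
# R39/Hall: two everywhere different states
-/

set_option autoImplicit false

namespace Crest.Agent.R39

open Finset

namespace Tri

variable {E V W B : Type} [Fintype E] [Fintype V] [Fintype W] [Fintype B]
  [DecidableEq E] [DecidableEq V] [DecidableEq W] [DecidableEq B] (T : Tri E V W B)

/-- white faces with all three corners in `S` -/
def W3 (S : Finset V) : Finset W := univ.filter fun f => ∀ e, T.w e = f → T.t e ∈ S

/-- `χ ≤ 1` for the open star of a connected vertex set `S ≠ V`.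
Recipe: `dim_le` with `SV = S`, `SW = I.erase f₁` (`f₁ ∈ I`), `SB = J`, `SE = ES`: `δ g = 0` off `ES`, so `orth` gives `δ g = 0`, and
`g = 0` by `connT` (`y₀ ∉ S`); then `c (w e) = d (b e)` on `ES`, so `y ↦ c (w e_y)` (`t e_y = y`, well defined by `loc_real`) is
constant along the edges inside `S` (`w (α e) = w e`), hence constant on `S`, hence `0`; a black face `b e` with `t e ∈ S` has
`d (b e) = c (w e) = 0`. -/
theorem star_le (S : Finset V) (hne : S.Nonempty) (y₀ : V) (hy₀ : y₀ ∉ S)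
    (hconn : ∀ g : V → ℝ, (∀ e, T.t e ∈ S → T.t (T.α e) ∈ S → g (T.t e) = g (T.t (T.α e))) →
      ∀ y ∈ S, ∀ y' ∈ S, g y = g y')
    (I : Finset W) (hI : ∀ f, f ∈ I ↔ ∃ e, T.w e = f ∧ T.t e ∈ S)
    (J : Finset B) (hJ : ∀ f, f ∈ J ↔ ∃ e, T.b e = f ∧ T.t e ∈ S) :
    S.card + I.card + J.card ≤ (univ.filter fun e => T.t e ∈ S ∨ T.t (T.α e) ∈ S).card + 1 := by
  obtain ⟨y₁, hy₁⟩ := hne
  obtain ⟨e₁, rfl⟩ := T.t_surj y₁
  have hf₁ : T.w e₁ ∈ I := (hI _).2 ⟨e₁, rfl, hy₁⟩
  have key := T.dim_le S (I.erase (T.w e₁)) J (univ.filter fun e => T.t e ∈ S ∨ T.t (T.α e) ∈ S)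
    fun g c d hg hc hd hE => by
    simp only [mem_filter, mem_univ, true_and] at hE
    have h1 : ∑ e, (g (T.t (T.α e)) - g (T.t e)) ^ 2 = 0 := by
      rw [← neg_eq_zero, ← sum_neg_distrib, ← T.orth g c d]
      refine sum_congr rfl fun e _ => ?_
      by_cases he : T.t e ∈ S ∨ T.t (T.α e) ∈ S
      · linear_combination (-(g (T.t (T.α e)) - g (T.t e))) * hE e he
      · rw [not_or] at he
        rw [hg _ he.1, hg _ he.2]; ring
    have h2 : ∀ e, g (T.t e) = g (T.t (T.α e)) := fun e => by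
      have := (sum_eq_zero_iff_of_nonneg fun _ _ => sq_nonneg _).1 h1 e (mem_univ e)
      linarith [pow_eq_zero_iff two_ne_zero |>.1 this]
    have h3 : ∀ e, T.t e ∈ S ∨ T.t (T.α e) ∈ S → c (T.w e) = d (T.b e) := fun e he => by
      linarith [hE e he, h2 e]
    have h4 : ∀ e, T.t e ∈ S → c (T.w (Function.surjInv T.t_surj (T.t e))) = c (T.w e) :=
      fun e he => T.loc_real (T.t e) c d (fun e' h' => h3 e' (by rcases h' with h | h <;> simp [h, he]))
        (Function.surjInv_eq _ _) rfl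
    have h5 : ∀ e, T.t e ∈ S → c (T.w e) = 0 := fun e he => by
      have := hconn (fun y => c (T.w (Function.surjInv T.t_surj y)))
        (fun e h h' => by rw [h4 _ h, h4 _ h', T.w_α]) _ he _ hy₁
      rw [h4 _ he, h4 _ hy₁] at this
      rw [this, hc _ (notMem_erase _ _)]
    refine ⟨funext fun y => (T.connT g h2 y y₀).trans (hg _ hy₀), funext fun f => ?_,
      funext fun f => ?_⟩
    · by_cases hf : f ∈ I
      · obtain ⟨e, rfl, he⟩ := (hI f).1 hf
        exact h5 e he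
      · exact hc f fun h => hf (mem_of_mem_erase h)
    · by_cases hf : f ∈ J
      · obtain ⟨e, rfl, he⟩ := (hJ f).1 hf
        exact (h3 e (Or.inl he)).symm.trans (h5 e he)
      · exact hd f hf
  have := card_erase_add_one hf₁
  omega

/-- the Hall inequality for a connected root-free `S`.
Recipe: `I, J, ES` as in `star_le`, `NW = {e ∉ ES | w e ∈ I}`, `NB = {e ∉ ES | b e ∈ J}`; `e ∈ ES → w e ∈ I ∧ b e ∈ J`
(`w_α`, `b_β`, `tαβ`), so `3 #I = #ES + #NW`, `3 #J = #ES + #NB` (`card_filter_w/b`) and `cut I J ⊆ NW ∪ NB`.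
`w e₀ ∉ I`, so `3 ≤ #cut` (`three_le_cut`).  If `NB = ∅` and `#NW = 3` then `(I, J)` is a `BadCut`; together with the two congruences
mod 3 this gives `#NW + 2 #NB ≥ 6`.  With `D = #{e | t e ∈ S}`: `D + #NW = 2 #I + #W3` (multiply by 3 and sum over `e` the pointwise
identity in the three Booleans `t e ∈ S`, `t (α e) ∈ S`, `t (α² e) ∈ S`, symmetrised by `sum_α`; a face of `I` with
`1, 2, 3` corners in `S` has `1, 0, 0` edges in `NW`).  With `star_le`: `3 (D - #W3 - 2 #S) ≥ #NW + 2 #NB - 6 ≥ 0`. -/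
theorem hall_conn (e₀ : E) (h : ∀ I J, ¬ T.BadCut e₀ I J) (S : Finset V) (hne : S.Nonempty)
    (hS : ∀ y ∈ S, ¬ T.Root e₀ y)
    (hconn : ∀ g : V → ℝ, (∀ e, T.t e ∈ S → T.t (T.α e) ∈ S → g (T.t e) = g (T.t (T.α e))) →
      ∀ y ∈ S, ∀ y' ∈ S, g y = g y') :
    (T.W3 S).card + 2 * S.card ≤ (univ.filter fun e => T.t e ∈ S).card := by
  classical
  set I : Finset W := univ.filter fun f => ∃ e, T.w e = f ∧ T.t e ∈ S with hIdef
  set J : Finset B := univ.filter fun f => ∃ e, T.b e = f ∧ T.t e ∈ S with hJdef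
  have hI : ∀ f, f ∈ I ↔ ∃ e, T.w e = f ∧ T.t e ∈ S := fun f => by simp [hIdef]
  have hJ : ∀ f, f ∈ J ↔ ∃ e, T.b e = f ∧ T.t e ∈ S := fun f => by simp [hJdef]
  clear_value I J
  have hstar := T.star_le S hne (T.t e₀) (fun h0 => hS _ h0 ⟨e₀, rfl, rfl⟩) hconn I hI J hJ
  have hwI : ∀ e, T.w e ∈ I ↔ T.t e ∈ S ∨ T.t (T.α e) ∈ S ∨ T.t (T.α (T.α e)) ∈ S := fun e => by
    simp only [hI, T.w_iff, or_and_right, exists_or, exists_eq_left]
  have hw3 : ∀ e, T.w e ∈ T.W3 S ↔ T.t e ∈ S ∧ T.t (T.α e) ∈ S ∧ T.t (T.α (T.α e)) ∈ S := fun e => by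
    simp only [W3, mem_filter, mem_univ, true_and, T.w_iff, or_imp, forall_and, forall_eq]
  have hEw : ∀ e, T.t e ∈ S ∨ T.t (T.α e) ∈ S → T.w e ∈ I := fun e he => by
    rw [hwI]; tauto
  have hEb : ∀ e, T.t e ∈ S ∨ T.t (T.α e) ∈ S → T.b e ∈ J := fun e he => by
    rcases he with he | he
    · exact (hJ _).2 ⟨e, rfl, he⟩
    · exact (hJ _).2 ⟨T.β e, T.b_β e, T.tαβ e ▸ he⟩
  set ES := univ.filter fun e => T.t e ∈ S ∨ T.t (T.α e) ∈ S with hES
  set NW := univ.filter fun e => T.w e ∈ I ∧ ¬ (T.t e ∈ S ∨ T.t (T.α e) ∈ S) with hNW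
  set NB := univ.filter fun e => T.b e ∈ J ∧ ¬ (T.t e ∈ S ∨ T.t (T.α e) ∈ S) with hNB
  have h1 : ES.card + NW.card = 3 * I.card := by
    rw [← T.card_filter_w, ← card_filter_add_card_filter_not (s := univ.filter fun e => T.w e ∈ I)
      fun e => T.t e ∈ S ∨ T.t (T.α e) ∈ S, filter_filter, filter_filter]
    congr 2
    exact filter_congr fun e _ => ⟨fun he => ⟨hEw e he, he⟩, fun he => he.2⟩
  have h2 : ES.card + NB.card = 3 * J.card := by
    rw [← T.card_filter_b, ← card_filter_add_card_filter_not (s := univ.filter fun e => T.b e ∈ J)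
      fun e => T.t e ∈ S ∨ T.t (T.α e) ∈ S, filter_filter, filter_filter]
    congr 2
    exact filter_congr fun e _ => ⟨fun he => ⟨hEb e he, he⟩, fun he => he.2⟩
  have h0 : T.w e₀ ∉ I := fun h0 => by
    obtain ⟨e, he, he'⟩ := (hI _).1 h0
    exact hS _ he' ⟨e, he, rfl⟩
  have hJne : J.Nonempty := by
    obtain ⟨y, hy⟩ := hne
    obtain ⟨e, rfl⟩ := T.t_surj y
    exact ⟨_, hEb e (Or.inl hy)⟩
  have h3 := T.three_le_cut I J (Or.inr hJne) (Or.inl ⟨_, h0⟩)
  have h4 : (T.cut I J).card ≤ NW.card + NB.card := by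
    refine (card_le_card fun e he => ?_).trans (card_union_le _ _)
    have := hEw e
    have := hEb e
    simp only [cut, hNW, hNB, mem_union, mem_filter, mem_univ, true_and] at he ⊢
    tauto
  have h5 : NB.card = 0 → (T.cut I J).card ≠ 3 := fun hb hc => by
    refine h I J ⟨h0, hJne, hc, fun e he => hEw e ?_⟩
    by_contra hn
    exact card_ne_zero_of_mem (mem_filter.2 ⟨mem_univ e, he, hn⟩) hb
  have h6 : (univ.filter fun e => T.t e ∈ S).card + NW.card = 2 * I.card + (T.W3 S).card := by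
    have a1 := T.sum_α fun e => if T.t e ∈ S then 1 else 0
    have a2 := T.sum_α fun e => if T.t (T.α e) ∈ S then 1 else 0
    have a3 := T.sum_α fun e => if T.w e ∈ I ∧ ¬ (T.t e ∈ S ∨ T.t (T.α e) ∈ S) then 1 else 0
    have a4 := T.sum_α fun e =>
      if T.w (T.α e) ∈ I ∧ ¬ (T.t (T.α e) ∈ S ∨ T.t (T.α (T.α e)) ∈ S) then 1 else 0
    have a5 : ∑ e, ((if T.t e ∈ S then (1 : ℝ) else 0) + (if T.t (T.α e) ∈ S then 1 else 0) +
        (if T.t (T.α (T.α e)) ∈ S then 1 else 0) +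
        (if T.w e ∈ I ∧ ¬ (T.t e ∈ S ∨ T.t (T.α e) ∈ S) then 1 else 0) +
        (if T.w (T.α e) ∈ I ∧ ¬ (T.t (T.α e) ∈ S ∨ T.t (T.α (T.α e)) ∈ S) then 1 else 0) +
        (if T.w (T.α (T.α e)) ∈ I ∧ ¬ (T.t (T.α (T.α e)) ∈ S ∨ T.t (T.α (T.α (T.α e))) ∈ S)
          then 1 else 0)) =
        ∑ e, (2 * (if T.w e ∈ I then 1 else 0) + (if T.w e ∈ T.W3 S then 1 else 0)) := by
      refine sum_congr rfl fun e _ => ?_
      simp only [T.w_α, T.α3, hwI e, hw3 e]
      by_cases b1 : T.t e ∈ S <;> by_cases b2 : T.t (T.α e) ∈ S <;>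
        by_cases b3 : T.t (T.α (T.α e)) ∈ S <;> simp [b1, b2, b3] <;> norm_num
    simp only [sum_add_distrib, ← mul_sum] at a5
    rw [a2, a1, a4, a3] at a5
    simp only [sum_boole, T.card_filter_w] at a5
    push_cast at a5
    have a6 : (((univ.filter fun e => T.t e ∈ S).card + NW.card : ℕ) : ℝ) =
        ((2 * I.card + (T.W3 S).card : ℕ) : ℝ) := by
      push_cast; linarith
    exact_mod_cast a6
  omega

/-- the Hall inequality.  Recipe: strong induction on `S`; if `hconn` fails, a level set `S₁` of `g` splits `S = S₁ ⊔ S₂` with no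
edge between the parts, `W3 S ⊆ W3 S₁ ∪ W3 S₂`. -/
theorem hall_ineq (e₀ : E) (h : ∀ I J, ¬ T.BadCut e₀ I J) (S : Finset V) (hS : ∀ y ∈ S, ¬ T.Root e₀ y) :
    (T.W3 S).card + 2 * S.card ≤ (univ.filter fun e => T.t e ∈ S).card := by
  classical
  induction S using Finset.strongInduction with
  | H S ih =>
  rcases S.eq_empty_or_nonempty with rfl | hne
  · have : T.W3 ∅ = ∅ := filter_eq_empty_iff.2 fun f _ hf => by
      obtain ⟨e, he⟩ := T.w_surj f
      exact notMem_empty _ (hf e he)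
    simp [this]
  by_cases hconn : ∀ g : V → ℝ, (∀ e, T.t e ∈ S → T.t (T.α e) ∈ S → g (T.t e) = g (T.t (T.α e))) →
      ∀ y ∈ S, ∀ y' ∈ S, g y = g y'
  · exact T.hall_conn e₀ h S hne hS hconn
  push Not at hconn
  obtain ⟨g, hg, y, hy, y', hy', hyy⟩ := hconn
  have h1 := ih (S.filter fun z => g z = g y)
    (filter_ssubset.2 ⟨y', hy', hyy.symm⟩) fun z hz => hS z (mem_filter.1 hz).1
  have h2 := ih (S.filter fun z => ¬ g z = g y)
    (filter_ssubset.2 ⟨y, hy, not_not.2 rfl⟩) fun z hz => hS z (mem_filter.1 hz).1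
  have h3 := card_filter_add_card_filter_not (s := S) fun z => g z = g y
  have h4 := card_filter_add_card_filter_not (s := univ.filter fun e => T.t e ∈ S)
    fun e => g (T.t e) = g y
  simp only [mem_filter] at h1 h2
  rw [filter_filter, filter_filter] at h4
  have h5 : (T.W3 S).card ≤ (T.W3 (S.filter fun z => g z = g y)).card +
      (T.W3 (S.filter fun z => ¬ g z = g y)).card := by
    refine (card_le_card fun f hf => ?_).trans (card_union_le _ _)
    obtain ⟨e, rfl⟩ := T.w_surj f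
    simp only [W3, mem_union, mem_filter, mem_univ, true_and, T.w_iff, or_imp, forall_and,
      forall_eq] at hf ⊢
    obtain ⟨a1, a2, a3⟩ := hf
    rw [← hg _ a2 a3, ← hg _ a1 a2]
    tauto
  omega

/-- the excluded corners.  Recipe: `d y = #{e | t e = y}`, `q y = d y - 2` for non-roots (`2 ≤ d y` by `hall_ineq {y}`), `q y = d y - 1`
for roots; `∑ q = #W - 1` (`card_E_W`, `card_V`, `card_root`).  Hall's theorem
(`Finset.all_card_le_biUnion_card_iff_exists_injective`) for `f ↦ {(y, i) | y a corner of f, i < q y} ⊆ V × ℕ`: for a set `A` of faces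
with vertex set `U = S ∪ R` (`S` root-free, `R` roots), a face of `A` is in `W3 S` or has a corner `e` with `t e ∈ R`, `w e ≠ w e₀`
(at most `∑_R (d y - 1)` such corners), so `#A ≤ ∑_U q`.  The injection fills all `#W - 1` slots, so exactly `q y` excluded corners
lie at `y` (`eq_of_w_t`). -/
theorem exists_excl (e₀ : E) (h : ∀ I J, ¬ T.BadCut e₀ I J) :
    ∃ κ : T.W' e₀ → E, (∀ f, T.w (κ f) = f.1) ∧
      (∀ (f : T.W' e₀) e, T.w e = f.1 → e ≠ κ f → ¬ T.Root e₀ (T.t e)) ∧
      ∀ y, ¬ T.Root e₀ y → (univ.filter fun e => T.t e = y ∧ ∀ f : T.W' e₀, e ≠ κ f).card = 2 := by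
  classical
  let d : V → ℕ := fun y => (univ.filter fun e => T.t e = y).card
  let q : V → ℕ := fun y => if T.Root e₀ y then d y - 1 else d y - 2
  have hsum : ∀ U : Finset V, ∑ y ∈ U, d y = (univ.filter fun e => T.t e ∈ U).card := fun U =>
    sum_card_fiberwise_eq_card_filter univ U T.t
  have hqN : ∀ y, ¬ T.Root e₀ y → q y + 2 = d y := fun y hy => by
    have h1 := T.hall_ineq e₀ h {y} fun z hz => mem_singleton.1 hz ▸ hy
    rw [← hsum, sum_singleton, card_singleton] at h1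
    simp only [q, if_neg hy]; omega
  have hqR : ∀ y, T.Root e₀ y → q y + 1 = d y := fun y hy => by
    obtain ⟨e, he⟩ := T.t_surj y
    have h1 : 0 < d y := card_pos.2 ⟨e, mem_filter.2 ⟨mem_univ e, he⟩⟩
    simp only [q, if_pos hy]; omega
  have hsplit : ∀ U : Finset V,
      ∑ y ∈ U.filter (fun y => ¬ T.Root e₀ y), q y + 2 * (U.filter fun y => ¬ T.Root e₀ y).card =
        (univ.filter fun e => T.t e ∈ U.filter fun y => ¬ T.Root e₀ y).card ∧
      ∑ y ∈ U.filter (fun y => T.Root e₀ y), q y + (U.filter fun y => T.Root e₀ y).card =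
        (univ.filter fun e => T.t e ∈ U.filter fun y => T.Root e₀ y).card := fun U => by
    rw [← hsum, ← hsum, ← sum_congr rfl fun y hy => hqN y (mem_filter.1 hy).2,
      ← sum_congr rfl fun y hy => hqR y (mem_filter.1 hy).2, sum_add_distrib, sum_add_distrib]
    simp [mul_comm]
  have htot : ∑ y, q y = Fintype.card (T.W' e₀) := by
    obtain ⟨h1, h2⟩ := hsplit univ
    have h3 := sum_filter_add_sum_filter_not univ (fun y => T.Root e₀ y) q
    have h4 := sum_filter_add_sum_filter_not univ (fun y => T.Root e₀ y) d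
    have h5 := card_filter_add_card_filter_not (s := univ) fun y => T.Root e₀ y
    have h6 : (univ.filter fun y => T.Root e₀ y).card = 3 := by convert T.card_root e₀
    have h7 : ∑ y, d y = Fintype.card E := by rw [hsum]; simp
    have h8 : Fintype.card (T.W' e₀) = Fintype.card W - 1 := by
      simp [W', Fintype.card_subtype_compl]
    have h9 := T.card_E_W
    have h10 := T.card_V
    rw [hsum, hsum] at h4
    rw [card_univ] at h5
    omega
  let cor : T.W' e₀ → Finset V := fun f => (univ.filter fun e => T.w e = f.1).image T.t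
  have hcor : ∀ f y, y ∈ cor f ↔ ∃ e, T.w e = f.1 ∧ T.t e = y := fun f y => by simp [cor]
  obtain ⟨φ, hφ, hφ'⟩ := (all_card_le_biUnion_card_iff_exists_injective
      fun f : T.W' e₀ => (cor f).sigma fun y => range (q y)).1 fun A => by
    have e1 : (A.biUnion fun f => (cor f).sigma fun y => range (q y)) =
        (A.biUnion cor).sigma fun y => range (q y) := by
      ext x
      simp only [mem_biUnion, mem_sigma]
      exact ⟨fun ⟨f, h1, h2, h3⟩ => ⟨⟨f, h1, h2⟩, h3⟩, fun ⟨⟨f, h1, h2⟩, h3⟩ => ⟨f, h1, h2, h3⟩⟩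
    rw [e1, card_sigma]
    simp only [card_range]
    set U := A.biUnion cor with hU
    obtain ⟨h1, h2⟩ := hsplit U
    have h3 := sum_filter_add_sum_filter_not U (fun y => T.Root e₀ y) q
    have h4 := T.hall_ineq e₀ h (U.filter fun y => ¬ T.Root e₀ y) fun y hy => (mem_filter.1 hy).2
    have h5 := card_filter_add_card_filter_not
      (s := univ.filter fun e => T.t e ∈ U.filter fun y => T.Root e₀ y) fun e => T.w e = T.w e₀
    have h6 : (U.filter fun y => T.Root e₀ y).card ≤ ((univ.filter fun e =>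
        T.t e ∈ U.filter fun y => T.Root e₀ y).filter fun e => T.w e = T.w e₀).card := by
      refine card_le_card_of_surjOn T.t fun y hy => ?_
      obtain ⟨e, he, rfl⟩ := (mem_filter.1 (mem_coe.1 hy)).2
      exact ⟨e, mem_coe.2 (mem_filter.2 ⟨mem_filter.2 ⟨mem_univ e, hy⟩, he⟩), rfl⟩
    have h7 : A.card ≤ (T.W3 (U.filter fun y => ¬ T.Root e₀ y)).card + ((univ.filter fun e =>
        T.t e ∈ U.filter fun y => T.Root e₀ y).filter fun e => ¬ T.w e = T.w e₀).card := by
      refine le_trans ?_ ((card_union_le _ _).trans (Nat.add_le_add_left (card_image_le (f := T.w)) _))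
      refine card_le_card_of_injOn Subtype.val (fun f hf => mem_coe.2 (mem_union.2 ?_))
        Subtype.val_injective.injOn
      have hfU : ∀ e, T.w e = f.1 → T.t e ∈ U := fun e he =>
        mem_biUnion.2 ⟨f, hf, (hcor _ _).2 ⟨e, he, rfl⟩⟩
      by_cases hr : ∃ e, T.w e = f.1 ∧ T.Root e₀ (T.t e)
      · obtain ⟨e, he, hr⟩ := hr
        exact Or.inr (mem_image.2 ⟨e, mem_filter.2 ⟨mem_filter.2 ⟨mem_univ e,
          mem_filter.2 ⟨hfU e he, hr⟩⟩, he ▸ f.2⟩, he⟩)
      · exact Or.inl (mem_filter.2 ⟨mem_univ _, fun e he =>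
          mem_filter.2 ⟨hfU e he, fun h' => hr ⟨e, he, h'⟩⟩⟩)
    omega
  simp only [mem_sigma, mem_range, hcor] at hφ'
  choose κ hκw hκt using fun f => (hφ' f).1
  have hκi : Function.Injective κ := fun f f' e => Subtype.ext (by rw [← hκw, e, hκw])
  have hle : ∀ y ∈ (univ : Finset V), (univ.filter fun f => T.t (κ f) = y).card ≤ q y := fun y _ => by
    rw [← card_range (q y)]
    refine card_le_card_of_injOn (fun f => (φ f).2) (fun f hf => ?_) fun f hf f' hf' e => hφ ?_
    · have h1 := (mem_filter.1 (mem_coe.1 hf)).2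
      rw [hκt] at h1
      exact mem_coe.2 (mem_range.2 (h1 ▸ (hφ' f).2))
    · have h1 := (mem_filter.1 (mem_coe.1 hf)).2
      have h2 := (mem_filter.1 (mem_coe.1 hf')).2
      rw [hκt] at h1 h2
      exact Sigma.ext (h1.trans h2.symm) (heq_of_eq e)
  have heq := (sum_eq_sum_iff_of_le hle).1 (by
    rw [htot, sum_card_fiberwise_eq_card_filter univ univ fun f => T.t (κ f)]; simp)
  have hcnt : ∀ y, q y + (univ.filter fun e => T.t e = y ∧ ∀ f : T.W' e₀, e ≠ κ f).card = d y := by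
    intro y
    have h1 := card_filter_add_card_filter_not (s := univ.filter fun e => T.t e = y)
      fun e => ∀ f : T.W' e₀, e ≠ κ f
    have h2 : ((univ.filter fun e => T.t e = y).filter fun e => ¬ ∀ f : T.W' e₀, e ≠ κ f) =
        (univ.filter fun f => T.t (κ f) = y).image κ := by
      ext e
      simp only [mem_filter, mem_univ, true_and, mem_image, not_forall, not_not]
      exact ⟨fun ⟨h1, f, h2⟩ => ⟨f, h2 ▸ h1, h2.symm⟩, fun ⟨f, h1, h2⟩ => ⟨h2 ▸ h1, f, h2.symm⟩⟩
    rw [h2, card_image_of_injective _ hκi, heq y (mem_univ y), filter_filter] at h1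
    simp only [d]
    omega
  refine ⟨κ, hκw, fun f e he hne hr => ?_, fun y hy => ?_⟩
  · have h1 := hcnt (T.t e)
    have h2 := hqR _ hr
    obtain ⟨e', he', ht⟩ := hr
    have h3 : 1 < (univ.filter fun e'' => T.t e'' = T.t e ∧ ∀ f : T.W' e₀, e'' ≠ κ f).card := by
      refine one_lt_card.2 ⟨e, mem_filter.2 ⟨mem_univ _, rfl, fun f' hf' => hne ?_⟩, e',
        mem_filter.2 ⟨mem_univ _, ht, fun f' hf' => f'.2 ?_⟩, fun h' => f.2 ?_⟩
      · have : f' = f := Subtype.ext (by rw [← hκw, ← hf', he])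
        rw [hf', this]
      · rw [← hκw, ← hf', he']
      · rw [← he, h', he']
    omega
  · have h1 := hcnt y
    have h2 := hqN y hy
    omega

/-- Recipe: the corners `α (κ f)`, `α² (κ f)` form a 2-regular bipartite graph between `W'` and the non-roots; Hall's theorem gives
`μ`; `ν f` is the other corner; `ν` is injective because `μ` is onto the non-roots (`IsState.surj`) and each non-root has exactly two
non-excluded corners. -/
theorem exists_pair (e₀ : E) (h : ∀ I J, ¬ T.BadCut e₀ I J) :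
    ∃ μ ν : T.W' e₀ → E, T.IsState e₀ μ ∧ T.IsState e₀ ν ∧ ∀ f, ν f ≠ μ f := by
  classical
  obtain ⟨κ, hw, hr, hc⟩ := T.exists_excl e₀ h
  have hN : ∀ (f : T.W' e₀) e, e = T.α (κ f) ∨ e = T.α (T.α (κ f)) →
      T.w e = f.1 ∧ ¬ T.Root e₀ (T.t e) ∧ ∀ f' : T.W' e₀, e ≠ κ f' := fun f e he => by
    have h1 : T.w e = f.1 := by rcases he with rfl | rfl <;> simp only [T.w_α, hw]
    have h2 : e ≠ κ f := by
      rcases he with rfl | rfl
      exacts [T.α_ne _, T.αα_ne _]
    refine ⟨h1, hr f e h1 h2, fun f' hf' => h2 ?_⟩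
    have : f' = f := Subtype.ext (by rw [← hw, ← hf', h1])
    rw [hf', this]
  obtain ⟨φ, hφ, hφ'⟩ := (all_card_le_biUnion_card_iff_exists_injective
      fun f : T.W' e₀ => ({T.t (T.α (κ f)), T.t (T.α (T.α (κ f)))} : Finset V)).1 fun A => by
    refine Nat.le_of_mul_le_mul_right (card_mul_le_card_mul
      (fun f y => y ∈ ({T.t (T.α (κ f)), T.t (T.α (T.α (κ f)))} : Finset V)) (fun f hf => ?_)
      fun y hy => ?_) two_pos
    · rw [← card_pair (T.t_α_ne (T.α (κ f))).symm]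
      exact card_le_card fun y hy => mem_filter.2 ⟨mem_biUnion.2 ⟨f, hf, hy⟩, hy⟩
    · have hy' : ¬ T.Root e₀ y := by
        obtain ⟨f, -, hf⟩ := mem_biUnion.1 hy
        rcases mem_insert.1 hf with rfl | hf
        · exact (hN f _ (Or.inl rfl)).2.1
        · rw [mem_singleton.1 hf]; exact (hN f _ (Or.inr rfl)).2.1
      rw [← hc y hy']
      have h1 : ∀ f : T.W' e₀, (if y = T.t (T.α (κ f)) then T.α (κ f) else T.α (T.α (κ f))) =
          T.α (κ f) ∨ (if y = T.t (T.α (κ f)) then T.α (κ f) else T.α (T.α (κ f))) =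
          T.α (T.α (κ f)) := fun f => by split_ifs <;> simp
      refine card_le_card_of_injOn
        (fun f => if y = T.t (T.α (κ f)) then T.α (κ f) else T.α (T.α (κ f))) (fun f hf => ?_)
        fun f _ f' _ e => Subtype.ext ?_
      · refine mem_coe.2 (mem_filter.2 ⟨mem_univ _, ?_, (hN f _ (h1 f)).2.2⟩)
        have h2 := (mem_filter.1 (mem_coe.1 hf)).2
        simp only [mem_insert, mem_singleton] at h2
        simp only
        split_ifs with h3
        · exact h3.symm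
        · exact (h2.resolve_left h3).symm
      · rw [← (hN f _ (h1 f)).1, ← (hN f' _ (h1 f')).1]
        exact congrArg T.w e
  have hex : ∀ f : T.W' e₀, ∃ m n : E, (m = T.α (κ f) ∨ m = T.α (T.α (κ f))) ∧
      (n = T.α (κ f) ∨ n = T.α (T.α (κ f))) ∧ n ≠ m ∧ T.t m = φ f := fun f => by
    have h1 := hφ' f
    simp only [mem_insert, mem_singleton] at h1
    rcases h1 with h1 | h1
    · exact ⟨_, _, Or.inl rfl, Or.inr rfl, T.α_ne _, h1.symm⟩
    · exact ⟨_, _, Or.inr rfl, Or.inl rfl, (T.α_ne _).symm, h1.symm⟩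
  choose μ ν hμ hν hne ht using hex
  have sμ : T.IsState e₀ μ := ⟨fun f => (hN f _ (hμ f)).1, fun f => (hN f _ (hμ f)).2.1,
    fun f f' e => hφ (by rw [← ht, ← ht]; exact e)⟩
  refine ⟨μ, ν, sμ, ⟨fun f => (hN f _ (hν f)).1, fun f => (hN f _ (hν f)).2.1,
    fun f f' e => ?_⟩, hne⟩
  by_contra hff
  have hy := (hN f _ (hν f)).2.1
  obtain ⟨f'', hf''⟩ := sμ.surj hy
  have hνμ : ∀ a b : T.W' e₀, ν a ≠ μ b := fun a b hab => by
    have : a = b := Subtype.ext (by rw [← (hN a _ (hν a)).1, hab, sμ.w_eq])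
    exact hne a (this ▸ hab)
  refine absurd (hc _ hy) (ne_of_gt (two_lt_card_iff.2 ⟨ν f, ν f', μ f'',
    mem_filter.2 ⟨mem_univ _, rfl, (hN f _ (hν f)).2.2⟩,
    mem_filter.2 ⟨mem_univ _, e.symm, (hN f' _ (hν f')).2.2⟩,
    mem_filter.2 ⟨mem_univ _, hf'', (hN f'' _ (hμ f'')).2.2⟩, fun hab => hff (Subtype.ext ?_),
    hνμ _ _, hνμ _ _⟩))
  rw [← (hN f _ (hν f)).1, hab, (hN f' _ (hν f')).1]

end Tri

end Crest.Agent.R39
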