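import Crest.Agent.R39.Defs
import Crest.Prelude.Def_PlanarMap

/-!
# R39/LinkA: the dual triangulation of a cubic bipartite 3-connected planar map
-/

set_option autoImplicit false

namespace Crest.Agent.R39

open Finset Crest.CombinatoricsR.PlanarMap

section Aux

variable {V : Type} [Fintype V] [DecidableEq V] {G : SimpleGraph V} [DecidableRel G.Adj]

theorem fin2_iff {a b : Fin 2} (h : a ≠ b) : a = 0 ↔ b ≠ 0 := by
  revert a b
  decide

theorem three_le_of_closed (hcubic : G.IsRegularOfDegree 3) (R : RotationSystem G) {d : G.Dart}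
    {S : Finset G.Dart} (hd : d ∈ S) (hS : ∀ x ∈ S, R.rot x ∈ S) : 3 ≤ S.card := by
  have h := G.dart_fst_fiber_card_eq_degree d.fst
  rw [hcubic.degree_eq] at h
  rw [← h]
  refine card_le_card fun x hx => ?_
  obtain ⟨n, rfl⟩ := (R.rot_sameCycle d x (mem_filter.1 hx).2.symm).exists_nat_pow_eq
  clear hx
  induction n with
  | zero => exact hd
  | succ n ih => rw [pow_succ', Equiv.Perm.mul_apply]; exact hS _ ih

theorem rot_ne (hcubic : G.IsRegularOfDegree 3) (R : RotationSystem G) (d : G.Dart) :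
    R.rot d ≠ d := by
  intro h
  have := three_le_of_closed hcubic R (S := {d}) (mem_singleton_self d) (by simpa using h)
  simp at this

theorem rot2_ne (hcubic : G.IsRegularOfDegree 3) (R : RotationSystem G) (d : G.Dart) :
    R.rot (R.rot d) ≠ d := by
  classical
  intro h
  have := three_le_of_closed hcubic R (S := {d, R.rot d}) (d := d) (by simp) (by simp [h])
  have h2 := card_le_two (a := d) (b := R.rot d)
  omega

theorem fst_eq_iff (hcubic : G.IsRegularOfDegree 3) (R : RotationSystem G) (d d' : G.Dart) :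
    d'.fst = d.fst ↔ d' = d ∨ d' = R.rot d ∨ d' = R.rot (R.rot d) := by
  classical
  have h := G.dart_fst_fiber_card_eq_degree d.fst
  rw [hcubic.degree_eq] at h
  have h3 : ({d, R.rot d, R.rot (R.rot d)} : Finset G.Dart).card = 3 :=
    card_eq_three.2 ⟨_, _, _, (rot_ne hcubic R d).symm, (rot2_ne hcubic R d).symm,
      (rot_ne hcubic R _).symm, rfl⟩
  have h4 : ({d, R.rot d, R.rot (R.rot d)} : Finset G.Dart) = univ.filter fun x => x.fst = d.fst := by
    refine eq_of_subset_of_card_le (fun x hx => ?_) (by rw [h, h3])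
    simp only [mem_insert, mem_singleton] at hx
    rcases hx with rfl | rfl | rfl <;> simp [R.rot_fst]
  have h5 := Finset.ext_iff.1 h4 d'
  simpa using h5.symm

theorem rot3 (hcubic : G.IsRegularOfDegree 3) (R : RotationSystem G) (d : G.Dart) :
    R.rot (R.rot (R.rot d)) = d := by
  rcases (fst_eq_iff hcubic R d (R.rot (R.rot (R.rot d)))).1 (by simp [R.rot_fst]) with h | h | h
  · exact h
  · exact absurd h (rot2_ne hcubic R _)
  · exact absurd h (rot_ne hcubic R _)

theorem six_le (hcubic : G.IsRegularOfDegree 3) (C : G.Coloring (Fin 2)) (hne : Nonempty V) :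
    6 ≤ Fintype.card V := by
  obtain ⟨v⟩ := hne
  have hv : (G.neighborFinset v).card = 3 := hcubic.degree_eq v
  obtain ⟨u, hu⟩ := card_pos.1 (hv ▸ (by norm_num : 0 < 3))
  have hu' : (G.neighborFinset u).card = 3 := hcubic.degree_eq u
  have hd : Disjoint (G.neighborFinset v) (G.neighborFinset u) := by
    refine disjoint_left.2 fun x hx hx' => ?_
    rw [SimpleGraph.mem_neighborFinset] at hu hx hx'
    have h1 := C.valid hu
    have h2 := C.valid hx
    have h3 := C.valid hx'
    revert h1 h2 h3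
    generalize C v = a, C u = b, C x = c
    revert a b c
    decide
  have := card_le_univ (G.neighborFinset v ∪ G.neighborFinset u)
  rw [card_union_of_disjoint hd] at this
  omega

omit [DecidableRel G.Adj] in
theorem cut_aux (hconn : IsThreeConnected G) (S : Finset V) (hS : 3 ≤ S.card) {v : V} (hv : v ∉ S)
    (K : Finset G.Dart) (hK : K.card ≤ 2) (h : ∀ x y, G.Adj x y → x ∈ S → y ∉ S →
      ∃ d ∈ K, (d.fst = x ∧ d.snd = y) ∨ (d.fst = y ∧ d.snd = x)) : False := by
  set T : Finset V := (K.image fun d => if d.fst ∈ S then d.fst else d.snd) ∩ S with hT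
  have hT2 : T.card ≤ 2 := (card_le_card inter_subset_left).trans (card_image_le.trans hK)
  obtain ⟨u, hu, huT⟩ := exists_mem_notMem_of_card_lt_card (s := T) (t := S) (by omega)
  have hvT : v ∉ T := fun h => hv (mem_inter.1 h).2
  have hr := (hconn.2 T hT2).preconnected ⟨u, huT⟩ ⟨v, hvT⟩
  rw [SimpleGraph.reachable_iff_reflTransGen] at hr
  have key : ∀ z : ((↑T : Set V)ᶜ : Set V),
      Relation.ReflTransGen (G.induce ((↑T : Set V)ᶜ)).Adj ⟨u, huT⟩ z → z.1 ∈ S := by
    intro z hz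
    induction hz with
    | refl => exact hu
    | @tail x y _ hxy ih =>
      by_contra hy
      obtain ⟨d, hd, hd'⟩ := h x.1 y.1 hxy ih hy
      refine x.2 (mem_inter.2 ⟨mem_image.2 ⟨d, hd, ?_⟩, ih⟩)
      rcases hd' with ⟨h1, h2⟩ | ⟨h1, h2⟩
      · rw [h1, if_pos ih]
      · rw [h1, if_neg hy, h2]
  exact hv (key _ hr)

end Aux

/-- Recipe.  `C : G.Coloring (Fin 2)`, `R` the rotation system, `φ = (dartSwap G).trans R.rot : d ↦ rot d.symm`.
`E = {d : G.Dart // C d.fst = 0}`, `F = Quotient (Equiv.Perm.SameCycle.setoid φ)`, `W = {v // C v = 0}`, `B = {v // C v ≠ 0}`,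
`t d = ⟦d⟧`, `α d = rot d`, `β d = (rot⁻¹ d.symm).symm`, `w d = d.fst`, `b d = d.snd`, `pw = pb = Subtype.val`.
* `tαβ`: `φ (φ (β d)) = φ d.symm = α d`.  `t_surj`: if `d` has a black tail then `φ d` has a white tail.
* the darts with tail `v` are exactly 3 (`G.dart_fst_fiber_card_eq_degree`) and `rot` is transitive on them
  (`SameCycle.exists_pow_eq'`), so `rot d ≠ d`, `rot (rot d) ≠ d`, `rot³ d = d` and the fibre is `{d, rot d, rot² d}`.
* `loc`: `P v := v ∈ I or v ∈ J` (by colour) satisfies `P d.fst ↔ P d.snd` for every dart `d` of the face `y`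
  (black tail: use `e = d.symm`, `⟦α e⟧ = ⟦φ d⟧ = y`), and `(φ d).fst = d.snd`; induct along `φ ^ n`.
* `euler`: `2 * #E = #darts = 2 * #edges` (`SimpleGraph.dart_card_eq_twice_card_edges`, `d ↦ d.symm`), `#W + #B = #V`.
* `cut3`: `#V ≥ 6` (the 3 neighbours of `v` and the 3 neighbours of a neighbour of `v` have different colours), so one side `S`
  of the cut has `≥ 3` vertices; if there are `≤ 2` cut edges delete their ends in `S`: the rest is disconnected. -/
theorem exists_tri (V : Type) [Fintype V] [DecidableEq V] (G : SimpleGraph V) [DecidableRel G.Adj]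
    (hcubic : G.IsRegularOfDegree 3) (hbip : G.Colorable 2) (hplanar : IsPlanarMap G) (hconn : IsThreeConnected G) :
    ∃ (E F W B : Type) (_ : Fintype E) (_ : Fintype F) (_ : Fintype W) (_ : Fintype B) (T : Tri E F W B)
      (pw : W → V) (pb : B → V), Function.Injective pw ∧ Function.Injective pb ∧
      (∀ v, (∃ f, pw f = v) ∨ ∃ f, pb f = v) ∧ (∀ f f', pw f ≠ pb f') ∧
      (∀ e, G.Adj (pw (T.w e)) (pb (T.b e))) ∧ ∀ e e', T.w e = T.w e' → T.b e = T.b e' → e = e' := by
  classical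
  obtain ⟨C⟩ := hbip
  obtain ⟨-, R, hR⟩ := hplanar
  have hcol : ∀ d : G.Dart, C d.fst = 0 ↔ C d.snd ≠ 0 := fun d => fin2_iff (C.valid d.adj)
  have hcol' : ∀ d : G.Dart, C d.fst ≠ 0 → C d.snd = 0 := fun d h => by
    by_contra h'
    exact h ((hcol d).2 h')
  set φ : Equiv.Perm G.Dart := (dartSwap G).trans R.rot with hφdef
  have hφ : ∀ d, φ d = R.rot d.symm := fun _ => rfl
  have hφ1 : ∀ d, (φ d).fst = d.snd := fun d => by rw [hφ, R.rot_fst]; rfl
  let q : G.Dart → Quotient (Equiv.Perm.SameCycle.setoid φ) := Quotient.mk _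
  have hq : ∀ d, q (φ d) = q d := fun d =>
    Quotient.sound (Equiv.Perm.sameCycle_apply_left.2 (Equiv.Perm.SameCycle.refl _ _))
  have hex : ∀ v, ∃ d : G.Dart, d.fst = v := fun v => by
    have h := G.dart_fst_fiber_card_eq_degree v
    rw [hcubic.degree_eq] at h
    obtain ⟨d, hd⟩ := Finset.card_pos.1 (h ▸ (by norm_num : 0 < 3))
    exact ⟨d, (mem_filter.1 hd).2⟩
  let P : Set {v // C v = 0} → Set {v // C v ≠ 0} → V → Prop := fun I J v =>
    (∃ h : C v = 0, ⟨v, h⟩ ∈ I) ∨ ∃ h : C v ≠ 0, ⟨v, h⟩ ∈ J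
  have hPw : ∀ I J v (h : C v = 0), P I J v ↔ ⟨v, h⟩ ∈ I := fun I J v h =>
    ⟨fun h' => h'.elim (fun h'' => h''.2) fun h'' => absurd h h''.1, fun h' => Or.inl ⟨h, h'⟩⟩
  have hPb : ∀ I J v (h : C v ≠ 0), P I J v ↔ ⟨v, h⟩ ∈ J := fun I J v h =>
    ⟨fun h' => h'.elim (fun h'' => absurd h''.1 h) fun h'' => h''.2, fun h' => Or.inr ⟨h, h'⟩⟩
  refine ⟨{d : G.Dart // C d.fst = 0}, Quotient (Equiv.Perm.SameCycle.setoid φ), {v // C v = 0},
    {v // C v ≠ 0}, inferInstance, inferInstance, inferInstance, inferInstance,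
    { t := fun d => q d.1
      α := fun d => ⟨R.rot d.1, by rw [R.rot_fst]; exact d.2⟩
      β := fun d => ⟨(R.rot (R.rot d.1.symm)).symm, hcol' _ (by
        rw [R.rot_fst, R.rot_fst]; exact (hcol d.1).1 d.2)⟩
      w := fun d => ⟨d.1.fst, d.2⟩
      b := fun d => ⟨d.1.snd, (hcol d.1).1 d.2⟩
      t_surj := fun y => ?_
      w_surj := fun v => ?_
      b_surj := fun v => ?_
      α3 := fun e => Subtype.ext (rot3 hcubic R _)
      β3 := fun e => Subtype.ext ?_
      α_ne := fun e h => rot_ne hcubic R _ (congrArg Subtype.val h)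
      β_ne := fun e h => ?_
      tαβ := fun e => ?_
      w_iff := fun e e' => ?_
      b_iff := fun e e' => ?_
      loc := fun y I J h e e' he he' hw => ?_
      euler := ?_
      cut3 := fun I J h1 h2 => ?_ }, Subtype.val, Subtype.val, Subtype.val_injective,
    Subtype.val_injective, fun v => ?_, fun f f' h => f'.2 (h ▸ f.2), fun e => e.1.adj,
    fun e e' h1 h2 => ?_⟩
  · induction y using Quotient.inductionOn with
    | h d =>
      by_cases h : C d.fst = 0
      · exact ⟨⟨d, h⟩, rfl⟩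
      · exact ⟨⟨φ d, by rw [hφ1]; exact hcol' d h⟩, hq d⟩
  · obtain ⟨d, hd⟩ := hex v.1
    exact ⟨⟨d, hd ▸ v.2⟩, Subtype.ext hd⟩
  · obtain ⟨d, hd⟩ := hex v.1
    exact ⟨⟨d.symm, hcol' d (hd ▸ v.2)⟩, Subtype.ext hd⟩
  · simp only [SimpleGraph.Dart.symm_symm, rot3 hcubic R]
  · have h1 := congrArg (fun d => d.1.symm) h
    simp only [SimpleGraph.Dart.symm_symm] at h1
    exact rot2_ne hcubic R _ h1
  · show q (R.rot e.1) = q (R.rot (R.rot e.1.symm)).symm
    rw [← hq (R.rot (R.rot e.1.symm)).symm, ← hq (φ _), hφ, hφ]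
    simp only [SimpleGraph.Dart.symm_symm, rot3 hcubic R]
  · simp only [Subtype.ext_iff]
    exact fst_eq_iff hcubic R e.1 e'.1
  · simp only [Subtype.ext_iff, SimpleGraph.Dart.symm_symm, rot3 hcubic R]
    have h1 := fst_eq_iff hcubic R e.1.symm e'.1.symm
    have h2 : ∀ d : G.Dart, e'.1.symm = d ↔ e'.1 = d.symm := fun d =>
      ⟨fun h => by rw [← h, SimpleGraph.Dart.symm_symm], fun h => by rw [h, SimpleGraph.Dart.symm_symm]⟩
    rw [h2, h2, h2, SimpleGraph.Dart.symm_symm] at h1
    refine Iff.trans h1 ?_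
    tauto
  · have key : ∀ d : G.Dart, q d = y → (P I J d.fst ↔ P I J d.snd) := by
      intro d hd
      by_cases hc : C d.fst = 0
      · rw [hPw I J _ hc, hPb I J _ ((hcol d).1 hc)]
        exact h ⟨d, hc⟩ (Or.inl hd)
      · rw [hPb I J _ hc, hPw I J _ (hcol' d hc)]
        exact (h ⟨d.symm, hcol' d hc⟩ (Or.inr ((hq d).trans hd))).symm
    have hn : ∀ n : ℕ, q ((φ ^ n) e.1) = y ∧ P I J ((φ ^ n) e.1).fst := by
      intro n
      induction n with
      | zero => exact ⟨he, (hPw I J _ e.2).2 hw⟩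
      | succ n ih =>
        rw [pow_succ', Equiv.Perm.mul_apply, hq, hφ1]
        exact ⟨ih.1, (key _ ih.1).1 ih.2⟩
    have hs : φ.SameCycle e.1 e'.1 := Quotient.exact (he.trans he'.symm)
    obtain ⟨n, hn'⟩ := hs.exists_nat_pow_eq
    have := (hn n).2
    rw [hn'] at this
    exact (hPw I J _ e'.2).1 this
  · have h1 : Fintype.card {v // C v = 0} + Fintype.card {v // C v ≠ 0} = Fintype.card V := by
      have := Fintype.card_subtype_compl fun v => C v = 0
      have h2 := Fintype.card_subtype_le fun v => C v = 0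
      simp only [ne_eq]
      omega
    have h2 : Fintype.card {d : G.Dart // C d.fst = 0} + Fintype.card {d : G.Dart // ¬ C d.fst = 0} =
        Fintype.card G.Dart := by
      have := Fintype.card_subtype_compl fun d : G.Dart => C d.fst = 0
      have h2 := Fintype.card_subtype_le fun d : G.Dart => C d.fst = 0
      omega
    have h3 : Fintype.card {d : G.Dart // C d.fst = 0} = Fintype.card {d : G.Dart // ¬ C d.fst = 0} :=
      Fintype.card_congr ((dartSwap G).subtypeEquiv fun d => hcol d)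
    have h4 := G.dart_card_eq_twice_card_edges
    rw [RotationSystem.numFaces, Nat.card_eq_fintype_card, ← SimpleGraph.edgeFinset_card] at hR
    rw [← Nat.card_eq_fintype_card (α := Quotient _)]
    rw [← hφdef] at hR
    omega
  · by_contra hlt
    have h6 := six_le hcubic C (Fintype.card_pos_iff.1 (by have := hconn.1; omega))
    set K : Set {d : G.Dart // C d.fst = 0} := {e | ¬ ((⟨e.1.fst, e.2⟩ : {v // C v = 0}) ∈ I ↔
      (⟨e.1.snd, (hcol e.1).1 e.2⟩ : {v // C v ≠ 0}) ∈ J)} with hK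
    have hK2 : (K.toFinset.image Subtype.val).card ≤ 2 := by
      refine card_image_le.trans ?_
      rw [← Set.ncard_eq_toFinset_card']
      exact Nat.le_of_lt_succ (not_le.1 hlt)
    have hcut : ∀ x y, G.Adj x y → ¬ (P I J x ↔ P I J y) → ∃ d ∈ K.toFinset.image Subtype.val,
        (d.fst = x ∧ d.snd = y) ∨ (d.fst = y ∧ d.snd = x) := by
      intro x y hxy hP
      by_cases hc : C x = 0
      · refine ⟨⟨(x, y), hxy⟩, mem_image.2 ⟨⟨_, hc⟩, Set.mem_toFinset.2 ?_, rfl⟩, Or.inl ⟨rfl, rfl⟩⟩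
        rwa [hPw I J _ hc, hPb I J _ ((hcol ⟨(x, y), hxy⟩).1 hc)] at hP
      · have hc' : C y = 0 := hcol' ⟨(x, y), hxy⟩ hc
        refine ⟨⟨(y, x), hxy.symm⟩, mem_image.2 ⟨⟨_, hc'⟩, Set.mem_toFinset.2 ?_, rfl⟩,
          Or.inr ⟨rfl, rfl⟩⟩
        rwa [hPb I J _ hc, hPw I J _ hc', iff_comm] at hP
    have hs := Finset.card_filter_add_card_filter_not (s := (univ : Finset V)) (P I J)
    rw [card_univ] at hs
    by_cases h3 : 3 ≤ (univ.filter (P I J)).card
    · obtain ⟨v, hv⟩ : ∃ v, ¬ P I J v := by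
        rcases h2 with ⟨v, hv⟩ | ⟨v, hv⟩
        · exact ⟨v.1, fun h => hv ((hPw I J _ v.2).1 h)⟩
        · exact ⟨v.1, fun h => hv ((hPb I J _ v.2).1 h)⟩
      refine cut_aux hconn _ h3 (v := v) (by simpa using hv) _ hK2 fun x y hxy hx hy =>
        hcut x y hxy fun h => hy ?_
      simp only [mem_filter, mem_univ, true_and] at hx ⊢
      exact h.1 hx
    · obtain ⟨v, hv⟩ : ∃ v, P I J v := by
        rcases h1 with ⟨v, hv⟩ | ⟨v, hv⟩
        · exact ⟨v.1, (hPw I J _ v.2).2 hv⟩
        · exact ⟨v.1, (hPb I J _ v.2).2 hv⟩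
      refine cut_aux hconn (univ.filter fun v => ¬ P I J v) (by omega) (v := v) (by simpa using hv) _ hK2
        fun x y hxy hx hy => hcut x y hxy fun h => hy ?_
      simp only [mem_filter, mem_univ, true_and] at hx ⊢
      exact fun h' => hx (h.2 h')
  · by_cases h : C v = 0
    · exact Or.inl ⟨⟨v, h⟩, rfl⟩
    · exact Or.inr ⟨⟨v, h⟩, rfl⟩
  · exact Subtype.ext (SimpleGraph.Dart.ext _ _
      (Prod.ext (congrArg Subtype.val h1) (congrArg Subtype.val h2)))

end Crest.Agent.R39
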