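import Crest.Agent.R39.Basic

/-!
# R39/LinkB: the bichromatic edges of a good colouring form a Hamiltonian cycle
-/

set_option autoImplicit false

namespace Crest.Agent.R39

open Finset

namespace Tri

variable {E F W B : Type} [Fintype E] [Fintype F] [Fintype W] [Fintype B] (T : Tri E F W B)

theorem linkB_mono_swap (x : F → ZMod 2) (e : E) : T.swap.Mono x e ↔ T.Mono x e := by
  change x (T.t e) = x (T.t (T.β e)) ↔ x (T.t e) = x (T.t (T.α e))
  rw [T.tαβ]

theorem Good.linkB_swap {T : Tri E F W B} {x : F → ZMod 2} (hx : T.Good x) : T.swap.Good x where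
  white e := by
    rw [linkB_mono_swap, linkB_mono_swap]
    exact hx.black e
  black e := by
    rw [linkB_mono_swap, linkB_mono_swap]
    exact hx.white e
  conn g hg := hx.conn g fun e he => by
    rw [T.tαβ]
    exact hg e ((T.linkB_mono_swap x e).2 he)

/-- every white face has exactly two bichromatic edges -/
theorem Good.linkB_two {T : Tri E F W B} {x : F → ZMod 2} (hx : T.Good x) (f : W) :
    ∃ e₁ e₂, e₁ ≠ e₂ ∧ ∀ e, (T.w e = f ∧ ¬ T.Mono x e) ↔ e = e₁ ∨ e = e₂ := by
  obtain ⟨e', rfl, he'⟩ : ∃ e', T.w e' = f ∧ T.Mono x e' := by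
    obtain ⟨e, rfl⟩ := T.w_surj f
    have h : ∀ a b c : ZMod 2, a = b ∨ b = c ∨ c = a := by decide
    rcases h (x (T.t e)) (x (T.t (T.α e))) (x (T.t (T.α (T.α e)))) with h | h | h
    · exact ⟨e, rfl, h⟩
    · exact ⟨T.α e, T.w_α e, h⟩
    · exact ⟨T.α (T.α e), (T.w_α _).trans (T.w_α e), by rwa [Mono, T.α3]⟩
  refine ⟨T.α e', T.α (T.α e'), (T.α_ne _).symm, fun e => ⟨fun ⟨h1, h2⟩ => ?_, ?_⟩⟩
  · rcases (T.w_iff e' e).1 h1 with rfl | h
    · exact absurd he' h2
    · exact h
  · rintro (rfl | rfl)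
    · exact ⟨T.w_α _, fun h => hx.white e' ⟨he', h⟩⟩
    · exact ⟨(T.w_α _).trans (T.w_α _), fun h => hx.white _ ⟨h, by rwa [T.α3]⟩⟩

theorem Good.linkB_two' {T : Tri E F W B} {x : F → ZMod 2} (hx : T.Good x) (f : B) :
    ∃ e₁ e₂, e₁ ≠ e₂ ∧ ∀ e, (T.b e = f ∧ ¬ T.Mono x e) ↔ e = e₁ ∨ e = e₂ := by
  obtain ⟨e₁, e₂, h, h'⟩ := hx.linkB_swap.linkB_two f
  refine ⟨e₁, e₂, h, fun e => ?_⟩
  rw [← h' e, linkB_mono_swap]
  rfl

/-- A set of faces closed under crossing bichromatic edges is empty or everything.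
Recipe: `u y = if x y = 0 then 0 else 1 : ℝ`, `z e = (u (t (α e)) - u (t e)) * [w e ∈ I]`; `z e = (…) * [b e ∈ J]` as well, so `z`
is orthogonal to all boundaries (`orth` with `c * 1_I, 0` and with `0, d * 1_J`), `z = δ g` (`exists_cobdry`), `g` is constant
along monochromatic edges, hence on the colour classes (`Good.conn`), hence `[w e ∈ I]` is the same number for all bichromatic `e`;
every face has a bichromatic edge (`Good.white`, `Good.black`). -/
theorem Good.closed {T : Tri E F W B} {x : F → ZMod 2} (hx : T.Good x) (I : Set W) (J : Set B)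
    (h : ∀ e, ¬ T.Mono x e → (T.w e ∈ I ↔ T.b e ∈ J)) :
    (I = Set.univ ∧ J = Set.univ) ∨ (I = ∅ ∧ J = ∅) := by
  classical
  let u : F → ℝ := fun y => if x y = 0 then 0 else 1
  have hu : ∀ e, T.Mono x e → u (T.t (T.α e)) - u (T.t e) = 0 := fun e he => by
    simp only [u, show x (T.t e) = x (T.t (T.α e)) from he, sub_self]
  obtain ⟨g, hg⟩ := T.exists_cobdry
    (fun e => (u (T.t (T.α e)) - u (T.t e)) * if T.w e ∈ I then 1 else 0) (by
      intro c d
      refine Eq.trans (Finset.sum_congr rfl fun e _ => ?_)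
        (T.orth u (fun f => if f ∈ I then c f else 0) (fun f => if f ∈ J then d f else 0))
      by_cases he : T.Mono x e
      · simp [hu e he]
      · by_cases h1 : T.w e ∈ I
        · simp [h1, (h e he).1 h1]
        · simp [h1, mt (h e he).2 h1])
  have hc := hx.conn g fun e he => by
    have := hg e
    rw [hu e he, zero_mul] at this
    linarith
  let G : ZMod 2 → ℝ := fun a => if h : ∃ y, x y = a then g h.choose else 0
  have hG : ∀ y, g y = G (x y) := fun y => by
    have h1 : ∃ y', x y' = x y := ⟨y, rfl⟩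
    simp only [G, dif_pos h1]
    exact hc _ _ h1.choose_spec.symm
  have key : ∀ e, ¬ T.Mono x e → (if T.w e ∈ I then (1 : ℝ) else 0) = G 1 - G 0 := by
    intro e he
    have h1 := hg e
    rw [hG, hG] at h1
    have h2 : ∀ a b : ZMod 2, a ≠ b → (a = 0 ∧ b = 1) ∨ (a = 1 ∧ b = 0) := by decide
    rcases h2 _ _ he with ⟨h3, h4⟩ | ⟨h3, h4⟩
    · simp only [u, h3, h4, if_true, one_ne_zero, if_false] at h1
      linarith
    · simp only [u, h3, h4, if_true, one_ne_zero, if_false] at h1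
      linarith
  have hw : ∀ f, ∃ e, T.w e = f ∧ ¬ T.Mono x e := fun f =>
    let ⟨e₁, _, _, h'⟩ := hx.linkB_two f
    ⟨e₁, (h' e₁).2 (Or.inl rfl)⟩
  have hb : ∀ f, ∃ e, T.b e = f ∧ ¬ T.Mono x e := fun f =>
    let ⟨e₁, _, _, h'⟩ := hx.linkB_two' f
    ⟨e₁, (h' e₁).2 (Or.inl rfl)⟩
  by_cases hκ : G 1 - G 0 = 1
  · have h1 : ∀ e, ¬ T.Mono x e → T.w e ∈ I := fun e he => by
      by_contra h2
      have := key e he
      rw [if_neg h2, hκ] at this
      exact zero_ne_one this
    refine Or.inl ⟨Set.eq_univ_of_forall fun f => ?_, Set.eq_univ_of_forall fun f => ?_⟩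
    · obtain ⟨e, rfl, he⟩ := hw f
      exact h1 e he
    · obtain ⟨e, rfl, he⟩ := hb f
      exact (h e he).1 (h1 e he)
  · have h1 : ∀ e, ¬ T.Mono x e → T.w e ∉ I := fun e he h2 => by
      have := key e he
      rw [if_pos h2] at this
      exact hκ this.symm
    refine Or.inr ⟨Set.eq_empty_of_forall_notMem fun f => ?_,
      Set.eq_empty_of_forall_notMem fun f => ?_⟩
    · obtain ⟨e, rfl, he⟩ := hw f
      exact h1 e he
    · obtain ⟨e, rfl, he⟩ := hb f
      exact fun h2 => h1 e he ((h e he).2 h2)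

/-- Recipe: `H.Adj u v := ∃ e, ¬ Mono x e ∧ (u = pw (w e) ∧ v = pb (b e) ∨ v = pw (w e) ∧ u = pb (b e))`, `H ≤ G`.  Every face has
exactly two bichromatic edges (parity in `ZMod 2` around the triangle `e, α e, α² e`, and `Good.white`; same with `β`, use `tαβ`),
so `H.IsCycles` and every vertex has a neighbour; `H` is connected by `Good.closed` (`I = {f | H.Reachable v₀ (pw f)}`, …;
`E` is nonempty by `euler` and the surjectivity fields).  Then
`SimpleGraph.IsCycles.exists_cycle_toSubgraph_verts_eq_connectedComponentSupp` gives a cycle through all vertices; it is Hamiltonian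
(`SimpleGraph.Walk.isHamiltonianCycle_iff_isCycle_and_support_count_tail_eq_one` or `…_and_length_eq`); `IsHamiltonian.mono`. -/
theorem ham_of_good {V : Type} [Fintype V] [DecidableEq V] (G : SimpleGraph V) (pw : W → V) (pb : B → V)
    (hw : Function.Injective pw) (hb : Function.Injective pb) (hsurj : ∀ v, (∃ f, pw f = v) ∨ ∃ f, pb f = v)
    (hne : ∀ f f', pw f ≠ pb f') (hadj : ∀ e, G.Adj (pw (T.w e)) (pb (T.b e)))
    (hsimple : ∀ e e', T.w e = T.w e' → T.b e = T.b e' → e = e') {x : F → ZMod 2} (hx : T.Good x) :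
    G.IsHamiltonian := by
  let H : SimpleGraph V := SimpleGraph.fromRel fun u v =>
    ∃ e, ¬ T.Mono x e ∧ u = pw (T.w e) ∧ v = pb (T.b e)
  have hH : ∀ e, ¬ T.Mono x e → H.Adj (pw (T.w e)) (pb (T.b e)) := fun e he =>
    (SimpleGraph.fromRel_adj _ _ _).2 ⟨hne _ _, Or.inl ⟨e, he, rfl, rfl⟩⟩
  have hHG : H ≤ G := by
    intro u v huv
    obtain ⟨-, ⟨e, -, rfl, rfl⟩ | ⟨e, -, rfl, rfl⟩⟩ := (SimpleGraph.fromRel_adj _ _ _).1 huv
    · exact hadj e
    · exact (hadj e).symm
  have hcard : ∀ v, (H.neighborSet v).ncard = 2 := by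
    intro v
    rcases hsurj v with ⟨f, rfl⟩ | ⟨f, rfl⟩
    · obtain ⟨e₁, e₂, h12, h⟩ := hx.linkB_two f
      obtain ⟨h1, h1'⟩ := (h e₁).2 (Or.inl rfl)
      obtain ⟨h2, h2'⟩ := (h e₂).2 (Or.inr rfl)
      rw [← Set.ncard_pair (a := pb (T.b e₁)) (b := pb (T.b e₂))
        fun h3 => h12 (hsimple _ _ (h1.trans h2.symm) (hb h3))]
      congr 1
      ext v
      constructor
      · intro hv
        obtain ⟨-, ⟨e, he, h3, rfl⟩ | ⟨e, -, -, h3⟩⟩ :=
          (SimpleGraph.fromRel_adj _ _ _).1 ((H.mem_neighborSet _ _).1 hv)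
        · rcases (h e).1 ⟨(hw h3).symm, he⟩ with rfl | rfl
          · exact Or.inl rfl
          · exact Or.inr rfl
        · exact absurd h3 (hne _ _)
      · rintro (rfl | rfl)
        · exact h1 ▸ hH e₁ h1'
        · exact h2 ▸ hH e₂ h2'
    · obtain ⟨e₁, e₂, h12, h⟩ := hx.linkB_two' f
      obtain ⟨h1, h1'⟩ := (h e₁).2 (Or.inl rfl)
      obtain ⟨h2, h2'⟩ := (h e₂).2 (Or.inr rfl)
      rw [← Set.ncard_pair (a := pw (T.w e₁)) (b := pw (T.w e₂))
        fun h3 => h12 (hsimple _ _ (hw h3) (h1.trans h2.symm))]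
      congr 1
      ext v
      constructor
      · intro hv
        obtain ⟨-, ⟨e, -, h3, -⟩ | ⟨e, he, rfl, h3⟩⟩ :=
          (SimpleGraph.fromRel_adj _ _ _).1 ((H.mem_neighborSet _ _).1 hv)
        · exact absurd h3.symm (hne _ _)
        · rcases (h e).1 ⟨(hb h3).symm, he⟩ with rfl | rfl
          · exact Or.inl rfl
          · exact Or.inr rfl
      · rintro (rfl | rfl)
        · exact h1 ▸ (hH e₁ h1').symm
        · exact h2 ▸ (hH e₂ h2').symm
  refine SimpleGraph.IsHamiltonian.mono hHG fun _ => ?_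
  obtain ⟨e₀⟩ : Nonempty E := by
    by_contra hE
    have hE' : IsEmpty E := not_nonempty_iff.1 hE
    have h1 : IsEmpty F := T.t_surj.isEmpty
    have h2 : IsEmpty W := T.w_surj.isEmpty
    have h3 : IsEmpty B := T.b_surj.isEmpty
    have := T.euler
    simp at this
  set v₀ := pw (T.w e₀) with hv₀
  have hreach : ∀ v, H.Reachable v₀ v := by
    rcases hx.closed {f | H.Reachable v₀ (pw f)} {f | H.Reachable v₀ (pb f)} (fun e he =>
      ⟨fun h => h.trans (hH e he).reachable, fun h => h.trans (hH e he).symm.reachable⟩) with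
      ⟨h1, h2⟩ | ⟨h1, -⟩
    · intro v
      rcases hsurj v with ⟨f, rfl⟩ | ⟨f, rfl⟩
      · exact Set.eq_univ_iff_forall.1 h1 f
      · exact Set.eq_univ_iff_forall.1 h2 f
    · exact absurd (SimpleGraph.Reachable.refl v₀) (Set.eq_empty_iff_forall_notMem.1 h1 (T.w e₀))
  obtain ⟨p, hp, hp'⟩ :=
    SimpleGraph.IsCycles.exists_cycle_toSubgraph_verts_eq_connectedComponentSupp (G := H) (v := v₀)
      (c := H.connectedComponentMk v₀) (fun v _ => hcard v) rfl
      (Set.nonempty_of_ncard_ne_zero (by rw [hcard]; norm_num))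
  refine ⟨v₀, p, hp, hp.isPath_tail.isHamiltonian_of_mem fun v => ?_⟩
  have h1 : v ∈ p.support := by
    rw [← SimpleGraph.Walk.mem_verts_toSubgraph, hp']
    exact SimpleGraph.ConnectedComponent.sound (hreach v).symm
  rw [← SimpleGraph.Walk.cons_support_tail hp.not_nil, List.mem_cons] at h1
  rcases h1 with rfl | h1
  · exact p.tail.end_mem_support
  · exact h1

end Tri

end Crest.Agent.R39
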